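import Vale.Agent.P159.Stm

open MeasureTheory Real

namespace Vale.Agent.P159

namespace BogAux

variable {V : Type} [Fintype V]

lemma I_nonneg {F : (V → ℝ) → ℝ} (h : ∀ θ, 0 ≤ F θ) : 0 ≤ I F :=
  integral_nonneg h

lemma I_lin {F G H : (V → ℝ) → ℝ} (hF : Continuous F) (hG : Continuous G) (hH : Continuous H)
    (a b c : ℝ) : I (fun θ => a * F θ + b * G θ + c * H θ) = a * I F + b * I G + c * I H := by
  unfold I
  rw [integral_add, integral_add, integral_const_mul, integral_const_mul, integral_const_mul]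
  · exact intOn_cube (by fun_prop)
  · exact intOn_cube (by fun_prop)
  · exact intOn_cube (by fun_prop)
  · exact intOn_cube (by fun_prop)

lemma cs {f g w : (V → ℝ) → ℝ} (hf : Continuous f) (hg : Continuous g) (hw : Continuous w)
    (h0 : ∀ θ, 0 ≤ w θ) : I (fun θ => f θ * g θ * w θ) ^ 2 ≤
      I (fun θ => f θ ^ 2 * w θ) * I (fun θ => g θ ^ 2 * w θ) := by
  have key : ∀ t : ℝ, 0 ≤ I (fun θ => g θ ^ 2 * w θ) * (t * t) +
      (-2 * I (fun θ => f θ * g θ * w θ)) * t + I (fun θ => f θ ^ 2 * w θ) := by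
    intro t
    have h1 := I_lin (F := fun θ => g θ ^ 2 * w θ) (G := fun θ => f θ * g θ * w θ)
      (H := fun θ => f θ ^ 2 * w θ) (by fun_prop) (by fun_prop) (by fun_prop) (t * t) (-2 * t) 1
    have h2 : 0 ≤ I (fun θ => t * t * (g θ ^ 2 * w θ) + -2 * t * (f θ * g θ * w θ) +
        1 * (f θ ^ 2 * w θ)) := I_nonneg fun θ => by
      have := mul_nonneg (sq_nonneg (f θ - t * g θ)) (h0 θ)
      linarith
    linarith
  have := discrim_le_zero key
  unfold discrim at this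
  linarith

end BogAux

open BogAux in
theorem bog_pf (h : WardStmt) : BogStmt := by
  intro V _ E J g B U c e hJ hB hU hle heq hd hc
  obtain ⟨w1, w2⟩ := h V E J g
  have hZ := I_W_pos E J
  have hW := W_cont E J
  have h0 : ∀ θ, 0 ≤ W E J θ := fun θ => (W_pos E J θ).le
  have a1 := cs (f := fun θ : V → ℝ => sin (θ e.1 - θ e.2))
    (g := fun θ : V → ℝ => ∑ p ∈ E, J p * (g p.1 - g p.2) * sin (θ p.1 - θ p.2))
    (by fun_prop) (by fun_prop) hW h0
  rw [← w1 e, ← w2, heq, mul_pow, hd, one_mul] at a1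
  have a2 := cs (f := fun θ : V → ℝ => cos (θ e.1 - θ e.2)) (g := fun _ => 1)
    (by fun_prop) (by fun_prop) hW h0
  simp only [mul_one, one_pow, one_mul] at a2
  rw [heq] at a2
  have a3 := I_lin (F := fun θ : V → ℝ => sin (θ e.1 - θ e.2) ^ 2 * W E J θ)
    (G := fun θ : V → ℝ => cos (θ e.1 - θ e.2) ^ 2 * W E J θ) (H := W E J)
    (by fun_prop) (by fun_prop) hW 1 1 (-1)
  have a4 : I (fun θ : V → ℝ => 1 * (sin (θ e.1 - θ e.2) ^ 2 * W E J θ) +
      1 * (cos (θ e.1 - θ e.2) ^ 2 * W E J θ) + -1 * W E J θ) = 0 := by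
    have : (fun θ : V → ℝ => 1 * (sin (θ e.1 - θ e.2) ^ 2 * W E J θ) +
      1 * (cos (θ e.1 - θ e.2) ^ 2 * W E J θ) + -1 * W E J θ) = fun _ => 0 := by
      funext θ
      rw [sin_sq]
      ring
    rw [this]
    simp [I]
  have a5 : 0 ≤ I (fun θ : V → ℝ => sin (θ e.1 - θ e.2) ^ 2 * W E J θ) :=
    I_nonneg fun θ => mul_nonneg (sq_nonneg _) (h0 θ)
  have hUZ : 0 < U * I (W E J) := mul_pos hU hZ
  have a6 : ∑ p ∈ E, J p * (g p.1 - g p.2) ^ 2 * I (fun θ => cos (θ p.1 - θ p.2) * W E J θ) ≤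
      B * c * (U * I (W E J)) := by
    calc _ ≤ ∑ p ∈ E, B * (g p.1 - g p.2) ^ 2 * (U * I (W E J)) := by
          refine Finset.sum_le_sum fun p hp => ?_
          calc _ ≤ J p * (g p.1 - g p.2) ^ 2 * (U * I (W E J)) :=
                mul_le_mul_of_nonneg_left (hle p hp) (mul_nonneg (hJ p hp).1 (sq_nonneg _))
            _ ≤ _ := mul_le_mul_of_nonneg_right
                (mul_le_mul_of_nonneg_right (hJ p hp).2 (sq_nonneg _)) hUZ.le
      _ = B * (∑ p ∈ E, (g p.1 - g p.2) ^ 2) * (U * I (W E J)) := by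
          rw [Finset.mul_sum, Finset.sum_mul]
      _ ≤ _ := mul_le_mul_of_nonneg_right (mul_le_mul_of_nonneg_left hc hB) hUZ.le
  have hc0 : 0 ≤ c := (Finset.sum_nonneg fun p _ => sq_nonneg _).trans hc
  have a7 : U ^ 2 * I (W E J) ≤ I (fun θ : V → ℝ => cos (θ e.1 - θ e.2) ^ 2 * W E J θ) := by
    refine le_of_mul_le_mul_right ?_ hZ
    calc _ = (U * I (W E J)) ^ 2 := by ring
      _ ≤ _ := a2
  have a8 : I (fun θ : V → ℝ => sin (θ e.1 - θ e.2) ^ 2 * W E J θ) ≤ (1 - U ^ 2) * I (W E J) := by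
    linarith
  have a9 : (U * I (W E J)) ^ 2 ≤ (1 - U ^ 2) * I (W E J) * (B * c * (U * I (W E J))) :=
    a1.trans ((mul_le_mul_of_nonneg_left a6 a5).trans
      (mul_le_mul_of_nonneg_right a8 (by positivity)))
  refine le_of_mul_le_mul_right ?_ (mul_pos hUZ hZ)
  calc _ = (U * I (W E J)) ^ 2 := by ring
    _ ≤ _ := a9
    _ = _ := by ring

end Vale.Agent.P159
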