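import Vale.Agent.P159.Stm2

/-! Growth of the susceptibility in the inverse temperature. -/

open MeasureTheory Real Filter Topology

namespace Vale.Agent.P159

lemma chi_step (h1 : IntStmt) (h2 : GriStmt) (h3 : DegStmt) (R : ℕ) {c c' Y : ℝ} (h0 : 0 ≤ c)
    (hc : c ≤ c') (hY : ∀ x : box R, ∑ z, tp (edges R) (fun _ => c') x z ≤ Y) (x : box R) :
    ∑ z, tp (edges R) (fun _ => c') x z ≤
      ∑ z, tp (edges R) (fun _ => c) x z + 2 * (c' - c) * Y ^ 2 := by
  have p0 := (h2 _ (edges R) (fun _ => c') fun _ _ => h0.trans hc).1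
  have Y0 : 0 ≤ Y := (Finset.sum_nonneg fun z _ => p0 x z).trans (hY x)
  have hY' : ∀ y : box R, ∑ z, tp (edges R) (fun _ => c') z y ≤ Y := fun y =>
    (Finset.sum_congr rfl fun z _ => tp_symm _ _ z y).trans_le (hY y)
  have k1 := Finset.sum_le_sum fun z (_ : z ∈ Finset.univ) =>
    h1 _ (edges R) (fun _ => c) (fun _ => c') x z fun _ _ => ⟨h0, hc⟩
  rw [Finset.sum_sub_distrib, Finset.sum_comm] at k1
  have k2 : ∀ p ∈ edges R, ∑ z, (c' - c) * ((tp (edges R) (fun _ => c') x p.1 *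
      tp (edges R) (fun _ => c') z p.2 + tp (edges R) (fun _ => c') x p.2 *
      tp (edges R) (fun _ => c') z p.1) / 2) ≤ (c' - c) * Y / 2 *
      (tp (edges R) (fun _ => c') x p.1 + tp (edges R) (fun _ => c') x p.2) := fun p _ => by
    rw [← Finset.mul_sum, ← Finset.sum_div, Finset.sum_add_distrib, ← Finset.mul_sum,
      ← Finset.mul_sum]
    have a1 := mul_le_mul_of_nonneg_left (hY' p.2) (p0 x p.1)
    have a2 := mul_le_mul_of_nonneg_left (hY' p.1) (p0 x p.2)
    have a3 := mul_le_mul_of_nonneg_left (add_le_add a1 a2) (sub_nonneg.2 hc)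
    linarith
  have k3 := Finset.sum_le_sum k2
  rw [← Finset.mul_sum] at k3
  have k4 := mul_le_mul_of_nonneg_left ((h3 R _ (p0 x)).trans
    (mul_le_mul_of_nonneg_left (hY x) (by norm_num)))
    (show 0 ≤ (c' - c) * Y / 2 by have := sub_nonneg.2 hc; positivity)
  linarith

theorem chi_pf (h1 : IntStmt) (h2 : GriStmt) (h3 : DegStmt) : ChiStmt := by
  intro b b' X R b0 hb X0 hd hX
  have e : ∀ (c : ℝ) (x : box R), ∑ z ∈ box R, T c R x z = ∑ z, tp (edges R) (fun _ => c) x z :=
    fun c x => by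
      rw [← Finset.sum_coe_sort (box R)]
      exact Finset.sum_congr rfl fun z _ => T_eq c R x.2 z.2
  have hN : ∀ (c : ℝ) (x : box R), ∑ z, tp (edges R) (fun _ => c) x z ≤ Fintype.card (box R) :=
    fun c x => by
      refine (Finset.sum_le_card_nsmul _ _ 1 fun z _ => tp_le_one _ _ x z).trans ?_
      rw [nsmul_one, Finset.card_univ]
  have hX' : ∀ x : box R, ∑ z, tp (edges R) (fun _ => b) x z ≤ X := fun x => e b x ▸ hX x x.2
  obtain ⟨n, hn⟩ := exists_nat_gt (2 * (b' - b) * (Fintype.card (box R) : ℝ) ^ 2 / X)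
  have d0 := sub_nonneg.2 hb
  have n0 : (0 : ℝ) < n := lt_of_le_of_lt (by positivity) hn
  obtain ⟨δ, hδ⟩ : ∃ δ : ℝ, b' - b = n * δ := ⟨(b' - b) / n, by field_simp⟩
  have δ0 : 0 ≤ δ := by
    rw [hδ] at d0
    exact nonneg_of_mul_nonneg_right d0 n0
  have δ1 : 2 * δ * (Fintype.card (box R) : ℝ) ^ 2 ≤ X := by
    rw [div_lt_iff₀ X0, hδ] at hn
    exact le_of_mul_le_mul_left (by linarith) n0
  have δ2 : 18 * X * (n * δ) ≤ 1 := by
    rw [le_div_iff₀ (by positivity), hδ] at hd
    linarith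
  have key : ∀ k : ℕ, k ≤ n → ∀ x : box R,
      ∑ z, tp (edges R) (fun _ => b + k * δ) x z ≤ 2 * X := by
    intro k
    induction k with
    | zero => exact fun _ x => by simpa using (hX' x).trans (by linarith)
    | succ k ih =>
      intro hk x
      have k0 : (0 : ℝ) ≤ k * δ := by positivity
      have k1 : ((k + 1 : ℕ) : ℝ) * δ = k * δ + δ := by push_cast; ring
      have k2 : ((k + 1 : ℕ) : ℝ) * δ ≤ n * δ :=
        mul_le_mul_of_nonneg_right (Nat.cast_le.2 hk) δ0
      have a1 : ∀ y : box R, ∑ z, tp (edges R) (fun _ => b + (k + 1 : ℕ) * δ) y z ≤ 3 * X :=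
        fun y => by
          have := chi_step h1 h2 h3 R (c := b + k * δ) (c' := b + (k + 1 : ℕ) * δ) (by linarith)
            (by linarith) (hN _) y
          rw [show b + (k + 1 : ℕ) * δ - (b + k * δ) = δ by linarith] at this
          linarith [ih (by omega) y]
      have a2 := chi_step h1 h2 h3 R (c := b) b0 (by linarith) a1 x
      rw [add_sub_cancel_left] at a2
      have a3 := mul_le_mul_of_nonneg_left k2 (show 0 ≤ 18 * X * X by positivity)
      have a4 := mul_le_mul_of_nonneg_left δ2 X0.le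
      nlinarith [hX' x]
  intro x hx
  have := key n le_rfl ⟨x, hx⟩
  rw [← hδ, add_sub_cancel] at this
  exact (e b' ⟨x, hx⟩).trans_le this

end Vale.Agent.P159
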