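import Vale.Agent.P159.Stm

/-! Lattice points in a disc. -/

open MeasureTheory Real

namespace Vale.Agent.P159

namespace Circ

/-- the half open unit square centred at a lattice point -/
def Q (y : ℤ × ℤ) : Set ℂ := Complex.measurableEquivRealProd ⁻¹'
  (Set.Ico ((y.1 : ℝ) - 1 / 2) (y.1 + 1 / 2) ×ˢ Set.Ico ((y.2 : ℝ) - 1 / 2) (y.2 + 1 / 2))

theorem mem_Q {y : ℤ × ℤ} {z : ℂ} : z ∈ Q y ↔ ((y.1 : ℝ) - 1 / 2 ≤ z.re ∧ z.re < y.1 + 1 / 2) ∧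
    (y.2 : ℝ) - 1 / 2 ≤ z.im ∧ z.im < y.2 + 1 / 2 := Iff.rfl

theorem meas_Q (y : ℤ × ℤ) : MeasurableSet (Q y) :=
  Complex.measurableEquivRealProd.measurable (measurableSet_Ico.prod measurableSet_Ico)

theorem vol_Q (y : ℤ × ℤ) : volume (Q y) = 1 := by
  rw [Q, Complex.volume_preserving_equiv_real_prod.measure_preimage_equiv, Measure.volume_eq_prod,
    Measure.prod_prod, Real.volume_Ico, Real.volume_Ico]
  norm_num

theorem int_eq {a b : ℤ} {x : ℝ} (h : (a : ℝ) - 1 / 2 ≤ x ∧ x < a + 1 / 2)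
    (k : (b : ℝ) - 1 / 2 ≤ x ∧ x < b + 1 / 2) : a = b := by
  have h1 : (a : ℝ) < b + 1 := by linarith [h.1, k.2]
  have h2 : (b : ℝ) < a + 1 := by linarith [k.1, h.2]
  have h3 : a < b + 1 := by exact_mod_cast h1
  have h4 : b < a + 1 := by exact_mod_cast h2
  omega

theorem sub {n : ℕ} {y : ℤ × ℤ} (h : y.1 ^ 2 + y.2 ^ 2 ≤ (n : ℤ)) :
    Q y ⊆ Metric.closedBall 0 (√(n : ℝ) + 1) := by
  intro z hz
  obtain ⟨⟨a1, a2⟩, a3, a4⟩ := mem_Q.1 hz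
  have h' : (y.1 : ℝ) ^ 2 + (y.2 : ℝ) ^ 2 ≤ n := by exact_mod_cast h
  have b1 : ‖(⟨y.1, y.2⟩ : ℂ)‖ ≤ √(n : ℝ) := by
    rw [Complex.norm_eq_sqrt_sq_add_sq]
    exact sqrt_le_sqrt h'
  have b2 : ‖z - ⟨y.1, y.2⟩‖ ≤ 1 := by
    refine (Complex.norm_le_abs_re_add_abs_im _).trans ?_
    have c1 : |(z - ⟨y.1, y.2⟩).re| ≤ 1 / 2 := abs_le.2 ⟨by simp only [Complex.sub_re]; linarith,
      by simp only [Complex.sub_re]; linarith⟩
    have c2 : |(z - ⟨y.1, y.2⟩).im| ≤ 1 / 2 := abs_le.2 ⟨by simp only [Complex.sub_im]; linarith,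
      by simp only [Complex.sub_im]; linarith⟩
    linarith
  rw [mem_closedBall_zero_iff]
  linarith [norm_le_insert' z (⟨y.1, y.2⟩ : ℂ)]

end Circ

theorem circ_pf : CircStmt := by
  intro n
  generalize hA : ((Finset.Icc (-(n : ℤ)) n ×ˢ Finset.Icc (-(n : ℤ)) n).filter
    fun y : ℤ × ℤ => y.1 ^ 2 + y.2 ^ 2 ≤ (n : ℤ)) = A
  have h1 : volume (⋃ y ∈ A, Circ.Q y) = A.card := by
    rw [measure_biUnion_finset (fun a _ b _ h => Set.disjoint_left.2 fun z ha hb => h (Prod.ext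
      (Circ.int_eq (Circ.mem_Q.1 ha).1 (Circ.mem_Q.1 hb).1)
      (Circ.int_eq (Circ.mem_Q.1 ha).2 (Circ.mem_Q.1 hb).2))) fun y _ => Circ.meas_Q y]
    simp [Circ.vol_Q]
  have h2 : volume (⋃ y ∈ A, Circ.Q y) ≤ volume (Metric.closedBall (0 : ℂ) (√(n : ℝ) + 1)) :=
    measure_mono (Set.iUnion₂_subset fun y hy => Circ.sub (by
      rw [← hA] at hy
      exact (Finset.mem_filter.1 hy).2))
  rw [h1, Complex.volume_closedBall] at h2
  have h3 := ENNReal.toReal_mono (by finiteness) h2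
  rw [ENNReal.toReal_natCast, ENNReal.toReal_mul, ENNReal.toReal_pow,
    ENNReal.toReal_ofReal (by positivity), mul_comm] at h3
  exact h3

end Vale.Agent.P159
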