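import Vale.Agent.P159.Stm2

open MeasureTheory Real Filter Topology

namespace Vale.Agent.P159

lemma cone_hs (x : ℝ) : HasSum (fun n : ℕ => x ^ n / n.factorial) (exp x) := by
  rw [Real.exp_eq_exp_ℝ]
  exact NormedSpace.expSeries_div_hasSum_exp x

theorem cone_pf : ConeStmt := by
  intro V _ K h1 h2 P hP Q hQ
  have hn : ∀ n : ℕ, P * Q ^ n ∈ K := by
    intro n
    induction n with
    | zero => simpa using hP
    | succ n ih => rw [pow_succ, ← mul_assoc]; exact h2 _ ih _ hQ
  have cP := (h1 P hP).1
  have cQ := (h1 Q hQ).1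
  have hs : HasSum (fun n : ℕ => ∫ θ in cube V, P θ * (Q θ ^ n / n.factorial))
      (∫ θ in cube V, P θ * exp (Q θ)) := by
    refine hasSum_integral_of_dominated_convergence
      (fun n θ => |P θ| * (|Q θ| ^ n / n.factorial)) (fun n => ?_) (fun n => ?_) ?_ ?_ ?_
    · exact Continuous.aestronglyMeasurable (by fun_prop)
    · refine Eventually.of_forall fun θ => le_of_eq ?_
      rw [Real.norm_eq_abs, abs_mul, abs_div, abs_pow, Nat.abs_cast]
    · exact Eventually.of_forall fun θ => ((cone_hs _).mul_left _).summable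
    · have e : (fun θ => ∑' n : ℕ, |P θ| * (|Q θ| ^ n / n.factorial))
          = fun θ => |P θ| * exp |Q θ| := funext fun θ => ((cone_hs _).mul_left _).tsum_eq
      rw [e]
      exact intOn_cube (by fun_prop)
    · exact Eventually.of_forall fun θ => (cone_hs _).mul_left _
  refine hs.nonneg fun n => ?_
  have e : (fun θ => P θ * (Q θ ^ n / n.factorial))
      = fun θ => (P * Q ^ n) θ * (1 / n.factorial) := by
    funext θ
    simp only [Pi.mul_apply, Pi.pow_apply]
    ring
  rw [e, integral_mul_const]
  exact mul_nonneg (h1 _ (hn n)).2 (by positivity)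

end Vale.Agent.P159
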