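import Vale.Agent.P159.Stm

/-! Translation invariance of the integral of a periodic function over the cube. -/

open MeasureTheory Real

namespace Vale.Agent.P159

theorem shift_pf : ShiftStmt := by
  intro V _ F hF hP v
  have hT : Fact (0 < 2 * π) := ⟨two_pi_pos⟩
  have hm : MeasurePreserving (fun (θ : V → ℝ) (y : V) => ((θ y : ℝ) : AddCircle (2 * π)))
      (volume.restrict (cube V)) volume := by
    have h := measurePreserving_pi (fun _ : V => volume.restrict (Set.Ioc (0 : ℝ) (0 + 2 * π)))
      (fun _ : V => (volume : Measure (AddCircle (2 * π))))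
      fun _ => AddCircle.measurePreserving_mk (2 * π) 0
    rw [← Measure.restrict_pi_pi, zero_add] at h
    exact h
  obtain ⟨G, hG⟩ : ∃ G : (V → AddCircle (2 * π)) → ℂ,
      G = fun x => F fun y => (AddCircle.equivIoc (2 * π) 0 (x y) : ℝ) := ⟨_, rfl⟩
  have mG : Measurable G := by
    rw [hG]
    refine hF.measurable.comp (measurable_pi_lambda _ fun y => ?_)
    exact measurable_subtype_coe.comp
      ((AddCircle.measurableEquivIoc (2 * π) 0).measurable.comp (measurable_pi_apply y))
  have hGF : ∀ θ : V → ℝ, G (fun y => ((θ y : ℝ) : AddCircle (2 * π))) = F θ := fun θ => by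
    rw [hG, ← hP θ fun y => -toIocDiv two_pi_pos 0 (θ y)]
    refine congrArg F (funext fun y => ?_)
    have e : (AddCircle.equivIoc (2 * π) 0 ((θ y : ℝ) : AddCircle (2 * π)) : ℝ) =
        toIocMod two_pi_pos 0 (θ y) := rfl
    rw [e, toIocMod, zsmul_eq_mul]
    push_cast
    ring
  have key : ∀ w : V → ℝ, ∫ θ in cube V, F (θ + w) = ∫ x, G x := fun w => by
    have m2 : Measurable fun x : V → AddCircle (2 * π) =>
        G (x + fun y => ((w y : ℝ) : AddCircle (2 * π))) := mG.comp (measurable_add_const _)
    rw [← integral_add_right_eq_self G fun y => ((w y : ℝ) : AddCircle (2 * π)), ← hm.map_eq]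
    refine Eq.trans ?_ (integral_map hm.measurable.aemeasurable m2.aestronglyMeasurable).symm
    refine integral_congr_ae (Filter.Eventually.of_forall fun θ => ?_)
    exact (hGF (θ + w)).symm
  have h0 := key 0
  simp only [add_zero] at h0
  rw [key v, h0]

end Vale.Agent.P159
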