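import Vale.Agent.P159.Stm2
import Vale.Agent.P159.Shift

/-! Cutting the box along a shell. -/

open MeasureTheory Real Filter Topology

namespace Vale.Agent.P159

lemma cutB_zero {V : Type} [Fintype V] (E : Finset (V × V)) (J : V × V → ℝ) (A : V → Prop)
    [DecidablePred A] (hJ : ∀ p ∈ E, J p ≠ 0 → (A p.1 ↔ A p.2)) {x z : V} (hx : A x)
    (hz : ¬ A z) : tp E J x z = 0 := by
  set v : V → ℝ := fun y => if A y then π else 0 with hv
  have hW : ∀ θ : V → ℝ, W E J (θ + v) = W E J θ := by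
    intro θ
    unfold W
    congr 1
    refine Finset.sum_congr rfl fun p hp => ?_
    by_cases h0 : J p = 0
    · simp [h0]
    · have := hJ p hp h0
      congr 2
      by_cases h1 : A p.1
      · simp [hv, h1, this.1 h1]
      · simp [hv, h1, mt this.2 h1]
  have hc := W_cont E J
  have h := shift_pf V (fun θ => ((cos (θ x - θ z) * W E J θ : ℝ) : ℂ)) (by fun_prop)
    (fun θ k => by simp only [per_diff, cos_add_int_mul_two_pi, W_per E J θ k]) v
  simp only [integral_complex_ofReal, Complex.ofReal_inj, hW] at h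
  have e : ∀ θ : V → ℝ, cos ((θ + v) x - (θ + v) z) * W E J θ = -(cos (θ x - θ z) * W E J θ) := by
    intro θ
    have : (θ + v) x - (θ + v) z = θ x - θ z + π := by
      simp only [Pi.add_apply, hv, if_pos hx, if_neg hz]; ring
    rw [this, cos_add_pi]; ring
  simp only [e, integral_neg] at h
  have h0 : I (fun θ => cos (θ x - θ z) * W E J θ) = 0 := by
    unfold I; linarith
  unfold tp ex
  rw [h0, zero_div]

theorem cutB_pf (h1 : IntStmt) (h2 : GriStmt) (h3 : DegStmt) : CutStmt := by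
  intro b R n hb x hx z hz M hM hn hT
  classical
  set A : box R → Prop := fun w => nrm ((w : ℤ × ℤ) - x) ≤ n with hA
  set J : box R × box R → ℝ := fun p => if (A p.1 ↔ A p.2) then b else 0 with hJ
  have hz0 : tp (edges R) J ⟨x, hx⟩ ⟨z, hz⟩ = 0 := by
    refine cutB_zero _ _ A (fun p _ h => ?_) ?_ ?_
    · by_contra hc
      exact h (by simp only [hJ, if_neg hc])
    · simp [hA, nrm]
    · simp only [hA]; omega
  have hI := h1 (box R) (edges R) J (fun _ => b) ⟨x, hx⟩ ⟨z, hz⟩ (fun p _ => by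
    simp only [hJ]; split_ifs <;> simp [hb])
  have hg := (h2 (box R) (edges R) (fun _ => b) (fun _ _ => hb)).1
  set g : box R → ℝ := fun w =>
    if n ≤ nrm ((w : ℤ × ℤ) - x) ∧ nrm ((w : ℤ × ℤ) - x) ≤ n + 1 then T b R x w else 0 with hgd
  have hg0 : ∀ w, 0 ≤ g w := by
    intro w
    simp only [hgd]
    split_ifs
    · rw [T_eq b R hx w.2]; exact hg _ _
    · exact le_rfl
  have hD := h3 R g hg0
  have hs : ∑ w : box R, g w = ∑ w ∈ (box R).filter
      (fun w => n ≤ nrm (w - x) ∧ nrm (w - x) ≤ n + 1), T b R x w := by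
    rw [Finset.sum_filter]
    exact Finset.sum_coe_sort (box R)
      (fun w => if n ≤ nrm (w - x) ∧ nrm (w - x) ≤ n + 1 then T b R x w else 0)
  rw [hz0, sub_zero, ← T_eq b R hx hz] at hI
  rw [← hs]
  refine hI.trans (le_trans (Finset.sum_le_sum (g := fun p => b * M / 2 * (g p.1 + g p.2))
    fun p hp => ?_) ?_)
  · by_cases hc : A p.1 ↔ A p.2
    · simp only [hJ, if_pos hc, sub_self, zero_mul]
      exact mul_nonneg (by positivity) (add_nonneg (hg0 _) (hg0 _))
    · have hN := mem_edges.1 hp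
      have hsh : (n ≤ nrm ((p.1 : ℤ × ℤ) - x) ∧ nrm ((p.1 : ℤ × ℤ) - x) ≤ n + 1) ∧
          (n ≤ nrm ((p.2 : ℤ × ℤ) - x) ∧ nrm ((p.2 : ℤ × ℤ) - x) ≤ n + 1) := by
        simp only [hA, nrm] at hc ⊢
        rcases hN with h | h <;> simp only [] at h <;> rw [h] at hc ⊢ <;>
          simp only [Prod.fst_sub, Prod.snd_sub, Prod.fst_add, Prod.snd_add] at hc ⊢ <;> omega
      have e1 : g p.1 = tp (edges R) (fun _ => b) ⟨x, hx⟩ p.1 := by
        simp only [hgd, if_pos hsh.1]; exact T_eq b R hx p.1.2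
      have e2 : g p.2 = tp (edges R) (fun _ => b) ⟨x, hx⟩ p.2 := by
        simp only [hgd, if_pos hsh.2]; exact T_eq b R hx p.2.2
      have m1 : tp (edges R) (fun _ => b) ⟨z, hz⟩ p.1 ≤ M := by
        have := hT p.1 p.1.2 hsh.1.2
        rw [T_symm, T_eq b R hz p.1.2] at this
        exact this
      have m2 : tp (edges R) (fun _ => b) ⟨z, hz⟩ p.2 ≤ M := by
        have := hT p.2 p.2.2 hsh.2.2
        rw [T_symm, T_eq b R hz p.2.2] at this
        exact this
      simp only [hJ, if_neg hc, sub_zero]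
      rw [e1, e2]
      have a1 := mul_le_mul_of_nonneg_left m2 (hg ⟨x, hx⟩ p.1)
      have a2 := mul_le_mul_of_nonneg_left m1 (hg ⟨x, hx⟩ p.2)
      have a3 := mul_le_mul_of_nonneg_left (add_le_add a1 a2) hb
      nlinarith
  · rw [← Finset.mul_sum]
    have := mul_le_mul_of_nonneg_left hD (show 0 ≤ b * M / 2 by positivity)
    linarith

end Vale.Agent.P159
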