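import Vale.Agent.P159.Stm2

/-! The Dunlop-Kunz-Pfister-Vuillermot inequality. -/

open MeasureTheory Real Filter Topology

namespace Vale.Agent.P159

lemma dn_four {V : Type} [Fintype V] {A B C D : (V → ℝ) → ℝ} (hA : Continuous A)
    (hB : Continuous B) (hC : Continuous C) (hD : Continuous D) :
    I (fun θ => A θ - B θ - C θ + D θ) = I A - I B - I C + I D := by
  unfold I
  rw [integral_add (intOn_cube ((hA.fun_sub hB).fun_sub hC)) (intOn_cube hD),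
    integral_sub (intOn_cube (hA.fun_sub hB)) (intOn_cube hC),
    integral_sub (intOn_cube hA) (intOn_cube hB)]

lemma dn_mul {V : Type} {F G : (V → ℝ) → ℝ} (hF : Per F) (hG : Per G) :
    Per fun θ => F θ * G θ := fun θ k => by
  simp only [hF θ k, hG θ k]

lemma dn_dup (h2 : DupStmt) {V : Type} [Fintype V] {S T Z : (V → ℝ) → ℝ} (hS : Continuous S)
    (hT : Continuous T) (hZ : Continuous Z) (pS : Per S) (pT : Per T) (pZ : Per Z) :
    I (fun ω : V ⊕ V → ℝ => (S (fun y => ω (Sum.inl y) - ω (Sum.inr y)) -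
        S (fun y => ω (Sum.inl y) + ω (Sum.inr y))) *
      (T (fun y => ω (Sum.inl y) + ω (Sum.inr y)) - T (fun y => ω (Sum.inl y) - ω (Sum.inr y))) *
      (Z (fun y => ω (Sum.inl y) - ω (Sum.inr y)) * Z (fun y => ω (Sum.inl y) + ω (Sum.inr y)))) =
    2 * (I (fun θ => S θ * Z θ) * I (fun θ => T θ * Z θ) - I (fun θ => S θ * T θ * Z θ) * I Z) := by
  have e1 := h2 V _ _ (hS.fun_mul hZ) (hT.fun_mul hZ) (dn_mul pS pZ) (dn_mul pT pZ)
  have e2 := h2 V _ _ ((hS.fun_mul hT).fun_mul hZ) hZ (dn_mul (dn_mul pS pT) pZ) pZ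
  have e3 := h2 V _ _ hZ ((hS.fun_mul hT).fun_mul hZ) pZ (dn_mul (dn_mul pS pT) pZ)
  have e4 := h2 V _ _ (hT.fun_mul hZ) (hS.fun_mul hZ) (dn_mul pT pZ) (dn_mul pS pZ)
  have e : 2 * (I (fun θ => S θ * Z θ) * I (fun θ => T θ * Z θ) -
      I (fun θ => S θ * T θ * Z θ) * I Z) = I (fun θ => S θ * Z θ) * I (fun θ => T θ * Z θ) -
      I (fun θ => S θ * T θ * Z θ) * I Z - I Z * I (fun θ => S θ * T θ * Z θ) +
      I (fun θ => T θ * Z θ) * I (fun θ => S θ * Z θ) := by ring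
  rw [e, e1, e2, e3, e4, ← dn_four (by fun_prop) (by fun_prop) (by fun_prop) (by fun_prop)]
  congr 1
  funext ω
  ring

theorem dn_pf (h0 : ConeStmt) (h1 : MCStmt) (h2 : DupStmt) : DNStmt := by
  intro V _ E J a b c d hJ
  obtain ⟨m1, m2, mc, ms, mk⟩ := h1 (V ⊕ V)
  have hm : ∀ {F G : (V ⊕ V → ℝ) → ℝ}, F ∈ MC (V ⊕ V) → G ∈ MC (V ⊕ V) →
      (fun ω => F ω * G ω) ∈ MC (V ⊕ V) := fun hF hG => m2 _ hF _ hG
  have ha : ∀ {F G : (V ⊕ V → ℝ) → ℝ}, F ∈ MC (V ⊕ V) → G ∈ MC (V ⊕ V) →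
      (fun ω => F ω + G ω) ∈ MC (V ⊕ V) := fun hF hG => add_mem hF hG
  have hd : ∀ x y : V ⊕ V, (fun ω : V ⊕ V → ℝ => cos (ω x - ω y)) ∈ MC (V ⊕ V) := fun x y => by
    simp only [cos_sub]
    exact ha (hm (mc x) (mc y)) (hm (ms x) (ms y))
  have hQ : (∑ p ∈ E, fun ω : V ⊕ V → ℝ => 2 * J p * (cos (ω (.inl p.1) - ω (.inl p.2)) *
      cos (ω (.inr p.1) - ω (.inr p.2)))) ∈ MC (V ⊕ V) :=
    sum_mem fun p hp => hm (mk _ (mul_nonneg two_pos.le (hJ p hp))) (hm (hd _ _) (hd _ _))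
  have hP := hm (mk 4 (by norm_num)) (hm
    (ha (hm (hm (ms (.inl a)) (ms (.inr a))) (hm (mc (.inl b)) (mc (.inr b))))
      (hm (hm (mc (.inl a)) (mc (.inr a))) (hm (ms (.inl b)) (ms (.inr b)))))
    (ha (hm (hm (mc (.inl c)) (ms (.inr c))) (hm (ms (.inl d)) (mc (.inr d))))
      (hm (hm (ms (.inl c)) (mc (.inr c))) (hm (mc (.inl d)) (ms (.inr d))))))
  have h3 := h0 (V ⊕ V) (MC (V ⊕ V)) m1 m2 _ hP _ hQ
  have h4 := dn_dup h2 (S := fun θ : V → ℝ => cos (θ a) * cos (θ b))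
    (T := fun θ => sin (θ c) * sin (θ d)) (by fun_prop) (by fun_prop) (W_cont E J)
    (fun θ k => by simp only [cos_add_int_mul_two_pi])
    (fun θ k => by simp only [sin_add_int_mul_two_pi]) (W_per E J)
  have h5 := h3.trans_eq (Eq.trans (congrArg I (funext fun ω => ?_)) h4)
  · have hZ := I_W_pos E J
    unfold ex
    rw [div_mul_div_comm, div_le_div_iff₀ hZ (mul_pos hZ hZ)]
    nlinarith
  · have e : W E J (fun y => ω (Sum.inl y) - ω (Sum.inr y)) *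
        W E J (fun y => ω (Sum.inl y) + ω (Sum.inr y)) =
        exp ((∑ p ∈ E, fun ω : V ⊕ V → ℝ => 2 * J p * (cos (ω (.inl p.1) - ω (.inl p.2)) *
          cos (ω (.inr p.1) - ω (.inr p.2)))) ω) := by
      rw [W, W, ← exp_add, ← Finset.sum_add_distrib, Finset.sum_apply]
      congr 1
      refine Finset.sum_congr rfl fun p _ => ?_
      simp only [cos_sub, cos_add, sin_sub, sin_add]
      ring
    rw [e]
    simp only [cos_sub, cos_add, sin_sub, sin_add]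
    ring

end Vale.Agent.P159
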