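import Mathlib

/-! The nearest-neighbour cosine XY model in a box of the square lattice, free boundary. -/

open MeasureTheory Real

namespace Vale.Agent.P159

noncomputable section

/-- the box `[-R,R]^2` of the square lattice -/
def box (R : ℕ) : Finset (ℤ × ℤ) :=
  Finset.Icc (-(R : ℤ)) R ×ˢ Finset.Icc (-(R : ℤ)) R

open Classical in
/-- nearest-neighbour pairs of the box, each counted once -/
def edges (R : ℕ) : Finset (box R × box R) :=
  Finset.univ.filter fun p =>
    (p.2 : ℤ × ℤ) = (p.1 : ℤ × ℤ) + (1, 0) ∨ (p.2 : ℤ × ℤ) = (p.1 : ℤ × ℤ) + (0, 1)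

/-- Boltzmann weight -/
def weight (R : ℕ) (b : ℝ) (θ : box R → ℝ) : ℝ :=
  exp (b * ∑ p ∈ edges R, cos (θ p.1 - θ p.2))

/-- all angles in `(0, 2 pi]` -/
def cube (V : Type) : Set (V → ℝ) := Set.univ.pi fun _ => Set.Ioc 0 (2 * π)

/-- Gibbs expectation -/
def expect (R : ℕ) (b : ℝ) (F : (box R → ℝ) → ℝ) : ℝ :=
  (∫ θ in cube (box R), F θ * weight R b θ) / ∫ θ in cube (box R), weight R b θ

/-- the angle at a site (zero outside the box) -/
def ang (R : ℕ) (θ : box R → ℝ) (x : ℤ × ℤ) : ℝ :=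
  if h : x ∈ box R then θ ⟨x, h⟩ else 0

/-- finite volume two point function along the first axis -/
def corr (b : ℝ) (r R : ℕ) : ℝ :=
  expect R b fun θ => cos (ang R θ (0, 0) - ang R θ ((r : ℤ), 0))

end

end Vale.Agent.P159
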