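import Vale.Agent.P159.Defs

/-! Infinite volume two point function, mass, critical point, correlation length. -/

open Real Filter

namespace Vale.Agent.P159

noncomputable section

/-- infinite volume two point function -/
def Cinf (b : ℝ) (r : ℕ) : ℝ := limUnder atTop fun R : ℕ => corr b r R

/-- the mass -/
def mass (b : ℝ) : ℝ := limUnder atTop fun r : ℕ => -(1 / (r : ℝ)) * log (Cinf b r)

/-- the critical inverse temperature -/
def bc : ℝ := sInf {b : ℝ | 0 < b ∧ mass b = 0}

/-- the correlation length -/
def xi (b : ℝ) : ℝ := 1 / mass b

end

end Vale.Agent.P159
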