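import Vale.Agent.P159.Stm2

open MeasureTheory Real Filter Topology

namespace Vale.Agent.P159

namespace DegAux

theorem inj_le {α β : Type} [Fintype β] (s : Finset α) (f : α → β) (hf : Set.InjOn f s)
    (h : β → ℝ) (h0 : ∀ x, 0 ≤ h x) : ∑ p ∈ s, h (f p) ≤ ∑ x, h x := by
  classical
  rw [← Finset.sum_image hf]
  exact Finset.sum_le_sum_of_subset_of_nonneg (Finset.subset_univ _) fun x _ _ => h0 x

theorem dir_le (R : ℕ) (h : box R → ℝ) (h0 : ∀ x, 0 ≤ h x) (v : ℤ × ℤ)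
    (s : Finset (box R × box R)) (hs : ∀ p ∈ s, (p.2 : ℤ × ℤ) = (p.1 : ℤ × ℤ) + v) :
    ∑ p ∈ s, (h p.1 + h p.2) ≤ 2 * ∑ x, h x := by
  have h1 := inj_le s Prod.fst (fun p hp q hq e => Prod.ext e (Subtype.ext (by
    rw [hs p hp, hs q hq, e]))) h h0
  have h2 := inj_le s Prod.snd (fun p hp q hq e => Prod.ext (Subtype.ext (by
    have e1 := hs p hp
    rw [e, hs q hq] at e1
    exact (add_right_cancel e1).symm)) e) h h0
  rw [Finset.sum_add_distrib]
  linarith

end DegAux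

theorem deg_pf : DegStmt := by
  classical
  intro R h h0
  rw [← Finset.sum_filter_add_sum_filter_not (edges R)
    (fun p => (p.2 : ℤ × ℤ) = (p.1 : ℤ × ℤ) + (1, 0))]
  have h1 := DegAux.dir_le R h h0 (1, 0)
    ((edges R).filter fun p => (p.2 : ℤ × ℤ) = (p.1 : ℤ × ℤ) + (1, 0))
    fun p hp => (Finset.mem_filter.1 hp).2
  have h2 := DegAux.dir_le R h h0 (0, 1)
    ((edges R).filter fun p => ¬ (p.2 : ℤ × ℤ) = (p.1 : ℤ × ℤ) + (1, 0))
    fun p hp => by
      obtain ⟨a1, a2⟩ := Finset.mem_filter.1 hp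
      simp only [edges, Finset.mem_filter, Finset.mem_univ, true_and] at a1
      exact a1.resolve_left a2
  linarith

end Vale.Agent.P159
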