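import Vale.Agent.P159.Stm

open MeasureTheory Real

namespace Vale.Agent.P159

namespace DerAux

lemma shiftR (h : ShiftStmt) {V : Type} [Fintype V] {F : (V → ℝ) → ℝ} (hF : Continuous F)
    (hP : Per F) (v : V → ℝ) : ∫ θ in cube V, F (θ + v) = ∫ θ in cube V, F θ := by
  have h1 := h V (fun θ => (F θ : ℂ)) (Complex.continuous_ofReal.comp hF)
    (fun θ k => by simp only [hP θ k]) v
  rw [integral_complex_ofReal, integral_complex_ofReal] at h1
  exact_mod_cast h1

lemma der_at {V : Type} {F F' : (V → ℝ) → ℝ} {g : V → ℝ}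
    (hd : ∀ θ, HasDerivAt (fun t : ℝ => F (θ + t • g)) (F' θ) 0) (θ : V → ℝ) (t : ℝ) :
    HasDerivAt (fun s : ℝ => F (θ + s • g)) (F' (θ + t • g)) t := by
  have h1 : HasDerivAt (fun s : ℝ => F (θ + t • g + s • g)) (F' (θ + t • g)) (t - t) := by
    rw [sub_self]; exact hd _
  have h2 := h1.comp_sub_const t t
  refine h2.congr_of_eventuallyEq (Filter.Eventually.of_forall fun s => ?_)
  simp only [sub_smul]
  congr 1
  abel

end DerAux

open DerAux in
theorem der_pf (h : ShiftStmt) : DerStmt := by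
  intro V _ F F' g hF hF' hP hd
  have hK : IsCompact ((Set.univ.pi fun _ : V => Set.Icc (0 : ℝ) (2 * π)) ×ˢ
      Metric.closedBall (0 : ℝ) 1) :=
    (isCompact_univ_pi fun _ => isCompact_Icc).prod (isCompact_closedBall _ _)
  have hc : Continuous fun q : (V → ℝ) × ℝ => F' (q.1 + q.2 • g) := hF'.comp (by fun_prop)
  obtain ⟨M, hM⟩ := hK.exists_bound_of_continuousOn hc.continuousOn
  have key := hasDerivAt_integral_of_dominated_loc_of_deriv_le (μ := volume.restrict (cube V))
    (F := fun (t : ℝ) (θ : V → ℝ) => F (θ + t • g))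
    (F' := fun (t : ℝ) (θ : V → ℝ) => F' (θ + t • g)) (x₀ := 0) (bound := fun _ => M)
    (s := Metric.ball 0 1) (Metric.ball_mem_nhds _ one_pos)
    (Filter.Eventually.of_forall fun t => (hF.comp (by fun_prop)).aestronglyMeasurable)
    (intOn_cube (hF.comp (by fun_prop))) (hF'.comp (by fun_prop)).aestronglyMeasurable
    ((ae_restrict_iff' (cube_meas V)).2 (Filter.Eventually.of_forall fun θ hθ t ht =>
      hM (θ, t) ⟨cube_sub V hθ, Metric.ball_subset_closedBall ht⟩))
    (intOn_cube continuous_const) (Filter.Eventually.of_forall fun θ t _ => der_at hd θ t)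
  have h2 := key.2
  simp only [shiftR h hF hP, zero_smul, add_zero] at h2
  exact h2.unique (hasDerivAt_const _ _)

end Vale.Agent.P159
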