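import Vale.Agent.P159.Stm2

/-! The duplication formula for integrals of periodic functions over the cube. -/

open MeasureTheory Real

namespace Vale.Agent.P159

lemma dup_mp (V : Type) [Fintype V] [Fact (0 < 2 * π)] :
    MeasurePreserving (fun (θ : V → ℝ) (y : V) => ((θ y : ℝ) : AddCircle (2 * π)))
      (volume.restrict (cube V)) volume := by
  have h := measurePreserving_pi (fun _ : V => volume.restrict (Set.Ioc (0 : ℝ) (0 + 2 * π)))
    (fun _ : V => (volume : Measure (AddCircle (2 * π))))
    fun _ => AddCircle.measurePreserving_mk (2 * π) 0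
  rw [← Measure.restrict_pi_pi, zero_add] at h
  exact h

lemma dup_lift {V : Type} [Fintype V] [Fact (0 < 2 * π)] {F : (V → ℝ) → ℝ} (hF : Continuous F)
    (hP : Per F) : ∃ G : (V → AddCircle (2 * π)) → ℝ, Measurable G ∧
      ∀ θ : V → ℝ, G (fun y => ((θ y : ℝ) : AddCircle (2 * π))) = F θ := by
  refine ⟨fun x => F fun y => (AddCircle.equivIoc (2 * π) 0 (x y) : ℝ), ?_, fun θ => ?_⟩
  · refine hF.measurable.comp (measurable_pi_lambda _ fun y => ?_)
    exact measurable_subtype_coe.comp
      ((AddCircle.measurableEquivIoc (2 * π) 0).measurable.comp (measurable_pi_apply y))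
  · rw [← hP θ fun y => -toIocDiv two_pi_pos 0 (θ y)]
    refine congrArg F (funext fun y => ?_)
    have e : (AddCircle.equivIoc (2 * π) 0 ((θ y : ℝ) : AddCircle (2 * π)) : ℝ) =
        toIocMod two_pi_pos 0 (θ y) := rfl
    rw [e, toIocMod, zsmul_eq_mul]
    push_cast
    ring

lemma dup_int {V : Type} [Fintype V] [Fact (0 < 2 * π)] {G : (V → AddCircle (2 * π)) → ℝ}
    (mG : Measurable G) :
    I (fun θ : V → ℝ => G fun y => ((θ y : ℝ) : AddCircle (2 * π))) = ∫ x, G x := by
  rw [← (dup_mp V).map_eq]
  exact (integral_map (dup_mp V).measurable.aemeasurable mG.aestronglyMeasurable).symm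

/-- the duplication map of the torus -/
def dupHom (V A : Type) [AddCommGroup A] : (V ⊕ V → A) →+ (V → A) × (V → A) where
  toFun ω := (fun y => ω (Sum.inl y) - ω (Sum.inr y), fun y => ω (Sum.inl y) + ω (Sum.inr y))
  map_zero' := by
    refine Prod.ext (funext fun y => ?_) (funext fun y => ?_) <;> simp
  map_add' a b := by
    refine Prod.ext (funext fun y => ?_) (funext fun y => ?_) <;>
      simp only [Pi.add_apply, Prod.fst_add, Prod.snd_add] <;> abel

lemma dup_half (x : AddCircle (2 * π)) : ∃ z : AddCircle (2 * π), z + z = x := by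
  induction x using QuotientAddGroup.induction_on with
  | H r => exact ⟨((r / 2 : ℝ) : AddCircle (2 * π)), by
      rw [← AddCircle.coe_add, add_halves]⟩

lemma dup_surj (V : Type) : Function.Surjective (dupHom V (AddCircle (2 * π))) := by
  rintro ⟨a, b⟩
  choose z hz using fun y => dup_half (a y + b y)
  refine ⟨Sum.elim z fun y => b y - z y, Prod.ext (funext fun y => ?_) (funext fun y => ?_)⟩
  · show z y - (b y - z y) = a y
    rw [← sub_add, sub_add_eq_add_sub, hz, add_sub_cancel_right]
  · show z y + (b y - z y) = b y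
    abel

theorem dup_pf (_h : ProdStmt) : DupStmt := by
  intro V _ F G hF hG pF pG
  have hT : Fact (0 < 2 * π) := ⟨two_pi_pos⟩
  obtain ⟨f, mf, ef⟩ := dup_lift hF pF
  obtain ⟨g, mg, eg⟩ := dup_lift hG pG
  have hc : Continuous (dupHom V (AddCircle (2 * π))) := by
    refine Continuous.prodMk (continuous_pi fun y => ?_) (continuous_pi fun y => ?_)
    · exact (continuous_apply _).sub (continuous_apply _)
    · exact (continuous_apply _).add (continuous_apply _)
  have hm : MeasurePreserving (dupHom V (AddCircle (2 * π))) volume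
      ((volume : Measure (V → AddCircle (2 * π))).prod volume) := by
    have i1 : (volume : Measure (V → AddCircle (2 * π))).IsAddHaarMeasure := inferInstance
    have i2 : ((volume : Measure (V → AddCircle (2 * π))).prod
        (volume : Measure (V → AddCircle (2 * π)))).IsAddHaarMeasure :=
      Measure.prod.instIsAddHaarMeasure _ _
    refine AddMonoidHom.measurePreserving hc (dup_surj V) ?_
    rw [← Set.univ_prod_univ, Measure.prod_prod, volume_pi, volume_pi, Measure.pi_univ,
      Measure.pi_univ, Fintype.prod_sum_type]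
  have mk : Measurable fun p : (V → AddCircle (2 * π)) × (V → AddCircle (2 * π)) =>
      f p.1 * g p.2 := (mf.comp measurable_fst).mul (mg.comp measurable_snd)
  have e1 : I F = ∫ x, f x := by rw [← dup_int mf]; simp only [ef]
  have e2 : I G = ∫ x, g x := by rw [← dup_int mg]; simp only [eg]
  rw [e1, e2, ← integral_prod_mul, ← hm.map_eq,
    integral_map hm.measurable.aemeasurable mk.aestronglyMeasurable]
  refine (dup_int (mk.comp hm.measurable)).symm.trans (congrArg I (funext fun ω => ?_))
  rw [← ef, ← eg]
  rfl

end Vale.Agent.P159
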