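import Vale.Agent.P159.Stm2

/-! Existence of the mass by subadditivity. -/

open MeasureTheory Real Filter Topology

namespace Vale.Agent.P159

theorem fek_pf (h1 : LimStmt) (h2 : PosStmt) : FekStmt := by
  intro b hb
  obtain ⟨-, a2, a3, a4⟩ := h1 b hb
  have p0 : 0 < Cinf b 0 := by
    have m : ((0 : ℤ), (0 : ℤ)) ∈ box 0 := by simp [box]
    have e : corr b 0 0 = 1 := by
      rw [corr_eq, Nat.cast_zero, T_eq b 0 m m, tp_self]
    exact lt_of_lt_of_le (by rw [e]; exact one_pos) (a2 0 0 le_rfl)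
  have p1 : 0 < Cinf b 1 := (h2 b hb).trans_le (a2 1 1 le_rfl)
  have pos : ∀ r, 0 < Cinf b r := fun r => by
    induction r with
    | zero => exact p0
    | succ r ih => exact lt_of_lt_of_le (mul_pos (by norm_num) (mul_pos ih p1)) (a4 r 1)
  set u : ℕ → ℝ := fun r => -log (2 / 3 * Cinf b r) with hu
  have u0 : ∀ r, 0 ≤ u r := fun r =>
    neg_nonneg.2 (log_nonpos (mul_pos (by norm_num) (pos r)).le (by linarith [a3 r, pos r]))
  have hs : Subadditive u := fun r s => by
    have q1 : 0 < 2 / 3 * Cinf b r := mul_pos (by norm_num) (pos r)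
    have q2 : 0 < 2 / 3 * Cinf b s := mul_pos (by norm_num) (pos s)
    have := log_le_log (mul_pos q1 q2)
      (by linarith [a4 r s] : 2 / 3 * Cinf b r * (2 / 3 * Cinf b s) ≤ 2 / 3 * Cinf b (r + s))
    rw [log_mul q1.ne' q2.ne'] at this
    simp only [hu]
    linarith
  have hbd : BddBelow (Set.range fun n : ℕ => u n / n) :=
    ⟨0, by rintro _ ⟨n, rfl⟩; exact div_nonneg (u0 n) (Nat.cast_nonneg n)⟩
  have t1 : Tendsto (fun r : ℕ => -(1 / (r : ℝ)) * log (Cinf b r)) atTop (𝓝 hs.lim) := by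
    have := (hs.tendsto_lim hbd).add (tendsto_const_div_atTop_nhds_zero_nat (log (2 / 3)))
    rw [add_zero] at this
    refine this.congr fun r => ?_
    simp only [hu]
    rw [log_mul (by norm_num) (pos r).ne']
    ring
  have e : mass b = hs.lim := t1.limUnder_eq
  rw [e]
  refine ⟨t1, ge_of_tendsto' (hs.tendsto_lim hbd) fun n =>
    div_nonneg (u0 n) (Nat.cast_nonneg n), pos, fun r => ?_⟩
  have k : hs.lim * r ≤ u r := by
    rcases Nat.eq_zero_or_pos r with h | h
    · rw [h, Nat.cast_zero, mul_zero]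
      exact u0 0
    · exact (le_div_iff₀ (by exact_mod_cast h)).1 (hs.lim_le_div hbd h.ne')
  have k2 := exp_le_exp.2 (neg_le_neg k)
  simp only [hu, neg_neg] at k2
  rw [exp_log (mul_pos (by norm_num) (pos r))] at k2
  linarith

end Vale.Agent.P159
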