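import Vale.Agent.P159.Stm

/-! The lattice sum of the inverse square norm. -/

open MeasureTheory Real

namespace Vale.Agent.P159

theorem gauss_step {x : ℝ} (hx : 1 ≤ x) :
    (√x + 1) ^ 2 * (1 / x - 1 / (x + 1)) ≤ log (x + 1) - log x + 6 * (1 / √x - 1 / √(x + 1)) := by
  have a1 : 1 / (x + 1) ≤ log (x + 1) - log x := by
    have := log_le_sub_one_of_pos (show 0 < x / (x + 1) by positivity)
    rw [log_div (by positivity) (by positivity), show x / (x + 1) - 1 = -(1 / (x + 1)) by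
      field_simp; ring] at this
    linarith
  have a2 := sq_sqrt (show 0 ≤ x by positivity)
  have a3 := sq_sqrt (show 0 ≤ x + 1 by positivity)
  have a4 : 1 ≤ √x := one_le_sqrt.2 hx
  have a5 : √x ≤ √(x + 1) := sqrt_le_sqrt (by linarith)
  generalize √x = a, √(x + 1) = b at *
  have b1 : (a + 1) ^ 2 * (1 / x - 1 / (x + 1)) = 1 / (x + 1) + (2 * a + 1) / (a ^ 2 * b ^ 2) := by
    rw [a2, a3, add_sq, a2]
    field_simp
    ring
  have b0 : 0 < b := by linarith
  have b2 : (2 * a + 1) / (a ^ 2 * b ^ 2) ≤ 6 * (1 / a - 1 / b) := by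
    rw [div_le_iff₀ (by positivity), show 6 * (1 / a - 1 / b) * (a ^ 2 * b ^ 2) =
      3 * a * (2 * b * (b - a)) by field_simp; ring]
    nlinarith [mul_le_mul_of_nonneg_left (show 1 ≤ 2 * b * (b - a) by
      nlinarith [sq_nonneg (b - a)]) (show 0 ≤ 3 * a by positivity)]
  linarith

theorem gauss_pf (h : CircStmt) : GaussStmt := by
  refine ⟨10 * π, fun M A hM hA => ?_⟩
  have N : ∀ k : ℕ, ((A.filter fun y => y.1 ^ 2 + y.2 ^ 2 ≤ (k : ℤ)).card : ℝ) ≤
      π * (√(k : ℝ) + 1) ^ 2 := fun k => by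
    refine le_trans (Nat.cast_le.2 (Finset.card_le_card fun y hy => ?_)) (h k)
    have a := (Finset.mem_filter.1 hy).2
    simp only [Finset.mem_filter, Finset.mem_product, Finset.mem_Icc]
    refine ⟨⟨⟨?_, ?_⟩, ?_, ?_⟩, a⟩ <;>
      nlinarith [sq_nonneg y.1, sq_nonneg y.2, sq_nonneg (y.1 - 1), sq_nonneg (y.1 + 1),
        sq_nonneg (y.2 - 1), sq_nonneg (y.2 + 1), (hA y (Finset.mem_filter.1 hy).1).1]
  have T : ∀ k : ℕ, 1 ≤ k → ∑ y ∈ A, (if y.1 ^ 2 + y.2 ^ 2 ≤ (k : ℤ) then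
      1 / ((y.1 : ℝ) ^ 2 + (y.2 : ℝ) ^ 2) - 1 / k else 0) ≤ π * (log k + 6 * (1 - 1 / √k)) := by
    intro k hk
    induction k, hk using Nat.le_induction with
    | base =>
      refine (Finset.sum_eq_zero fun y hy => ?_).le.trans (by simp)
      split_ifs with c
      · have : ((y.1 ^ 2 + y.2 ^ 2 : ℤ) : ℝ) = ((1 : ℤ) : ℝ) :=
          congrArg _ (le_antisymm c (hA y hy).1)
        push_cast at this
        simp [this]
      · rfl
    | succ k hk ih =>
      have k1 : (1 : ℝ) ≤ k := by exact_mod_cast hk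
      have e : ∀ y ∈ A, (if y.1 ^ 2 + y.2 ^ 2 ≤ ((k + 1 : ℕ) : ℤ) then
          1 / ((y.1 : ℝ) ^ 2 + (y.2 : ℝ) ^ 2) - 1 / (k + 1 : ℕ) else 0) =
          (if y.1 ^ 2 + y.2 ^ 2 ≤ (k : ℤ) then 1 / ((y.1 : ℝ) ^ 2 + (y.2 : ℝ) ^ 2) - 1 / k else 0) +
          if y.1 ^ 2 + y.2 ^ 2 ≤ (k : ℤ) then 1 / (k : ℝ) - 1 / (k + 1) else 0 := fun y _ => by
        push_cast
        split_ifs with c1 c2 c2
        · ring
        · have : ((y.1 ^ 2 + y.2 ^ 2 : ℤ) : ℝ) = ((k + 1 : ℤ) : ℝ) := congrArg _ (by omega)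
          push_cast at this
          simp [this]
        · omega
        · simp
      rw [Finset.sum_congr rfl e, Finset.sum_add_distrib,
        ← Finset.sum_filter (fun y : ℤ × ℤ => y.1 ^ 2 + y.2 ^ 2 ≤ (k : ℤ))
          fun _ => 1 / (k : ℝ) - 1 / (k + 1), Finset.sum_const, nsmul_eq_mul]
      have a := mul_le_mul_of_nonneg_right (N k) (sub_nonneg.2
        (one_div_le_one_div_of_le (show (0 : ℝ) < k by positivity) (le_add_of_nonneg_right one_pos.le)))
      push_cast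
      nlinarith [mul_le_mul_of_nonneg_left (gauss_step k1) pi_pos.le]
  have m1 : (1 : ℝ) ≤ M := by exact_mod_cast hM
  have a := T M hM
  have b := N M
  rw [Finset.filter_true_of_mem fun y hy => (hA y hy).2] at b
  rw [Finset.sum_congr rfl fun y hy => if_pos (hA y hy).2, Finset.sum_sub_distrib,
    Finset.sum_const, nsmul_eq_mul] at a
  have c : (A.card : ℝ) * (1 / M) ≤ 4 * π := by
    rw [mul_one_div, div_le_iff₀ (by positivity)]
    have c1 := sq_sqrt (show (0 : ℝ) ≤ M by positivity)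
    have c2 : 1 ≤ √(M : ℝ) := one_le_sqrt.2 m1
    nlinarith [mul_le_mul_of_nonneg_left (show (√(M : ℝ) + 1) ^ 2 ≤ 4 * M by nlinarith) pi_pos.le]
  have d : 0 ≤ π * (1 / √(M : ℝ)) := by positivity
  linarith

end Vale.Agent.P159
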