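import Vale.Agent.P159.Stm2

open MeasureTheory Real Filter Topology

namespace Vale.Agent.P159

namespace GinAux

lemma I4 {V : Type} [Fintype V] {F G H K : (V → ℝ) → ℝ} (hF : Continuous F) (hG : Continuous G)
    (hH : Continuous H) (hK : Continuous K) :
    I (fun θ => F θ + G θ - H θ - K θ) = I F + I G - I H - I K := by
  unfold I
  rw [integral_sub, integral_sub, integral_add]
  · exact intOn_cube hF
  · exact intOn_cube hG
  · exact intOn_cube (hF.add hG)
  · exact intOn_cube hH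
  · exact intOn_cube ((hF.add hG).sub hH)
  · exact intOn_cube hK

lemma per_cos {V : Type} (a b : V) {F : (V → ℝ) → ℝ} (hF : Per F) :
    Per fun θ : V → ℝ => cos (θ a - θ b) * F θ := by
  intro θ k
  simp only
  rw [hF θ k, per_diff, cos_add_int_mul_two_pi]

lemma ww {V : Type} (E : Finset (V × V)) (J : V × V → ℝ) (hJ : ∀ p ∈ E, 0 ≤ J p) (α β : V → ℝ) :
    W E J (fun y => α y - β y) * W E J (fun y => α y + β y) =
      exp (∑ p ∈ E, (√(2 * J p) * cos (α p.1 - α p.2)) * (√(2 * J p) * cos (β p.1 - β p.2))) := by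
  unfold W
  rw [← exp_add, ← Finset.sum_add_distrib]
  congr 1
  refine Finset.sum_congr rfl fun p hp => ?_
  have h1 : √(2 * J p) * √(2 * J p) = 2 * J p := mul_self_sqrt (by linarith [hJ p hp])
  have h2 : α p.1 - β p.1 - (α p.2 - β p.2) = (α p.1 - α p.2) - (β p.1 - β p.2) := by ring
  have h3 : α p.1 + β p.1 - (α p.2 + β p.2) = (α p.1 - α p.2) + (β p.1 - β p.2) := by ring
  rw [h2, h3, cos_sub (α p.1 - α p.2), cos_add (α p.1 - α p.2)]
  linear_combination (-(cos (α p.1 - α p.2) * cos (β p.1 - β p.2))) * h1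

lemma cc {V : Type} (a b : V) (α β : V → ℝ) :
    cos (α a - β a - (α b - β b)) - cos (α a + β a - (α b + β b)) =
      2 * sin (α a - α b) * sin (β a - β b) := by
  have h2 : α a - β a - (α b - β b) = (α a - α b) - (β a - β b) := by ring
  have h3 : α a + β a - (α b + β b) = (α a - α b) + (β a - β b) := by ring
  rw [h2, h3, cos_sub (α a - α b), cos_add (α a - α b)]
  ring

end GinAux

open GinAux in
theorem gin_pf (h0 : ConeStmt) (h1 : PCStmt) (h2 : DupStmt) : GinStmt := by
  intro V _ E J a b c d hJ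
  have hZ := I_W_pos E J
  have hW := W_cont E J
  have pW := W_per E J
  have pA := per_cos a b pW
  have pB := per_cos c d pW
  have pAB := per_cos a b pB
  have cA : Continuous fun θ : V → ℝ => cos (θ a - θ b) * W E J θ := by fun_prop
  have cB : Continuous fun θ : V → ℝ => cos (θ c - θ d) * W E J θ := by fun_prop
  have cAB : Continuous fun θ : V → ℝ => cos (θ a - θ b) * (cos (θ c - θ d) * W E J θ) := by
    fun_prop
  have d1 := h2 V _ _ cAB hW pAB pW
  have d2 := h2 V _ _ hW cAB pW pAB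
  have d3 := h2 V _ _ cA cB pA pB
  have d4 := h2 V _ _ cB cA pB pA
  obtain ⟨k1, k2⟩ := h1 V
  have mP : (fun ω : V ⊕ V → ℝ =>
      (fun θ : V → ℝ => 2 * sin (θ a - θ b) * sin (θ c - θ d)) (fun y => ω (Sum.inl y)) *
      (fun θ : V → ℝ => 2 * sin (θ a - θ b) * sin (θ c - θ d)) (fun y => ω (Sum.inr y))) ∈ PC V :=
    AddSubmonoid.subset_closure
      ⟨fun θ : V → ℝ => 2 * sin (θ a - θ b) * sin (θ c - θ d), by fun_prop, rfl⟩
  have mQ : (∑ p ∈ E, fun ω : V ⊕ V → ℝ =>
      (fun θ : V → ℝ => √(2 * J p) * cos (θ p.1 - θ p.2)) (fun y => ω (Sum.inl y)) *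
      (fun θ : V → ℝ => √(2 * J p) * cos (θ p.1 - θ p.2)) (fun y => ω (Sum.inr y))) ∈ PC V :=
    sum_mem fun p _ => AddSubmonoid.subset_closure
      ⟨fun θ : V → ℝ => √(2 * J p) * cos (θ p.1 - θ p.2), by fun_prop, rfl⟩
  have pos := h0 (V ⊕ V) (PC V) k1 k2 _ mP _ mQ
  have cm : Continuous fun ω : V ⊕ V → ℝ => fun y => ω (Sum.inl y) - ω (Sum.inr y) := by fun_prop
  have cp : Continuous fun ω : V ⊕ V → ℝ => fun y => ω (Sum.inl y) + ω (Sum.inr y) := by fun_prop
  have key := I4 ((cAB.comp cm).mul (hW.comp cp)) ((hW.comp cm).mul (cAB.comp cp))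
    ((cA.comp cm).mul (cB.comp cp)) ((cB.comp cm).mul (cA.comp cp))
  have e : 2 * (I (fun θ : V → ℝ => cos (θ a - θ b) * (cos (θ c - θ d) * W E J θ)) * I (W E J) -
      I (fun θ : V → ℝ => cos (θ a - θ b) * W E J θ) *
      I (fun θ : V → ℝ => cos (θ c - θ d) * W E J θ)) ≥ 0 := by
    refine pos.trans (le_of_eq ?_)
    calc _ = _ := ?_
      _ = _ := key
      _ = _ := ?_
    · congr 1
      funext ω
      simp only [Finset.sum_apply, Function.comp, Pi.mul_apply]
      rw [← ww E J hJ (fun y => ω (Sum.inl y)) (fun y => ω (Sum.inr y))]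
      have c1 := cc a b (fun y => ω (Sum.inl y)) (fun y => ω (Sum.inr y))
      have c2 := cc c d (fun y => ω (Sum.inl y)) (fun y => ω (Sum.inr y))
      have c3 := congrArg₂ (· * ·) c1 c2
      linear_combination (-(W E J (fun y => ω (Sum.inl y) - ω (Sum.inr y)) *
        W E J (fun y => ω (Sum.inl y) + ω (Sum.inr y)))) * c3
    · have e1 := d1.symm
      have e2 := d2.symm
      have e3 := d3.symm
      have e4 := d4.symm
      simp only [Function.comp_def, Pi.mul_def]
      rw [e1, e2, e3, e4]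
      ring
  unfold tp ee ex
  simp only [mul_assoc]
  rw [div_mul_div_comm, div_le_div_iff₀ (mul_pos hZ hZ) hZ]
  nlinarith

end Vale.Agent.P159
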