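import Vale.Agent.P159.Stm2

/-! First Griffiths inequality and a four point bound. -/

open MeasureTheory Real Filter Topology

namespace Vale.Agent.P159

theorem gri_pf (h0 : ConeStmt) (h1 : MCStmt) (h2 : NeuStmt) : GriStmt := by
  intro V _ E J hJ
  obtain ⟨m1, m2, m3, m4, m5⟩ := h1 V
  have d : ∀ a b : V, (fun θ : V → ℝ => cos (θ a - θ b)) ∈ MC V := fun a b => by
    have := (MC V).add_mem (m2 _ (m3 a) _ (m3 b)) (m2 _ (m4 a) _ (m4 b))
    convert this using 1
    funext θ
    simp only [Pi.add_apply, Pi.mul_apply, cos_sub]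
  have q : (fun θ : V → ℝ => ∑ p ∈ E, J p * cos (θ p.1 - θ p.2)) ∈ MC V := by
    have := (MC V).sum_mem (t := E) fun p hp => m2 _ (m5 (J p) (hJ p hp)) _ (d p.1 p.2)
    convert this using 1
    funext θ
    simp only [Finset.sum_apply, Pi.mul_apply]
  have k : ∀ P ∈ MC V, 0 ≤ ex E J P := fun P hP =>
    div_nonneg (h0 V (MC V) m1 m2 P hP _ q) (I_W_pos E J).le
  refine ⟨fun a b => k _ (d a b), fun a b c => ?_⟩
  have k1 := k _ (m2 _ (m2 _ (m3 b) _ (m3 b)) _ (m2 _ (m4 a) _ (m4 c)))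
  have k2 := (h2 V E J b b a c).2.2.1
  have e1 : ee E J b b a c = tp E J a c := by
    simp only [ee, tp, sub_self, cos_zero, one_mul]
  have e2 : q4 E J b b a c = q4 E J a c b b := by
    unfold q4
    congr 1
    funext θ
    rw [← cos_neg]
    congr 1
    ring
  have k3 : 0 ≤ ee E J b b a c / 4 - q4 E J b b a c / 8 := k2 ▸ k1
  rw [e1, e2] at k3
  linarith

end Vale.Agent.P159
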