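import Vale.Agent.P159.Stm2

open MeasureTheory Real Filter Topology

namespace Vale.Agent.P159

namespace IntAux

variable {V : Type} [Fintype V]

/-- interpolated couplings -/
def Js (J J' : V × V → ℝ) (s : ℝ) : V × V → ℝ := fun p => J p + s * (J' p - J p)

/-- derivative of the energy in the interpolation parameter -/
noncomputable def D (E : Finset (V × V)) (J J' : V × V → ℝ) (θ : V → ℝ) : ℝ :=
  ∑ p ∈ E, (J' p - J p) * cos (θ p.1 - θ p.2)

omit [Fintype V] in
lemma D_cont (E : Finset (V × V)) (J J' : V × V → ℝ) : Continuous (D E J J') := by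
  unfold D
  fun_prop

omit [Fintype V] in
lemma W_der (E : Finset (V × V)) (J J' : V × V → ℝ) (θ : V → ℝ) (s : ℝ) :
    HasDerivAt (fun t => W E (Js J J' t) θ) (D E J J' θ * W E (Js J J' s) θ) s := by
  have h1 : HasDerivAt (fun t => ∑ p ∈ E, Js J J' t p * cos (θ p.1 - θ p.2)) (D E J J' θ) s := by
    unfold D
    refine HasDerivAt.fun_sum fun p _ => ?_
    unfold Js
    have := (((hasDerivAt_id s).mul_const (J' p - J p)).const_add (J p)).mul_const
      (cos (θ p.1 - θ p.2))
    simpa using this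
  have h2 := h1.exp
  unfold W
  rw [mul_comm]
  exact h2

omit [Fintype V] in
lemma W_cont2 (E : Finset (V × V)) (J J' : V × V → ℝ) :
    Continuous fun q : (V → ℝ) × ℝ => W E (Js J J' q.2) q.1 := by
  unfold W Js
  fun_prop

lemma I_der (E : Finset (V × V)) (J J' : V × V → ℝ) {F : (V → ℝ) → ℝ} (hF : Continuous F)
    (s : ℝ) : HasDerivAt (fun t => I fun θ => F θ * W E (Js J J' t) θ)
      (I fun θ => F θ * (D E J J' θ * W E (Js J J' s) θ)) s := by
  have hK : IsCompact ((Set.univ.pi fun _ : V => Set.Icc (0 : ℝ) (2 * π)) ×ˢ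
      Metric.closedBall s 1) :=
    (isCompact_univ_pi fun _ => isCompact_Icc).prod (isCompact_closedBall _ _)
  have hc : Continuous fun q : (V → ℝ) × ℝ =>
      F q.1 * (D E J J' q.1 * W E (Js J J' q.2) q.1) :=
    (hF.comp continuous_fst).mul (((D_cont E J J').comp continuous_fst).mul (W_cont2 E J J'))
  obtain ⟨M, hM⟩ := hK.exists_bound_of_continuousOn hc.continuousOn
  have key := hasDerivAt_integral_of_dominated_loc_of_deriv_le (μ := volume.restrict (cube V))
    (F := fun (t : ℝ) (θ : V → ℝ) => F θ * W E (Js J J' t) θ)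
    (F' := fun (t : ℝ) (θ : V → ℝ) => F θ * (D E J J' θ * W E (Js J J' t) θ)) (x₀ := s)
    (bound := fun _ => M)
    (s := Metric.ball s 1) (Metric.ball_mem_nhds _ one_pos)
    (Filter.Eventually.of_forall fun t => (hF.mul (W_cont E _)).aestronglyMeasurable)
    (intOn_cube (hF.mul (W_cont E _)))
    (hF.mul ((D_cont E J J').mul (W_cont E _))).aestronglyMeasurable
    ((ae_restrict_iff' (cube_meas V)).2 (Filter.Eventually.of_forall fun θ hθ t ht =>
      hM (θ, t) ⟨cube_sub V hθ, Metric.ball_subset_closedBall ht⟩))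
    (intOn_cube continuous_const)
    (Filter.Eventually.of_forall fun θ t _ => (W_der E J J' θ t).const_mul (F θ))
  exact key.2

lemma I_sum (E : Finset (V × V)) (J J' K : V × V → ℝ) {F : (V → ℝ) → ℝ} (hF : Continuous F) :
    (I fun θ => F θ * (D E J J' θ * W E K θ)) =
      ∑ p ∈ E, (J' p - J p) * I fun θ => F θ * cos (θ p.1 - θ p.2) * W E K θ := by
  unfold I
  simp only [← integral_const_mul]
  rw [← integral_finsetSum]
  · congr 1
    funext θ
    unfold D
    rw [Finset.sum_mul, Finset.mul_sum]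
    refine Finset.sum_congr rfl fun p _ => ?_
    ring
  · intro p _
    refine intOn_cube ?_
    have := W_cont E K
    fun_prop

lemma tp_der (E : Finset (V × V)) (J J' : V × V → ℝ) (x z : V) (s : ℝ) :
    HasDerivAt (fun t => tp E (Js J J' t) x z)
      (∑ p ∈ E, (J' p - J p) * (ee E (Js J J' s) x z p.1 p.2 -
        tp E (Js J J' s) x z * tp E (Js J J' s) p.1 p.2)) s := by
  have hc : Continuous fun θ : V → ℝ => cos (θ x - θ z) := by fun_prop
  have h1 := I_der E J J' hc s
  have h2 := I_der E J J' (F := fun _ => (1 : ℝ)) continuous_const s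
  rw [I_sum E J J' _ hc] at h1
  rw [I_sum E J J' _ continuous_const] at h2
  simp only [one_mul] at h2
  have hZ := (I_W_pos E (Js J J' s)).ne'
  have h3 := h1.fun_div h2 hZ
  unfold tp ee ex
  refine HasDerivAt.congr_deriv h3 ?_
  rw [Finset.sum_mul, Finset.mul_sum, ← Finset.sum_sub_distrib, Finset.sum_div]
  refine Finset.sum_congr rfl fun p _ => ?_
  have e : (I fun θ => W E (Js J J' s) θ) = I (W E (Js J J' s)) := rfl
  simp only [e]
  field_simp

end IntAux

open IntAux in
theorem int_pf (h1 : MonoStmt) (h2 : LebStmt) (h3 : GriStmt) : IntStmt := by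
  intro V _ E J J' x z hJ
  obtain ⟨c, hc, he⟩ := exists_hasDerivAt_eq_slope (fun t => tp E (Js J J' t) x z) _ zero_lt_one
    (fun t _ => (tp_der E J J' x z t).continuousAt.continuousWithinAt)
    (fun t _ => tp_der E J J' x z t)
  have e0 : Js J J' 0 = J := by funext p; simp [Js]
  have e1 : Js J J' 1 = J' := by funext p; simp [Js]
  simp only [e0, e1, sub_zero, div_one] at he
  rw [← he]
  have hK : ∀ p ∈ E, 0 ≤ Js J J' c p ∧ Js J J' c p ≤ J' p := by
    intro p hp
    obtain ⟨a, b⟩ := hJ p hp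
    unfold Js
    constructor <;> nlinarith [hc.1, hc.2]
  have hpos := (h3 V E (Js J J' c) fun p hp => (hK p hp).1).1
  have hmono : ∀ a b, tp E (Js J J' c) a b ≤ tp E J' a b := fun a b => h1 V E _ _ a b hK
  refine Finset.sum_le_sum fun p hp => ?_
  refine mul_le_mul_of_nonneg_left ?_ (sub_nonneg.2 (hJ p hp).2)
  refine ((h2 V E (Js J J' c) fun p hp => (hK p hp).1).1 x z p.1 p.2).trans ?_
  have m1 := mul_le_mul (hmono x p.1) (hmono z p.2) (hpos _ _) ((hpos _ _).trans (hmono _ _))
  have m2 := mul_le_mul (hmono x p.2) (hmono z p.1) (hpos _ _) ((hpos _ _).trans (hmono _ _))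
  linarith

end Vale.Agent.P159
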