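import Vale.Agent.P159.Stm

/-! Comparison of partition functions. -/

open MeasureTheory Real

namespace Vale.Agent.P159

theorem jen_pf : JenStmt := by
  intro V _ E J J' U hJ hU
  set S : ℝ := ∑ p ∈ E, (J' p - J p) with hS
  have hc : ∀ p : V × V, Continuous fun θ : V → ℝ => cos (θ p.1 - θ p.2) * W E J' θ := fun p =>
    (by fun_prop : Continuous fun θ : V → ℝ => cos (θ p.1 - θ p.2)).mul (W_cont E J')
  have hpt : ∀ θ : V → ℝ, (1 + U * S) * W E J' θ -
      ∑ p ∈ E, (J' p - J p) * (cos (θ p.1 - θ p.2) * W E J' θ) ≤ exp (U * S) * W E J θ := by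
    intro θ
    set X : ℝ := ∑ p ∈ E, (J' p - J p) * cos (θ p.1 - θ p.2) with hX
    have e1 : exp (U * S) * W E J θ = exp (U * S - X) * W E J' θ := by
      unfold W
      rw [← exp_add, ← exp_add, hX]
      simp only [sub_mul, Finset.sum_sub_distrib]
      exact congrArg exp (by ring)
    have e2 : ∑ p ∈ E, (J' p - J p) * (cos (θ p.1 - θ p.2) * W E J' θ) = X * W E J' θ := by
      rw [hX, Finset.sum_mul]
      exact Finset.sum_congr rfl fun p _ => by ring
    rw [e1, e2]
    have := mul_le_mul_of_nonneg_right (add_one_le_exp (U * S - X)) (W_pos E J' θ).le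
    linarith
  have i1 : IntegrableOn (fun θ => (1 + U * S) * W E J' θ) (cube V) :=
    intOn_cube (continuous_const.mul (W_cont E J'))
  have i2 : ∀ p ∈ E, IntegrableOn
      (fun θ : V → ℝ => (J' p - J p) * (cos (θ p.1 - θ p.2) * W E J' θ)) (cube V) :=
    fun p _ => intOn_cube (continuous_const.mul (hc p))
  have i3 : IntegrableOn (fun θ => exp (U * S) * W E J θ) (cube V) :=
    intOn_cube (continuous_const.mul (W_cont E J))
  have h := integral_mono (i1.sub (integrable_finsetSum E i2)) i3 hpt
  simp only [Pi.sub_apply] at h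
  rw [integral_sub i1 (integrable_finsetSum E i2), integral_finsetSum E i2] at h
  simp only [integral_const_mul] at h
  have h2 : ∑ p ∈ E, (J' p - J p) * I (fun θ => cos (θ p.1 - θ p.2) * W E J' θ) ≤
      ∑ p ∈ E, (J' p - J p) * (U * I (W E J')) :=
    Finset.sum_le_sum fun p hp => mul_le_mul_of_nonneg_left (hU p hp) (sub_nonneg.2 (hJ p hp))
  rw [← Finset.sum_mul, ← hS] at h2
  unfold I at h2 ⊢
  linarith

end Vale.Agent.P159
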