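import Vale.Agent.P159.Stm2

/-! Monotonicity of the two point function under lattice embeddings. -/

open MeasureTheory Real Filter Topology

namespace Vale.Agent.P159

theorem lat_asym {x y : ℤ × ℤ} (h : Nb (x, y)) (h' : Nb (y, x)) : False := by
  simp only [Nb, Prod.ext_iff, Prod.fst_add, Prod.snd_add] at h h'
  omega

/-- abstract form: an injective map of vertices and an injective map of edges -/
theorem lat_gen (h1 : PullStmt) (h2 : MonoStmt) {V V' : Type} [Fintype V] [Fintype V']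
    (E : Finset (V × V)) (E' : Finset (V' × V')) {b : ℝ} (hb : 0 ≤ b) (ι : V → V')
    (hι : Function.Injective ι) (ψ : V × V → V' × V') (hψ : Set.InjOn ψ E)
    (hE : ∀ p ∈ E, ψ p ∈ E') (he : ∀ p, ψ p = (ι p.1, ι p.2) ∨ ψ p = (ι p.2, ι p.1)) (x y : V) :
    tp E (fun _ => b) x y ≤ tp E' (fun _ => b) (ι x) (ι y) := by
  classical
  obtain ⟨c, c0, hc⟩ := h1 V V' ι hι
  have hW : ∀ θ : V' → ℝ, W E' (fun p => if p ∈ E.image ψ then b else 0) θ =
      W E (fun _ => b) fun y => θ (ι y) := fun θ => by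
    have hs : E.image ψ ⊆ E' := fun p hp => by
      obtain ⟨q, hq, rfl⟩ := Finset.mem_image.1 hp
      exact hE q hq
    simp only [W]
    congr 1
    rw [← Finset.sum_subset hs fun p _ hp => by rw [if_neg hp, zero_mul], Finset.sum_image hψ]
    refine Finset.sum_congr rfl fun p hp => ?_
    rw [if_pos (Finset.mem_image_of_mem ψ hp)]
    rcases he p with h | h
    · rw [h]
    · rw [h, ← cos_neg, neg_sub]
  have cW := W_cont E fun _ => b
  have k1 := hc (fun θ => cos (θ x - θ y) * W E (fun _ => b) θ) (by fun_prop)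
  have k2 := hc _ cW
  have e : tp E (fun _ => b) x y =
      tp E' (fun p => if p ∈ E.image ψ then b else 0) (ι x) (ι y) := by
    unfold tp ex
    rw [funext hW]
    simp only []
    rw [k1, k2, mul_div_mul_left _ _ c0.ne']
  rw [e]
  refine h2 V' E' _ _ _ _ fun p _ => ?_
  split_ifs
  · exact ⟨hb, le_rfl⟩
  · exact ⟨le_rfl, hb⟩

theorem lat_pf (h1 : PullStmt) (h2 : MonoStmt) : LatStmt := by
  classical
  intro b R R' φ hb hφ hN hB x hx y hy
  rw [T_eq b R hx hy, T_eq b R' (hB x hx) (hB y hy)]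
  have hι : Function.Injective fun z : box R => (⟨φ z, hB z z.2⟩ : box R') :=
    fun z z' h => Subtype.ext (hφ (congrArg Subtype.val h))
  refine lat_gen h1 h2 (edges R) (edges R') hb (fun z : box R => (⟨φ z, hB z z.2⟩ : box R')) hι
    (fun p => if Nb (φ p.1, φ p.2) then (⟨φ p.1, hB _ p.1.2⟩, ⟨φ p.2, hB _ p.2.2⟩)
      else (⟨φ p.2, hB _ p.2.2⟩, ⟨φ p.1, hB _ p.1.2⟩)) ?_ (fun p hp => ?_) (fun p => ?_)
    ⟨x, hx⟩ ⟨y, hy⟩
  · intro p hp q hq h
    have hp' := mem_edges.1 (Finset.mem_coe.1 hp)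
    have hq' := mem_edges.1 (Finset.mem_coe.1 hq)
    simp only at h
    split_ifs at h with a1 a2 a2
    · exact Prod.ext (hι (Prod.ext_iff.1 h).1) (hι (Prod.ext_iff.1 h).2)
    · have e1 : p.1 = q.2 := hι (Prod.ext_iff.1 h).1
      have e2 : p.2 = q.1 := hι (Prod.ext_iff.1 h).2
      rw [e1, e2] at hp'
      exact (lat_asym hp' hq').elim
    · have e1 : p.2 = q.1 := hι (Prod.ext_iff.1 h).1
      have e2 : p.1 = q.2 := hι (Prod.ext_iff.1 h).2
      rw [e1, e2] at hp'
      exact (lat_asym hp' hq').elim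
    · exact Prod.ext (hι (Prod.ext_iff.1 h).2) (hι (Prod.ext_iff.1 h).1)
  · split_ifs with a
    · exact mem_edges.2 a
    · exact mem_edges.2 ((hN _ (mem_edges.1 hp)).resolve_left a)
  · split_ifs
    · exact Or.inl rfl
    · exact Or.inr rfl

end Vale.Agent.P159
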