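import Vale.Agent.P159.Stm2

/-! Lebowitz type inequalities. -/

open MeasureTheory Real Filter Topology

namespace Vale.Agent.P159

lemma leb_symm {V : Type} [Fintype V] (E : Finset (V × V)) (J : V × V → ℝ) (a b c d : V) :
    q4 E J a b c d = q4 E J a b d c := by
  unfold q4
  congr 1
  funext θ
  rw [sub_right_comm]

lemma leb_diag {V : Type} [Fintype V] (E : Finset (V × V)) (J : V × V → ℝ) (a b c : V) :
    q4 E J a b b c = tp E J a c := by
  unfold q4 tp
  congr 1
  funext θ
  rw [add_sub_cancel_right]

theorem leb_pf (h1 : DNStmt) (h2 : NeuStmt) (h3 : GinStmt) (h4 : GriStmt) : LebStmt := by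
  intro V _ E J hJ
  have key : ∀ a b c d, ee E J a b c d - tp E J a b * tp E J c d ≤ q4 E J a b c d / 2 := by
    intro a b c d
    have k := h1 V E J a b c d hJ
    rw [(h2 V E J a b c d).2.2.1, (h2 V E J a b c d).1, (h2 V E J c d a b).2.1] at k
    linarith
  refine ⟨fun x z u v => ?_, fun a b c => ?_⟩
  · have k1 := key x z u v
    have k2 := key x u z v
    have k3 := key x v z u
    rw [(h2 V E J x u z v).2.2.2] at k2
    rw [(h2 V E J x v z u).2.2.2] at k3
    have s1 := leb_symm E J x z u v
    have s2 := leb_symm E J x v u z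
    have s3 := leb_symm E J x u z v
    linarith
  · have k1 := h3 V E J a b b c hJ
    rw [(h2 V E J a b b c).2.2.2, leb_diag] at k1
    have k2 := (h4 V E J hJ).2 a b c
    linarith

end Vale.Agent.P159
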