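import Vale.Agent.P159.Stm2

/-! The infinite volume limit and supermultiplicativity. -/

open MeasureTheory Real Filter Topology

namespace Vale.Agent.P159

theorem lim_pf (h1 : LatStmt) (h2 : LebStmt) (h3 : GriStmt) : LimStmt := by
  intro b hb
  have m : ∀ {r R : ℕ}, r ≤ R → ((r : ℤ), (0 : ℤ)) ∈ box R := fun h => by
    simpa [mem_box, nrm] using h
  have m0 : ∀ R : ℕ, ((0 : ℤ), (0 : ℤ)) ∈ box R := fun R => m R.zero_le
  have bm : ∀ {R R' : ℕ}, R ≤ R' → ∀ x ∈ box R, id x ∈ box R' := fun h x hx =>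
    mem_box.2 ((mem_box.1 hx).trans h)
  have mono : ∀ {r R R' : ℕ}, r ≤ R → R ≤ R' → corr b r R ≤ corr b r R' := fun h h' =>
    h1 b _ _ id hb.le Function.injective_id (fun _ => Or.inl) (bm h') _ (m0 _) _ (m h)
  have one : ∀ {r R : ℕ}, r ≤ R → corr b r R ≤ 1 := fun h => by
    rw [corr_eq, T_eq b _ (m0 _) (m h)]
    exact tp_le_one _ _ _ _
  have lim : ∀ r, Tendsto (fun R : ℕ => corr b r R) atTop (𝓝 (Cinf b r)) := fun r =>
    tendsto_nhds_limUnder ⟨_, (tendsto_add_atTop_iff_nat r).1 (tendsto_atTop_ciSup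
      (fun i j h => mono (Nat.le_add_left r i) (Nat.add_le_add_right h r))
      ⟨1, Set.forall_mem_range.2 fun i => one (Nat.le_add_left r i)⟩)⟩
  have le : ∀ r R, r ≤ R → corr b r R ≤ Cinf b r := fun r R h =>
    ge_of_tendsto (lim r) ((eventually_ge_atTop R).mono fun _ => mono h)
  refine ⟨lim, le, fun r => le_of_tendsto (lim r) ((eventually_ge_atTop r).mono fun _ => one),
    fun r s => le_of_tendsto (((lim r).mul (lim s)).const_mul _) ?_⟩
  filter_upwards [eventually_ge_atTop r, eventually_ge_atTop s] with R hr hs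
  have hJ : ∀ R, ∀ p ∈ edges R, 0 ≤ (fun _ => b) p := fun _ _ _ => hb.le
  have a1 : r ≤ R + r := by omega
  have a2 : r + s ≤ R + r := by omega
  have e1 := mono hr (R.le_add_right r)
  have e2 := h1 b R (R + r) (fun x => x + ((r : ℤ), 0)) hb.le (add_left_injective _)
    (fun p hp => Or.inl (hp.imp (fun e => by simp only [e, add_right_comm])
      fun e => by simp only [e, add_right_comm]))
    (fun x hx => by
      simp only [mem_box, nrm, Prod.fst_add, Prod.snd_add, max_le_iff] at hx ⊢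
      omega) _ (m0 R) _ (m hs)
  simp only [Prod.mk_add_mk, zero_add, ← Nat.cast_add, add_comm s] at e2
  rw [corr_eq b r (R + r), T_eq b _ (m0 _) (m a1)] at e1
  rw [← corr_eq, T_eq b _ (m a1) (m a2)] at e2
  have e3 := (h2 _ _ _ (hJ (R + r))).2 ⟨_, m0 _⟩ ⟨_, m a1⟩ ⟨_, m a2⟩
  rw [← T_eq b _ (m0 _) (m a2), ← corr_eq] at e3
  refine le_trans (mul_le_mul_of_nonneg_left (mul_le_mul e1 e2 ?_ ((h3 _ _ _ (hJ _)).1 _ _))
    (by norm_num)) (e3.trans (le _ _ a2))
  rw [corr_eq, T_eq b _ (m0 _) (m hs)]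
  exact (h3 _ _ _ (hJ _)).1 _ _

end Vale.Agent.P159
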