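import Vale.Agent.P159.Stm2

/-! The cone of polynomials with nonnegative coefficients in cosines and sines. -/

open MeasureTheory Real Filter Topology

namespace Vale.Agent.P159

lemma mc_one (a b : ℕ) : 0 ≤ ∫ x in Set.Ioc 0 (2 * π), cos x ^ a * sin x ^ b := by
  rw [← intervalIntegral.integral_of_le (by positivity)]
  rcases Nat.even_or_odd b with hb | hb
  · rcases Nat.even_or_odd a with ha | ha
    · exact intervalIntegral.integral_nonneg (by positivity) fun x _ =>
        mul_nonneg (ha.pow_nonneg _) (hb.pow_nonneg _)
    · have hp : Function.Periodic (fun x : ℝ => cos x ^ a * sin x ^ b) (2 * π) := fun x => by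
        simp only [cos_add_two_pi, sin_add_two_pi]
      have h1 := hp.intervalIntegral_add_eq π 0
      have h2 := intervalIntegral.integral_comp_add_right (a := 0) (b := 2 * π)
        (fun x : ℝ => cos x ^ a * sin x ^ b) π
      have h3 : ∀ x : ℝ, cos (x + π) ^ a * sin (x + π) ^ b = -(cos x ^ a * sin x ^ b) := fun x => by
        rw [cos_add_pi, sin_add_pi, ha.neg_pow, hb.neg_pow, neg_mul]
      simp only [h3, intervalIntegral.integral_neg, zero_add] at h1 h2
      rw [add_comm (2 * π) π, h1] at h2
      linarith
  · have h2 := intervalIntegral.integral_comp_sub_left (a := 0) (b := 2 * π)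
      (fun x : ℝ => cos x ^ a * sin x ^ b) (2 * π)
    have h3 : ∀ x : ℝ, cos (2 * π - x) ^ a * sin (2 * π - x) ^ b = -(cos x ^ a * sin x ^ b) :=
      fun x => by rw [cos_two_pi_sub, sin_two_pi_sub, hb.neg_pow, mul_neg]
    simp only [h3, intervalIntegral.integral_neg, sub_self, sub_zero] at h2
    linarith

lemma mc_mono (V : Type) [Fintype V] (c : ℝ) (hc : 0 ≤ c) (a b : V → ℕ) :
    0 ≤ I fun θ : V → ℝ => c * ∏ y, (cos (θ y) ^ a y * sin (θ y) ^ b y) := by
  unfold I cube
  rw [integral_const_mul]
  refine mul_nonneg hc ?_
  rw [volume_pi, Measure.restrict_pi_pi,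
    integral_fintype_prod_eq_prod (fun y (x : ℝ) => cos x ^ a y * sin x ^ b y)]
  exact Finset.prod_nonneg fun y _ => mc_one _ _

theorem mc_pf : MCStmt := by
  intro V _
  classical
  refine ⟨fun F hF => ?_, fun F hF G hG => ?_, fun y => ?_, fun y => ?_, fun c hc => ?_⟩
  · induction hF using AddSubmonoid.closure_induction with
    | mem F hF =>
      obtain ⟨c, a, b, hc, rfl⟩ := hF
      exact ⟨by fun_prop, mc_mono V c hc a b⟩
    | zero => exact ⟨continuous_zero, by simp [I]⟩
    | add F G _ _ hF hG =>
      refine ⟨hF.1.add hG.1, ?_⟩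
      have : I (F + G) = I F + I G := integral_add (intOn_cube hF.1) (intOn_cube hG.1)
      rw [this]
      exact add_nonneg hF.2 hG.2
  · induction hF using AddSubmonoid.closure_induction with
    | mem F hF =>
      induction hG using AddSubmonoid.closure_induction with
      | mem G hG =>
        obtain ⟨c, a, b, hc, rfl⟩ := hF
        obtain ⟨c', a', b', hc', rfl⟩ := hG
        refine AddSubmonoid.subset_closure ⟨c * c', a + a', b + b', mul_nonneg hc hc', ?_⟩
        funext θ
        simp only [Pi.mul_apply, Pi.add_apply]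
        rw [mul_mul_mul_comm, ← Finset.prod_mul_distrib]
        refine congrArg _ (Finset.prod_congr rfl fun y _ => ?_)
        ring
      | zero =>
        rw [mul_zero]
        exact zero_mem _
      | add G G' _ _ h1 h2 =>
        rw [mul_add]
        exact add_mem h1 h2
    | zero =>
      rw [zero_mul]
      exact zero_mem _
    | add F F' _ _ h1 h2 =>
      rw [add_mul]
      exact add_mem h1 h2
  · refine AddSubmonoid.subset_closure ⟨1, Pi.single y 1, 0, zero_le_one, ?_⟩
    funext θ
    rw [one_mul, Finset.prod_eq_single y]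
    · simp
    · intro z _ hz
      simp [Pi.single_eq_of_ne hz]
    · simp
  · refine AddSubmonoid.subset_closure ⟨1, 0, Pi.single y 1, zero_le_one, ?_⟩
    funext θ
    rw [one_mul, Finset.prod_eq_single y]
    · simp
    · intro z _ hz
      simp [Pi.single_eq_of_ne hz]
    · simp
  · exact AddSubmonoid.subset_closure ⟨c, 0, 0, hc, by funext θ; simp⟩

end Vale.Agent.P159
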