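import Vale.Agent.P159.Stm

/-! Complex translation of the angles. -/

open MeasureTheory Real

namespace Vale.Agent.P159

namespace MSAux

theorem diff_int {V : Type} [Fintype V] (H H' : ℂ → (V → ℝ) → ℂ)
    (hH : ∀ z, Continuous (H z)) (hH' : Continuous fun q : ℂ × (V → ℝ) => H' q.1 q.2)
    (hd : ∀ z θ, HasDerivAt (fun w => H w θ) (H' z θ) z) :
    Differentiable ℂ fun z => ∫ θ in cube V, H z θ := by
  intro z
  have hK : IsCompact (Metric.closedBall z 1 ×ˢ
      Set.univ.pi fun _ : V => Set.Icc (0 : ℝ) (2 * π)) :=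
    (isCompact_closedBall z 1).prod (isCompact_univ_pi fun _ => isCompact_Icc)
  obtain ⟨C, hC⟩ := hK.exists_bound_of_continuousOn hH'.continuousOn
  have h1 : ∀ w, Continuous (H' w) := fun w => hH'.comp (Continuous.prodMk_right w)
  refine (hasDerivAt_integral_of_dominated_loc_of_deriv_le (μ := volume.restrict (cube V))
    (F := H) (F' := H') (bound := fun _ => C) (Metric.ball_mem_nhds z one_pos)
    (Filter.Eventually.of_forall fun w => (hH w).aestronglyMeasurable) (intOn_cube (hH z))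
    (h1 z).aestronglyMeasurable ?_ (intOn_cube continuous_const)
    (Filter.Eventually.of_forall fun θ w _ => hd w θ)).2.differentiableAt
  refine (ae_restrict_iff' (cube_meas V)).2 (Filter.Eventually.of_forall fun θ hθ w hw => ?_)
  exact hC (w, θ) ⟨Metric.ball_subset_closedBall hw, cube_sub V hθ⟩

variable {V : Type} (E : Finset (V × V)) (J : V × V → ℝ) (a : V → ℝ) (x y : V)

/-- the exponent after translation by `z • a` -/
noncomputable def Ph (z : ℂ) (θ : V → ℝ) : ℂ :=
  Complex.I * (((θ x - θ y : ℝ) : ℂ) + z * ((a x - a y : ℝ) : ℂ)) +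
    ∑ p ∈ E, (J p : ℂ) * Complex.cos (((θ p.1 - θ p.2 : ℝ) : ℂ) + z * ((a p.1 - a p.2 : ℝ) : ℂ))

/-- its derivative -/
noncomputable def Ph' (z : ℂ) (θ : V → ℝ) : ℂ :=
  Complex.I * ((a x - a y : ℝ) : ℂ) +
    ∑ p ∈ E, (J p : ℂ) * (-Complex.sin (((θ p.1 - θ p.2 : ℝ) : ℂ) +
      z * ((a p.1 - a p.2 : ℝ) : ℂ)) * ((a p.1 - a p.2 : ℝ) : ℂ))

theorem lin_der (u v z : ℂ) : HasDerivAt (fun w : ℂ => u + w * v) v z := by
  simpa using ((hasDerivAt_id z).mul_const v).const_add u

theorem ph_der (z : ℂ) (θ : V → ℝ) :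
    HasDerivAt (fun w => Ph E J a x y w θ) (Ph' E J a x y z θ) z :=
  ((lin_der _ _ z).const_mul Complex.I).add
    (HasDerivAt.fun_sum fun p _ => (lin_der _ _ z).ccos.const_mul (J p : ℂ))

theorem ph_cont : Continuous fun q : ℂ × (V → ℝ) => Ph E J a x y q.1 q.2 := by
  unfold Ph
  fun_prop

theorem ph'_cont : Continuous fun q : ℂ × (V → ℝ) => Ph' E J a x y q.1 q.2 := by
  unfold Ph'
  fun_prop

theorem ph_real (t : ℝ) (θ : V → ℝ) :
    Ph E J a x y t θ = Ph E J a x y 0 (θ + fun v => t * a v) := by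
  unfold Ph
  simp only [Pi.add_apply]
  push_cast
  refine congrArg₂ (· + ·) (by ring) (Finset.sum_congr rfl fun p _ => ?_)
  refine congrArg (fun u => (J p : ℂ) * Complex.cos u) ?_
  ring

theorem exp_ph0 (θ : V → ℝ) : Complex.exp (Ph E J a x y 0 θ) =
    Complex.exp (((θ x - θ y : ℝ) : ℂ) * Complex.I) * (W E J θ : ℂ) := by
  unfold Ph W
  rw [Complex.exp_add, Complex.ofReal_exp, Complex.ofReal_sum]
  simp only [zero_mul, add_zero, Complex.ofReal_mul, Complex.ofReal_cos, mul_comm Complex.I]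

theorem per_zero : Per fun θ => Complex.exp (Ph E J a x y 0 θ) := by
  intro θ k
  beta_reduce
  rw [exp_ph0, exp_ph0, W_per E J θ k, per_diff, Complex.exp_ofReal_mul_I,
    Complex.exp_ofReal_mul_I, cos_add_int_mul_two_pi, sin_add_int_mul_two_pi]

theorem norm_I (θ : V → ℝ) : ‖Complex.exp (Ph E J a x y Complex.I θ)‖ =
    exp (-(a x - a y)) * W E (fun p => J p * cosh (a p.1 - a p.2)) θ := by
  unfold W
  rw [Complex.norm_exp, ← exp_add]
  refine congrArg exp ?_
  unfold Ph
  rw [Complex.add_re, Complex.re_sum]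
  refine congrArg₂ (· + ·) (by simp) (Finset.sum_congr rfl fun p _ => ?_)
  rw [mul_comm Complex.I, Complex.cos_add_mul_I, ← Complex.ofReal_cos, ← Complex.ofReal_cosh,
    ← Complex.ofReal_sin, ← Complex.ofReal_sinh]
  simp only [Complex.mul_re, Complex.sub_re, Complex.ofReal_re, Complex.ofReal_im,
    Complex.I_re, Complex.I_im, Complex.mul_im, Complex.sub_im]
  ring

end MSAux

open MSAux in
theorem ms_pf (h : ShiftStmt) : MSStmt := by
  intro V _ E J a x y
  have hc : ∀ z, Continuous fun θ => Complex.exp (Ph E J a x y z θ) := fun z =>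
    Complex.continuous_exp.comp ((ph_cont E J a x y).comp (Continuous.prodMk_right z))
  have hG := diff_int (fun z θ => Complex.exp (Ph E J a x y z θ))
    (fun z θ => Complex.exp (Ph E J a x y z θ) * Ph' E J a x y z θ) hc
    ((Complex.continuous_exp.comp (ph_cont E J a x y)).mul (ph'_cont E J a x y))
    fun z θ => (ph_der E J a x y z θ).cexp
  obtain ⟨G, hGe⟩ : ∃ G : ℂ → ℂ, G = fun z => ∫ θ in cube V, Complex.exp (Ph E J a x y z θ) :=
    ⟨_, rfl⟩
  rw [← hGe] at hG
  have hreal : ∀ t : ℝ, G t = G 0 := fun t => by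
    simp only [hGe, ph_real]
    exact h V _ (hc 0) (per_zero E J a x y) _
  have hconst : G = fun _ => G 0 := by
    refine AnalyticOnNhd.eq_of_frequently_eq (fun z _ => hG.analyticAt z)
      analyticOnNhd_const (z₀ := 0) ?_
    have h1 : Filter.Tendsto (fun t : ℝ => (t : ℂ)) (nhdsWithin 0 {0}ᶜ) (nhdsWithin 0 {0}ᶜ) := by
      refine tendsto_nhdsWithin_iff.2 ⟨?_, ?_⟩
      · simpa using (Complex.continuous_ofReal.tendsto 0).mono_left nhdsWithin_le_nhds
      · filter_upwards [self_mem_nhdsWithin] with t ht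
        simpa using ht
    exact h1.frequently (Filter.Eventually.of_forall hreal).frequently
  have h0 : I (fun θ => cos (θ x - θ y) * W E J θ) = (G 0).re := by
    rw [hGe]
    unfold I
    beta_reduce
    rw [← Complex.reCLM_apply, ← ContinuousLinearMap.integral_comp_comm _ (intOn_cube (hc 0))]
    refine congrArg _ (funext fun θ => ?_)
    rw [Complex.reCLM_apply, exp_ph0, Complex.re_mul_ofReal, Complex.exp_ofReal_mul_I_re]
  have h1 : G 0 = G Complex.I := (congrFun hconst Complex.I).symm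
  rw [h0, h1]
  refine (Complex.re_le_norm _).trans ?_
  rw [hGe]
  refine (norm_integral_le_integral_norm _).trans (le_of_eq ?_)
  unfold I
  rw [← integral_const_mul]
  exact congrArg _ (funext fun θ => norm_I E J a x y θ)

end Vale.Agent.P159
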