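import Vale.Agent.P159.Stm

/-! Assembly of the bound. -/

open MeasureTheory Real Filter Topology

namespace Vale.Agent.P159

lemma en_box {g : ℤ × ℤ → ℝ} {c : ℝ} (h : En g c) (R : ℕ) :
    ∑ p ∈ edges R, (g p.1 - g p.2) ^ 2 ≤ c := by
  classical
  have h1 := h ((edges R).image fun p : box R × box R => ((p.1 : ℤ × ℤ), (p.2 : ℤ × ℤ))) (by
    intro q hq
    obtain ⟨p, hp, rfl⟩ := Finset.mem_image.1 hq
    exact (Finset.mem_filter.1 hp).2)
  rw [Finset.sum_image] at h1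
  · exact h1
  · intro p _ q _ hpq
    simp only [Prod.mk.injEq] at hpq
    exact Prod.ext (Subtype.ext hpq.1) (Subtype.ext hpq.2)

lemma nb_of_mem {R : ℕ} {p : box R × box R} (hp : p ∈ edges R) :
    Nb ((p.1 : ℤ × ℤ), (p.2 : ℤ × ℤ)) := (Finset.mem_filter.1 hp).2

lemma params {b η : ℝ} (hb : 0 < b) (hη : η < (1 + √(1 + 16 * b ^ 2)) / (8 * π * b ^ 2)) :
    ∃ U κ : ℝ, 0 < U ∧ 1 < κ ∧ (1 - U ^ 2) * (b * κ) * (2 * κ) < U ∧
      η < 1 / (2 * π * b * U * κ ^ 2) := by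
  set s := √(1 + 16 * b ^ 2) with hs
  have hs2 : s ^ 2 = 1 + 16 * b ^ 2 := sq_sqrt (by positivity)
  have hs0 : 0 ≤ s := sqrt_nonneg _
  have hs1 : 1 < s := by nlinarith [sq_pos_of_pos hb]
  set u := (s - 1) / (4 * b) with hu
  have hu0 : 0 < u := div_pos (by linarith) (by positivity)
  have hub : u * (4 * b) = s - 1 := div_mul_cancel₀ _ (by positivity)
  have he : (1 + s) / (8 * π * b ^ 2) = 1 / (2 * π * b * u) := by
    rw [div_eq_div_iff (by positivity) (by positivity)]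
    have : (1 + s) * (u * (4 * b)) = 16 * b ^ 2 := by rw [hub]; nlinarith
    nlinarith [pi_pos]
  rw [he] at hη
  have hq : (1 - u ^ 2) * b * 2 = u := by
    have h4 : (4 * b) ^ 2 ≠ 0 := by positivity
    apply mul_right_cancel₀ h4
    have : (1 - u ^ 2) * b * 2 * (4 * b) ^ 2 = ((4 * b) ^ 2 - (u * (4 * b)) ^ 2) * b * 2 := by ring
    rw [this, show u * (4 * b) ^ 2 = u * (4 * b) * (4 * b) by ring, hub]
    nlinarith
  have c1 : ContinuousAt (fun x : ℝ => 1 / (2 * π * b * x)) u :=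
    ContinuousAt.div continuousAt_const (by fun_prop) (by positivity)
  have e1 : ∀ᶠ x in 𝓝[>] u, η < 1 / (2 * π * b * x) :=
    nhdsWithin_le_nhds (c1.eventually (lt_mem_nhds hη))
  obtain ⟨U, hU1, hU2⟩ := (e1.and self_mem_nhdsWithin).exists
  have hU2' : u < U := hU2
  have hU0 : 0 < U := hu0.trans hU2'
  have hlt : (1 - U ^ 2) * (b * 1) * (2 * 1) < U := by
    have : u ^ 2 < U ^ 2 := by nlinarith
    nlinarith
  have c2 : ContinuousAt (fun x : ℝ => 1 / (2 * π * b * U * x ^ 2)) 1 :=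
    ContinuousAt.div continuousAt_const (by fun_prop) (by positivity)
  have c3 : ContinuousAt (fun x : ℝ => (1 - U ^ 2) * (b * x) * (2 * x)) 1 := by fun_prop
  have e2 : ∀ᶠ x in 𝓝[>] (1 : ℝ), η < 1 / (2 * π * b * U * x ^ 2) :=
    nhdsWithin_le_nhds (c2.eventually (lt_mem_nhds (by simpa using hU1)))
  have e3 : ∀ᶠ x in 𝓝[>] (1 : ℝ), (1 - U ^ 2) * (b * x) * (2 * x) < U :=
    nhdsWithin_le_nhds (c3.eventually (gt_mem_nhds hlt))
  obtain ⟨κ, ⟨h1, h2⟩, h3⟩ := ((e2.and e3).and self_mem_nhdsWithin).exists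
  exact ⟨U, κ, hU0, h3, h2, h1⟩

lemma energy_bd (hB : BogStmt) (hR : ResStmt) {B U c : ℝ} (hB0 : 0 < B) (hU : 0 < U) (hc : 2 < c)
    (h : (1 - U ^ 2) * B * c < U) (R : ℕ) (J : box R × box R → ℝ)
    (hJ : ∀ p ∈ edges R, 0 ≤ J p ∧ J p ≤ B) :
    ∀ p ∈ edges R, I (fun θ => cos (θ p.1 - θ p.2) * W (edges R) J θ) ≤ U * I (W (edges R) J) := by
  intro p hp
  have hZ := I_W_pos (edges R) J
  obtain ⟨e, he, hmax⟩ := Finset.exists_max_image (edges R)
    (fun q => I (fun θ => cos (θ q.1 - θ q.2) * W (edges R) J θ)) ⟨p, hp⟩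
  refine (hmax p hp).trans ?_
  by_contra hlt
  push Not at hlt
  set U' := I (fun θ => cos (θ e.1 - θ e.2) * W (edges R) J θ) / I (W (edges R) J) with hU'
  have hm : I (fun θ => cos (θ e.1 - θ e.2) * W (edges R) J θ) = U' * I (W (edges R) J) :=
    (div_mul_cancel₀ _ hZ.ne').symm
  have hUU : U < U' := by
    rw [hU', lt_div_iff₀ hZ]
    exact hlt
  obtain ⟨g, hg1, hg2⟩ := hR c hc _ (nb_of_mem he)
  have := hB (box R) (edges R) J (fun x => g x) B U' c e hJ hB0.le (hU.trans hUU)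
    (fun q hq => hm ▸ hmax q hq) hm hg1 (en_box hg2 R)
  have h2 : (1 - U' ^ 2) * B * c ≤ (1 - U ^ 2) * B * c := by
    have : U ^ 2 ≤ U' ^ 2 := by nlinarith
    gcongr
  linarith

lemma cosh_bd {t κ : ℝ} (hκ : 1 < κ) (ht : t ^ 2 ≤ 2 * log κ) :
    cosh t ≤ κ ∧ cosh t - 1 ≤ t ^ 2 / 2 * κ := by
  have h1 := cosh_le_exp_half_sq t
  have h2 : exp (t ^ 2 / 2) ≤ κ := by
    calc exp (t ^ 2 / 2) ≤ exp (log κ) := exp_le_exp.2 (by linarith)
      _ = κ := exp_log (by linarith)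
  refine ⟨h1.trans h2, ?_⟩
  have h3 := add_one_le_exp (-(t ^ 2 / 2))
  have h4 : exp (-(t ^ 2 / 2)) * exp (t ^ 2 / 2) = 1 := by rw [← exp_add]; simp
  have h5 := exp_pos (t ^ 2 / 2)
  have h6 : exp (t ^ 2 / 2) - 1 ≤ t ^ 2 / 2 * exp (t ^ 2 / 2) := by nlinarith
  have h7 : t ^ 2 / 2 * exp (t ^ 2 / 2) ≤ t ^ 2 / 2 * κ := by gcongr
  linarith

theorem main_of (hB : BogStmt) (hM : MSStmt) (hJ : JenStmt) (hR : ResStmt) (hP : PotStmt)
    (b η : ℝ) (hb : 0 < b) (hη : η < (1 + √(1 + 16 * b ^ 2)) / (8 * π * b ^ 2)) :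
    ∃ C : ℝ, ∀ r : ℕ, 1 ≤ r → ∀ R : ℕ, r ≤ R → corr b r R ≤ C * (r : ℝ) ^ (-η) := by
  obtain ⟨U, κ, hU, hκ, h1, h2⟩ := params hb hη
  set l := 1 / (2 * π * b * U * κ ^ 2) with hl
  have hκ0 : 0 < κ := by linarith
  have hl0 : 0 < l := by positivity
  have hlog : 0 < log κ := log_pos hκ
  obtain ⟨C, hC⟩ := hP (κ - 1) (√(2 * log κ) / l) (by linarith) (by positivity)
  refine ⟨exp (l * C + U * (b * κ * l ^ 2 / 2 * C)), fun r hr R hR' => ?_⟩
  obtain ⟨a, ha1, ha2, ha3⟩ := hC r hr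
  have hx : ((0, 0) : ℤ × ℤ) ∈ box R := by simp [box]
  have hy : (((r : ℤ), 0) : ℤ × ℤ) ∈ box R := by
    simp only [box, Finset.mem_product, Finset.mem_Icc]
    omega
  have hW : weight R b = W (edges R) fun _ => b := by
    funext θ
    simp only [weight, W, Finset.mul_sum]
  have hcorr : corr b r R = I (fun θ => cos (θ ⟨_, hx⟩ - θ ⟨_, hy⟩) * W (edges R) (fun _ => b) θ) /
      I (W (edges R) fun _ => b) := by
    simp only [corr, expect, I, hW, ang, dif_pos hx, dif_pos hy]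
  have hZ := I_W_pos (edges R) fun _ => b
  have hgr : ∀ p ∈ edges R, (l * a p.1 - l * a p.2) ^ 2 ≤ 2 * log κ := by
    intro p hp
    have h3 := ha2 _ (nb_of_mem hp)
    rw [le_div_iff₀ hl0] at h3
    have h4 : |l * a p.1 - l * a p.2| ≤ √(2 * log κ) := by
      rw [← mul_sub, abs_mul, abs_of_pos hl0, mul_comm]
      exact h3
    calc (l * a p.1 - l * a p.2) ^ 2 = |l * a p.1 - l * a p.2| ^ 2 := (sq_abs _).symm
      _ ≤ √(2 * log κ) ^ 2 := by gcongr
      _ = 2 * log κ := sq_sqrt (by positivity)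
  have hms := hM (box R) (edges R) (fun _ => b) (fun x => l * a x) ⟨_, hx⟩ ⟨_, hy⟩
  have hen := energy_bd hB hR (B := b * κ) (U := U) (c := 2 * κ) (by positivity) hU (by linarith)
    h1 R (fun p => b * cosh (l * a p.1 - l * a p.2)) (fun p hp =>
      ⟨by positivity, mul_le_mul_of_nonneg_left (cosh_bd hκ (hgr p hp)).1 hb.le⟩)
  have hj := hJ (box R) (edges R) (fun _ => b) (fun p => b * cosh (l * a p.1 - l * a p.2)) U
    (fun p _ => le_mul_of_one_le_right hb.le (one_le_cosh _)) hen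
  have hsum : ∑ p ∈ edges R, (b * cosh (l * a p.1 - l * a p.2) - b) ≤
      b * κ * l ^ 2 / 2 * (κ * (4 * π) * log r + C) := by
    have h5 := en_box ha3 R
    rw [show 1 + (κ - 1) = κ by ring] at h5
    calc ∑ p ∈ edges R, (b * cosh (l * a p.1 - l * a p.2) - b)
        ≤ ∑ p ∈ edges R, b * κ * l ^ 2 / 2 * (a p.1 - a p.2) ^ 2 := by
          refine Finset.sum_le_sum fun p hp => ?_
          have h6 := mul_le_mul_of_nonneg_left (cosh_bd hκ (hgr p hp)).2 hb.le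
          nlinarith
      _ = b * κ * l ^ 2 / 2 * ∑ p ∈ edges R, (a p.1 - a p.2) ^ 2 := by rw [Finset.mul_sum]
      _ ≤ _ := by gcongr
  have hr0 : (0 : ℝ) < r := by exact_mod_cast hr
  have hr1 : (1 : ℝ) ≤ r := by exact_mod_cast hr
  have hlr : 0 ≤ log (r : ℝ) := log_nonneg hr1
  rw [hcorr, div_le_iff₀ hZ]
  refine hms.trans ?_
  refine (mul_le_mul_of_nonneg_left hj (exp_pos _).le).trans ?_
  rw [← mul_assoc]
  refine mul_le_mul_of_nonneg_right ?_ hZ.le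
  rw [rpow_def_of_pos hr0, ← exp_add, ← exp_add, exp_le_exp]
  have hll : l * (2 * π * b * U * κ ^ 2) = 1 := by
    rw [hl]
    field_simp
  have h7 := mul_le_mul_of_nonneg_left hsum hU.le
  have h8 := mul_le_mul_of_nonneg_left ha1 hl0.le
  have h9 : U * (b * κ * l ^ 2 / 2 * (κ * (4 * π) * log r + C)) =
      l * log r + U * (b * κ * l ^ 2 / 2 * C) := by
    have : U * (b * κ * l ^ 2 / 2 * (κ * (4 * π) * log r)) =
        l * (2 * π * b * U * κ ^ 2) * (l * log r) := by ring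
    rw [hll] at this
    linarith
  have h10 : η * log r ≤ l * log r := mul_le_mul_of_nonneg_right h2.le hlr
  simp only at h7 h8 ⊢
  nlinarith

end Vale.Agent.P159
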