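import Vale.Agent.P159.MainG

/-! Lower bound for the correlation length. -/

open MeasureTheory Real Filter Topology

namespace Vale.Agent.P159

lemma T_mono (hM : MonoStmt) {b b' : ℝ} (hb : 0 ≤ b) (h : b ≤ b') {R : ℕ} {x z : ℤ × ℤ}
    (hx : x ∈ box R) (hz : z ∈ box R) : T b R x z ≤ T b' R x z := by
  rw [T_eq b R hx hz, T_eq b' R hx hz]
  exact hM _ _ _ _ _ _ fun _ _ => ⟨hb, h⟩

lemma mass_pos_of_rows (hS : SimStmt) (hL : LimStmt) (hF : FekStmt) {b X : ℝ} (hb : 0 < b)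
    (h : ∀ R : ℕ, ∀ x ∈ box R, ∑ z ∈ box R, T b R x z ≤ X) : 0 < mass b := by
  obtain ⟨n, hn, hs⟩ := hS b X hb.le
  have hn0 : (0 : ℝ) < n := by exact_mod_cast hn
  have hC : ∀ k : ℕ, Cinf b (k * n + 1) ≤ (1 / 2) ^ k := by
    intro k
    refine le_of_tendsto ((hL b hb).1 (k * n + 1)) ((eventually_ge_atTop (k * n + 1)).mono
      fun R hR => ?_)
    rw [corr_eq]
    refine hs R (h R) k _ (mem_box.2 (by simp [nrm])) _ (mem_box.2 ?_) ?_
    · simp only [nrm, Int.natAbs_natCast, Int.natAbs_zero]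
      omega
    · simp only [nrm, Prod.mk_zero_zero, sub_zero, Int.natAbs_natCast, Int.natAbs_zero]
      omega
  have ht : Tendsto (fun k : ℕ => k * n + 1) atTop atTop :=
    tendsto_atTop_mono (fun k => (Nat.le_mul_of_pos_right k hn).trans (Nat.le_succ _)) tendsto_id
  have hl := (hF b hb).1.comp ht
  have hl2 : 0 < log 2 := log_pos one_lt_two
  refine lt_of_lt_of_le (by positivity : 0 < log 2 / (2 * n)) (ge_of_tendsto hl
    ((eventually_ge_atTop 1).mono fun k hk => ?_))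
  have hk1 : (1 : ℝ) ≤ k := by exact_mod_cast hk
  have hn1 : (1 : ℝ) ≤ n := by exact_mod_cast hn
  have h1 : log (Cinf b (k * n + 1)) ≤ -(k * log 2) := by
    have := log_le_log ((hF b hb).2.2.1 _) (hC k)
    rwa [log_pow, one_div, log_inv, mul_neg] at this
  simp only [Function.comp]
  have hp : (0 : ℝ) < ((k * n + 1 : ℕ) : ℝ) := by positivity
  have h2 : -(1 / ((k * n + 1 : ℕ) : ℝ)) * log (Cinf b (k * n + 1)) =
      -log (Cinf b (k * n + 1)) / ((k * n + 1 : ℕ) : ℝ) := by ring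
  rw [h2, div_le_div_iff₀ (by positivity) hp]
  push_cast
  have h3 : (k * n + 1 : ℝ) ≤ k * (2 * n) := by nlinarith
  nlinarith

lemma le_geo {t A B θ : ℝ} (ht : 0 ≤ t) (hA : t ≤ A) (hB : t ≤ B) (h0 : 0 ≤ θ) (h1 : θ ≤ 1) :
    t ≤ A ^ θ * B ^ (1 - θ) := by
  have h2 : t = t ^ θ * t ^ (1 - θ) := by
    rw [← rpow_add' ht (by simp), add_sub_cancel, rpow_one]
  have h3 : 0 ≤ 1 - θ := by linarith
  calc t = t ^ θ * t ^ (1 - θ) := h2
    _ ≤ A ^ θ * B ^ (1 - θ) := by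
      have := ht.trans hA
      gcongr

lemma pow_le_pow_left_iff_le_aux {s t : ℝ} (ht : 0 ≤ t) (h : s ^ 2 ≤ t ^ 2) : s ≤ t :=
  (abs_le_of_sq_le_sq' h ht).2

lemma mass_pos (hF : FekStmt) {b : ℝ} (hb : 0 < b) (h : b < bc) : 0 < mass b := by
  refine lt_of_le_of_ne (hF b hb).2.1 fun h0 => ?_
  have : bc ≤ b := csInf_le ⟨0, fun _ hx => hx.1.le⟩ ⟨hb, h0.symm⟩
  linarith

theorem main2_of (hM : MonoStmt) (hG : GriStmt) (hC : ChiStmt) (hS : SimStmt) (hL : LimStmt)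
    (hR : ReflStmt) (hF : FekStmt) (hU : SumStmt)
    (hD : ∀ b η : ℝ, 0 < b → η < (1 + √(1 + 16 * b ^ 2)) / (8 * π * b ^ 2) →
      ∃ C : ℝ, 0 < C ∧ ∀ R : ℕ, ∀ x ∈ box R, ∀ z ∈ box R, 1 ≤ nrm (z - x) →
        T b R x z ≤ C * (nrm (z - x) : ℝ) ^ (-η))
    (η : ℝ) (h0 : 0 ≤ η) (h1 : η ≤ 1) (hη : η < (1 + √(1 + 16 * bc ^ 2)) / (8 * π * bc ^ 2)) :
    ∃ c : ℝ, 0 < c ∧ ∀ b : ℝ, 0 < b → bc - 1 / 36 < b → b < bc →
      c * (bc - b) ^ (-(1 / (2 - η))) ≤ xi b := by
  by_cases hβ : 0 < bc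
  swap
  · exact ⟨1, one_pos, fun b hb _ hb2 => absurd (hb.trans hb2) hβ⟩
  have hne : {b : ℝ | 0 < b ∧ mass b = 0}.Nonempty := by
    by_contra hc
    rw [Set.not_nonempty_iff_eq_empty] at hc
    simp [bc, hc] at hβ
  obtain ⟨η', hη1, hη2⟩ := exists_between hη
  have hη0 : 0 < η' := h0.trans_lt hη1
  obtain ⟨C, hC0, hCb⟩ := hD bc η' hβ hη2
  set θ := η / η' with hθ
  have hθ0 : 0 ≤ θ := by positivity
  have hθ1 : θ < 1 := (div_lt_one hη0).2 hη1
  have hθ2 : 0 < 1 - θ := by linarith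
  set K := C ^ θ * (3 / 2 : ℝ) ^ (1 - θ) with hK
  have hK0 : 0 < K := by positivity
  have h2η : 0 < 2 - η := by linarith
  refine ⟨(1 - θ) * (2304 * K) ^ (-(1 / (2 - η))), by positivity, fun b hb hb1 hb2 => ?_⟩
  have hm := mass_pos hF hb hb2
  set m := mass b with hmdef
  set X := 1 + 64 * K * ((1 - θ) * m) ^ (-(2 - η)) with hX
  have hX0 : 0 < X := by positivity
  have hrows : ∀ R : ℕ, ∀ x ∈ box R, ∑ z ∈ box R, T b R x z ≤ X := by
    intro R x hx
    refine hU η K ((1 - θ) * m) x (box R) (fun z => T b R x z) h0 h1 hK0.le (by positivity)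
      (fun z hz => ?_) fun z hz hn => ?_
    · rw [T_eq b R hx hz]
      exact tp_le_one _ _ _ _
    have hT0 : 0 ≤ T b R x z := by
      rw [T_eq b R hx hz]
      exact (hG _ _ _ fun _ _ => hb.le).1 _ _
    have a1 := (T_mono hM hb.le hb2.le hx hz).trans (hCb R x hx z hz hn)
    have a2 : T b R x z ≤ 3 / 2 * exp (-(m * nrm (z - x))) := by
      have b1 := hR b hb R x hx z hz
      have b2 := (hF b hb).2.2.2 (2 * nrm (z - x))
      have b3 : exp (-(mass b * ((2 * nrm (z - x) : ℕ) : ℝ))) =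
          exp (-(m * nrm (z - x))) ^ 2 := by
        rw [← exp_nat_mul]
        congr 1
        push_cast
        ring
      rw [b3] at b2
      refine pow_le_pow_left_iff_le_aux (by positivity) ?_
      nlinarith
    have hn0 : (0 : ℝ) < nrm (z - x) := by exact_mod_cast hn
    refine (le_geo hT0 a1 a2 hθ0 hθ1.le).trans (le_of_eq ?_)
    rw [mul_rpow hC0.le (by positivity), mul_rpow (by norm_num) (exp_pos _).le,
      ← rpow_mul hn0.le, ← exp_mul, hK]
    have e1 : -η' * θ = -η := by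
      rw [hθ]
      field_simp
    have e2 : -(m * nrm (z - x)) * (1 - θ) = -((1 - θ) * m * nrm (z - x)) := by ring
    rw [e1, e2]
    ring
  have hbc : b + 1 / (18 * X) ≤ bc := by
    refine le_csInf hne fun b1 hb1' => ?_
    by_contra hlt
    push Not at hlt
    have := mass_pos_of_rows hS hL hF hb1'.1 (X := 2 * X) fun R x hx => by
      refine le_trans (Finset.sum_le_sum fun z hz => T_mono hM hb1'.1.le hlt.le hx hz) ?_
      exact hC b _ X R hb.le (le_add_of_nonneg_right (by positivity)) hX0 (by simp) (hrows R) x hx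
    exact this.ne' hb1'.2
  set ε := bc - b with hε
  have hε0 : 0 < ε := by linarith
  have hε1 : ε < 1 / 36 := by linarith
  have c1 : 1 ≤ 18 * X * ε := by
    have : 1 / (18 * X) ≤ ε := by linarith
    rw [div_le_iff₀ (by positivity)] at this
    linarith
  have c2 : (2304 * K * ε)⁻¹ ≤ ((1 - θ) * m) ^ (-(2 - η)) := by
    rw [inv_le_iff_one_le_mul₀ (by positivity)]
    rw [hX] at c1
    nlinarith
  have c3 := rpow_le_rpow (by positivity) c2 (by positivity : 0 ≤ 1 / (2 - η))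
  rw [← rpow_mul (by positivity), show -(2 - η) * (1 / (2 - η)) = -1 by field_simp, rpow_neg_one,
    inv_rpow (by positivity), ← rpow_neg (by positivity),
    mul_rpow (by positivity) hε0.le] at c3
  have c4 := mul_le_mul_of_nonneg_left c3 hθ2.le
  rw [mul_inv, ← mul_assoc (1 - θ) (1 - θ)⁻¹, mul_inv_cancel₀ hθ2.ne', one_mul] at c4
  unfold xi
  rw [one_div (mass b), mul_assoc]
  exact c4

end Vale.Agent.P159
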