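import Vale.Agent.P159.Stm
import Vale.Agent.P159.Defs2

/-! Statements of the steps for the correlation length. -/

open MeasureTheory Real Filter Topology

namespace Vale.Agent.P159

noncomputable section

/-- expectation in the general finite model -/
def ex {V : Type} [Fintype V] (E : Finset (V × V)) (J : V × V → ℝ) (F : (V → ℝ) → ℝ) : ℝ :=
  I (fun θ => F θ * W E J θ) / I (W E J)

/-- two point function -/
def tp {V : Type} [Fintype V] (E : Finset (V × V)) (J : V × V → ℝ) (x y : V) : ℝ :=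
  ex E J fun θ => cos (θ x - θ y)

/-- four point function with charges `+ + - -` -/
def q4 {V : Type} [Fintype V] (E : Finset (V × V)) (J : V × V → ℝ) (a b c d : V) : ℝ :=
  ex E J fun θ => cos (θ a + θ b - θ c - θ d)

/-- energy energy correlation -/
def ee {V : Type} [Fintype V] (E : Finset (V × V)) (J : V × V → ℝ) (a b c d : V) : ℝ :=
  ex E J fun θ => cos (θ a - θ b) * cos (θ c - θ d)

/-- polynomials with nonnegative coefficients in the cosines and sines of the angles -/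
def MC (V : Type) [Fintype V] : AddSubmonoid ((V → ℝ) → ℝ) :=
  AddSubmonoid.closure {F | ∃ (c : ℝ) (a b : V → ℕ), 0 ≤ c ∧
    F = fun θ => c * ∏ y, (cos (θ y) ^ a y * sin (θ y) ^ b y)}

/-- positive definite kernels of finite rank -/
def PC (V : Type) : AddSubmonoid ((V ⊕ V → ℝ) → ℝ) :=
  AddSubmonoid.closure {F | ∃ φ : (V → ℝ) → ℝ, Continuous φ ∧
    F = fun ω => φ (fun y => ω (Sum.inl y)) * φ (fun y => ω (Sum.inr y))}

/-- lattice two point function in a box -/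
def T (b : ℝ) (R : ℕ) (x y : ℤ × ℤ) : ℝ := expect R b fun θ => cos (ang R θ x - ang R θ y)

/-- sup norm -/
def nrm (x : ℤ × ℤ) : ℕ := max x.1.natAbs x.2.natAbs

def ConeStmt : Prop := ∀ (V : Type) [Fintype V] (K : Set ((V → ℝ) → ℝ)),
  (∀ F ∈ K, Continuous F ∧ 0 ≤ I F) → (∀ F ∈ K, ∀ G ∈ K, F * G ∈ K) →
  ∀ P ∈ K, ∀ Q ∈ K, 0 ≤ I fun θ => P θ * exp (Q θ)

def MCStmt : Prop := ∀ (V : Type) [Fintype V], (∀ F ∈ MC V, Continuous F ∧ 0 ≤ I F) ∧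
  (∀ F ∈ MC V, ∀ G ∈ MC V, F * G ∈ MC V) ∧ (∀ y : V, (fun θ : V → ℝ => cos (θ y)) ∈ MC V) ∧
  (∀ y : V, (fun θ : V → ℝ => sin (θ y)) ∈ MC V) ∧
  ∀ c : ℝ, 0 ≤ c → (fun _ : V → ℝ => c) ∈ MC V

def ProdStmt : Prop := ∀ (V V' : Type) [Fintype V] [Fintype V'] (F : (V → ℝ) → ℝ)
  (G : (V' → ℝ) → ℝ), Continuous F → Continuous G →
  I (fun ω : V ⊕ V' → ℝ => F (fun y => ω (Sum.inl y)) * G (fun y => ω (Sum.inr y))) = I F * I G

def PCStmt : Prop := ∀ (V : Type) [Fintype V], (∀ F ∈ PC V, Continuous F ∧ 0 ≤ I F) ∧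
  ∀ F ∈ PC V, ∀ G ∈ PC V, F * G ∈ PC V

def DupStmt : Prop := ∀ (V : Type) [Fintype V] (F G : (V → ℝ) → ℝ), Continuous F → Continuous G →
  Per F → Per G → I F * I G = I fun ω : V ⊕ V → ℝ =>
    F (fun y => ω (Sum.inl y) - ω (Sum.inr y)) * G (fun y => ω (Sum.inl y) + ω (Sum.inr y))

def MonoStmt : Prop := ∀ (V : Type) [Fintype V] (E : Finset (V × V)) (J J' : V × V → ℝ) (x y : V),
  (∀ p ∈ E, 0 ≤ J p ∧ J p ≤ J' p) → tp E J x y ≤ tp E J' x y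

def GinStmt : Prop := ∀ (V : Type) [Fintype V] (E : Finset (V × V)) (J : V × V → ℝ) (a b c d : V),
  (∀ p ∈ E, 0 ≤ J p) → tp E J a b * tp E J c d ≤ ee E J a b c d

def NeuStmt : Prop := ∀ (V : Type) [Fintype V] (E : Finset (V × V)) (J : V × V → ℝ) (a b c d : V),
  ex E J (fun θ => cos (θ a) * cos (θ b)) = tp E J a b / 2 ∧
  ex E J (fun θ => sin (θ a) * sin (θ b)) = tp E J a b / 2 ∧
  ex E J (fun θ => cos (θ a) * cos (θ b) * (sin (θ c) * sin (θ d))) =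
    ee E J a b c d / 4 - q4 E J a b c d / 8 ∧
  ee E J a b c d = (q4 E J a c b d + q4 E J a d b c) / 2

def GriStmt : Prop := ∀ (V : Type) [Fintype V] (E : Finset (V × V)) (J : V × V → ℝ),
  (∀ p ∈ E, 0 ≤ J p) → (∀ a b, 0 ≤ tp E J a b) ∧ ∀ a b c, q4 E J a c b b ≤ 2 * tp E J a c

def DNStmt : Prop := ∀ (V : Type) [Fintype V] (E : Finset (V × V)) (J : V × V → ℝ) (a b c d : V),
  (∀ p ∈ E, 0 ≤ J p) → ex E J (fun θ => cos (θ a) * cos (θ b) * (sin (θ c) * sin (θ d))) ≤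
    ex E J (fun θ => cos (θ a) * cos (θ b)) * ex E J (fun θ => sin (θ c) * sin (θ d))

def LebStmt : Prop := ∀ (V : Type) [Fintype V] (E : Finset (V × V)) (J : V × V → ℝ),
  (∀ p ∈ E, 0 ≤ J p) → (∀ x z u v, ee E J x z u v - tp E J x z * tp E J u v ≤
    (tp E J x u * tp E J z v + tp E J x v * tp E J z u) / 2) ∧
  ∀ a b c, 2 / 3 * (tp E J a b * tp E J b c) ≤ tp E J a c

def IntStmt : Prop := ∀ (V : Type) [Fintype V] (E : Finset (V × V)) (J J' : V × V → ℝ) (x z : V),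
  (∀ p ∈ E, 0 ≤ J p ∧ J p ≤ J' p) → tp E J' x z - tp E J x z ≤ ∑ p ∈ E, (J' p - J p) *
    ((tp E J' x p.1 * tp E J' z p.2 + tp E J' x p.2 * tp E J' z p.1) / 2)

def PullStmt : Prop := ∀ (V V' : Type) [Fintype V] [Fintype V'] (ι : V → V'),
  Function.Injective ι → ∃ c : ℝ, 0 < c ∧ ∀ F : (V → ℝ) → ℝ, Continuous F →
    I (fun θ : V' → ℝ => F fun y => θ (ι y)) = c * I F

def LatStmt : Prop := ∀ (b : ℝ) (R R' : ℕ) (φ : ℤ × ℤ → ℤ × ℤ), 0 ≤ b → Function.Injective φ →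
  (∀ p, Nb p → Nb (φ p.1, φ p.2) ∨ Nb (φ p.2, φ p.1)) → (∀ x ∈ box R, φ x ∈ box R') →
  ∀ x ∈ box R, ∀ y ∈ box R, T b R x y ≤ T b R' (φ x) (φ y)

def DegStmt : Prop := ∀ (R : ℕ) (h : box R → ℝ), (∀ x, 0 ≤ h x) →
  ∑ p ∈ edges R, (h p.1 + h p.2) ≤ 4 * ∑ x, h x

def ChiStmt : Prop := ∀ (b b' X : ℝ) (R : ℕ), 0 ≤ b → b ≤ b' → 0 < X → b' - b ≤ 1 / (18 * X) →
  (∀ x ∈ box R, ∑ z ∈ box R, T b R x z ≤ X) → ∀ x ∈ box R, ∑ z ∈ box R, T b' R x z ≤ 2 * X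

def CutStmt : Prop := ∀ (b : ℝ) (R n : ℕ), 0 ≤ b → ∀ x ∈ box R, ∀ z ∈ box R, ∀ M : ℝ, 0 ≤ M →
  n < nrm (z - x) → (∀ w ∈ box R, nrm (w - x) ≤ n + 1 → T b R w z ≤ M) →
  T b R x z ≤ 2 * b * M *
    ∑ w ∈ (box R).filter (fun w => n ≤ nrm (w - x) ∧ nrm (w - x) ≤ n + 1), T b R x w

def SimStmt : Prop := ∀ b X : ℝ, 0 ≤ b → ∃ n : ℕ, 1 ≤ n ∧ ∀ R : ℕ,
  (∀ x ∈ box R, ∑ z ∈ box R, T b R x z ≤ X) →
  ∀ k : ℕ, ∀ x ∈ box R, ∀ z ∈ box R, k * n < nrm (z - x) → T b R x z ≤ (1 / 2) ^ k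

def PosStmt : Prop := ∀ b : ℝ, 0 < b → 0 < corr b 1 1

def LimStmt : Prop := ∀ b : ℝ, 0 < b →
  (∀ r, Tendsto (fun R : ℕ => corr b r R) atTop (𝓝 (Cinf b r))) ∧
  (∀ r R, r ≤ R → corr b r R ≤ Cinf b r) ∧ (∀ r, Cinf b r ≤ 1) ∧
  ∀ r s, 2 / 3 * (Cinf b r * Cinf b s) ≤ Cinf b (r + s)

def ReflStmt : Prop := ∀ b : ℝ, 0 < b → ∀ R : ℕ, ∀ x ∈ box R, ∀ z ∈ box R,
  2 / 3 * T b R x z ^ 2 ≤ Cinf b (2 * nrm (z - x))

def FekStmt : Prop := ∀ b : ℝ, 0 < b →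
  Tendsto (fun r : ℕ => -(1 / (r : ℝ)) * log (Cinf b r)) atTop (𝓝 (mass b)) ∧ 0 ≤ mass b ∧
  (∀ r, 0 < Cinf b r) ∧ ∀ r : ℕ, Cinf b r ≤ 3 / 2 * exp (-(mass b * r))

def PotGStmt : Prop := ∀ ε δ : ℝ, 0 < ε → 0 < δ → ∃ C : ℝ, ∀ x z : ℤ × ℤ, 1 ≤ nrm (z - x) →
  ∃ a : ℤ × ℤ → ℝ, 2 * log (nrm (z - x)) - C ≤ a x - a z ∧
    (∀ p, Nb p → |a p.1 - a p.2| ≤ δ) ∧ En a ((1 + ε) * (4 * π) * log (nrm (z - x)) + C)

def SumStmt : Prop := ∀ (η K m : ℝ) (x : ℤ × ℤ) (A : Finset (ℤ × ℤ)) (g : ℤ × ℤ → ℝ),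
  0 ≤ η → η ≤ 1 → 0 ≤ K → 0 < m → (∀ z ∈ A, g z ≤ 1) →
  (∀ z ∈ A, 1 ≤ nrm (z - x) → g z ≤ K * (nrm (z - x) : ℝ) ^ (-η) * exp (-(m * nrm (z - x)))) →
  ∑ z ∈ A, g z ≤ 1 + 64 * K * m ^ (-(2 - η))

end

lemma weight_eq (R : ℕ) (b : ℝ) : weight R b = W (edges R) fun _ => b := by
  funext θ
  simp only [weight, W, Finset.mul_sum]

lemma T_eq (b : ℝ) (R : ℕ) {x y : ℤ × ℤ} (hx : x ∈ box R) (hy : y ∈ box R) :
    T b R x y = tp (edges R) (fun _ => b) ⟨x, hx⟩ ⟨y, hy⟩ := by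
  simp only [T, tp, ex, expect, I, weight_eq, ang, dif_pos hx, dif_pos hy]

lemma corr_eq (b : ℝ) (r R : ℕ) : corr b r R = T b R (0, 0) ((r : ℤ), 0) := rfl

lemma tp_symm {V : Type} [Fintype V] (E : Finset (V × V)) (J : V × V → ℝ) (x y : V) :
    tp E J x y = tp E J y x := by
  unfold tp
  congr 1
  funext θ
  rw [← cos_neg, neg_sub]

lemma T_symm (b : ℝ) (R : ℕ) (x y : ℤ × ℤ) : T b R x y = T b R y x := by
  unfold T
  congr 1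
  funext θ
  rw [← cos_neg, neg_sub]

lemma tp_le_one {V : Type} [Fintype V] (E : Finset (V × V)) (J : V × V → ℝ) (x y : V) :
    tp E J x y ≤ 1 := by
  unfold tp ex
  rw [div_le_one (I_W_pos E J)]
  refine setIntegral_mono (intOn_cube ?_) (intOn_cube (W_cont E J)) fun θ => ?_
  · have := W_cont E J
    fun_prop
  · exact mul_le_of_le_one_left (W_pos E J θ).le (cos_le_one _)

lemma tp_self {V : Type} [Fintype V] (E : Finset (V × V)) (J : V × V → ℝ) (x : V) :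
    tp E J x x = 1 := by
  unfold tp ex
  simp only [sub_self, cos_zero, one_mul]
  exact div_self (I_W_pos E J).ne'

lemma mem_box {R : ℕ} {x : ℤ × ℤ} : x ∈ box R ↔ nrm x ≤ R := by
  simp only [box, nrm, Finset.mem_product, Finset.mem_Icc, max_le_iff]
  omega

lemma mem_edges {R : ℕ} {p : box R × box R} :
    p ∈ edges R ↔ Nb ((p.1 : ℤ × ℤ), (p.2 : ℤ × ℤ)) := by
  simp only [edges, Nb, Finset.mem_filter, Finset.mem_univ, true_and]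

end Vale.Agent.P159
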