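import Vale.Agent.P159.Main
import Vale.Agent.P159.Stm2

/-! The power law bound for two arbitrary sites. -/

open MeasureTheory Real Filter Topology

namespace Vale.Agent.P159

theorem mainG_of (hB : BogStmt) (hM : MSStmt) (hJ : JenStmt) (hR : ResStmt) (hP : PotGStmt)
    (b η : ℝ) (hb : 0 < b) (hη : η < (1 + √(1 + 16 * b ^ 2)) / (8 * π * b ^ 2)) :
    ∃ C : ℝ, 0 < C ∧ ∀ R : ℕ, ∀ x ∈ box R, ∀ z ∈ box R, 1 ≤ nrm (z - x) →
      T b R x z ≤ C * (nrm (z - x) : ℝ) ^ (-η) := by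
  obtain ⟨U, κ, hU, hκ, h1, h2⟩ := params hb hη
  set l := 1 / (2 * π * b * U * κ ^ 2) with hl
  have hκ0 : 0 < κ := by linarith
  have hl0 : 0 < l := by positivity
  have hlog : 0 < log κ := log_pos hκ
  obtain ⟨C, hC⟩ := hP (κ - 1) (√(2 * log κ) / l) (by linarith) (by positivity)
  refine ⟨exp (l * C + U * (b * κ * l ^ 2 / 2 * C)), exp_pos _, fun R x hx z hz hr => ?_⟩
  obtain ⟨a, ha1, ha2, ha3⟩ := hC x z hr
  set r := nrm (z - x) with hrdef
  have hcorr : T b R x z = I (fun θ => cos (θ ⟨_, hx⟩ - θ ⟨_, hz⟩) * W (edges R) (fun _ => b) θ) /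
      I (W (edges R) fun _ => b) := T_eq b R hx hz
  have hZ := I_W_pos (edges R) fun _ => b
  have hgr : ∀ p ∈ edges R, (l * a p.1 - l * a p.2) ^ 2 ≤ 2 * log κ := by
    intro p hp
    have h3 := ha2 _ (nb_of_mem hp)
    rw [le_div_iff₀ hl0] at h3
    have h4 : |l * a p.1 - l * a p.2| ≤ √(2 * log κ) := by
      rw [← mul_sub, abs_mul, abs_of_pos hl0, mul_comm]
      exact h3
    calc (l * a p.1 - l * a p.2) ^ 2 = |l * a p.1 - l * a p.2| ^ 2 := (sq_abs _).symm
      _ ≤ √(2 * log κ) ^ 2 := by gcongr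
      _ = 2 * log κ := sq_sqrt (by positivity)
  have hms := hM (box R) (edges R) (fun _ => b) (fun x => l * a x) ⟨_, hx⟩ ⟨_, hz⟩
  have hen := energy_bd hB hR (B := b * κ) (U := U) (c := 2 * κ) (by positivity) hU (by linarith)
    h1 R (fun p => b * cosh (l * a p.1 - l * a p.2)) (fun p hp =>
      ⟨by positivity, mul_le_mul_of_nonneg_left (cosh_bd hκ (hgr p hp)).1 hb.le⟩)
  have hj := hJ (box R) (edges R) (fun _ => b) (fun p => b * cosh (l * a p.1 - l * a p.2)) U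
    (fun p _ => le_mul_of_one_le_right hb.le (one_le_cosh _)) hen
  have hsum : ∑ p ∈ edges R, (b * cosh (l * a p.1 - l * a p.2) - b) ≤
      b * κ * l ^ 2 / 2 * (κ * (4 * π) * log r + C) := by
    have h5 := en_box ha3 R
    rw [show 1 + (κ - 1) = κ by ring] at h5
    calc ∑ p ∈ edges R, (b * cosh (l * a p.1 - l * a p.2) - b)
        ≤ ∑ p ∈ edges R, b * κ * l ^ 2 / 2 * (a p.1 - a p.2) ^ 2 := by
          refine Finset.sum_le_sum fun p hp => ?_
          have h6 := mul_le_mul_of_nonneg_left (cosh_bd hκ (hgr p hp)).2 hb.le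
          nlinarith
      _ = b * κ * l ^ 2 / 2 * ∑ p ∈ edges R, (a p.1 - a p.2) ^ 2 := by rw [Finset.mul_sum]
      _ ≤ _ := by gcongr
  have hr0 : (0 : ℝ) < r := by exact_mod_cast hr
  have hr1 : (1 : ℝ) ≤ r := by exact_mod_cast hr
  have hlr : 0 ≤ log (r : ℝ) := log_nonneg hr1
  rw [hcorr, div_le_iff₀ hZ]
  refine hms.trans ?_
  refine (mul_le_mul_of_nonneg_left hj (exp_pos _).le).trans ?_
  rw [← mul_assoc]
  refine mul_le_mul_of_nonneg_right ?_ hZ.le
  rw [rpow_def_of_pos hr0, ← exp_add, ← exp_add, exp_le_exp]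
  have hll : l * (2 * π * b * U * κ ^ 2) = 1 := by
    rw [hl]
    field_simp
  have h7 := mul_le_mul_of_nonneg_left hsum hU.le
  have h8 := mul_le_mul_of_nonneg_left ha1 hl0.le
  have h9 : U * (b * κ * l ^ 2 / 2 * (κ * (4 * π) * log r + C)) =
      l * log r + U * (b * κ * l ^ 2 / 2 * C) := by
    have : U * (b * κ * l ^ 2 / 2 * (κ * (4 * π) * log r)) =
        l * (2 * π * b * U * κ ^ 2) * (l * log r) := by ring
    rw [hll] at this
    linarith
  have h10 : η * log r ≤ l * log r := mul_le_mul_of_nonneg_right h2.le hlr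
  simp only at h7 h8 ⊢
  nlinarith

end Vale.Agent.P159
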