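import Vale.Agent.P159.Stm2

/-! Monotonicity of the two point function in the couplings. -/

open MeasureTheory Real Filter Topology

namespace Vale.Agent.P159

namespace MonoAux

theorem gen {V : Type} {c : ℝ} (hc : 0 ≤ c) {φ : (V → ℝ) → ℝ} (hφ : Continuous φ) :
    (fun ω : V ⊕ V → ℝ => c * (φ (fun y => ω (Sum.inl y)) * φ (fun y => ω (Sum.inr y)))) ∈
      PC V := by
  refine AddSubmonoid.subset_closure ⟨fun θ => √c * φ θ, continuous_const.mul hφ, ?_⟩
  funext ω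
  rw [mul_mul_mul_comm, mul_self_sqrt hc]

theorem per_cos {V : Type} (E : Finset (V × V)) (J : V × V → ℝ) (x y : V) :
    Per fun θ : V → ℝ => cos (θ x - θ y) * W E J θ := by
  intro θ k
  have h := W_per E J θ k
  simp only [h, per_diff, cos_add_int_mul_two_pi]

end MonoAux

open MonoAux in
theorem mono_pf (h0 : ConeStmt) (h1 : PCStmt) (h2 : DupStmt) : MonoStmt := by
  intro V _ E J J' x y hJ
  have c1 := W_cont E J
  have c2 := W_cont E J'
  have d1 := h2 V (fun θ => cos (θ x - θ y) * W E J' θ) (W E J) (by fun_prop) c1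
    (per_cos E J' x y) (W_per E J)
  have d2 := h2 V (W E J') (fun θ => cos (θ x - θ y) * W E J θ) c2 (by fun_prop)
    (W_per E J') (per_cos E J x y)
  have hQ : (∑ p ∈ E, ((fun ω : V ⊕ V → ℝ => (J p + J' p) *
      (cos (ω (Sum.inl p.1) - ω (Sum.inl p.2)) * cos (ω (Sum.inr p.1) - ω (Sum.inr p.2)))) +
      fun ω : V ⊕ V → ℝ => (J' p - J p) *
      (sin (ω (Sum.inl p.1) - ω (Sum.inl p.2)) * sin (ω (Sum.inr p.1) - ω (Sum.inr p.2))))) ∈
      PC V :=
    sum_mem fun p hp => add_mem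
      (gen (by linarith [(hJ p hp).1, (hJ p hp).2]) (φ := fun θ => cos (θ p.1 - θ p.2))
        (by fun_prop))
      (gen (by linarith [(hJ p hp).2]) (φ := fun θ => sin (θ p.1 - θ p.2)) (by fun_prop))
  have key := h0 (V ⊕ V) (PC V) (h1 V).1 (h1 V).2 _
    (gen (c := 2) (by norm_num) (φ := fun θ => sin (θ x - θ y)) (by fun_prop)) _ hQ
  unfold tp ex
  rw [div_le_div_iff₀ (I_W_pos E J) (I_W_pos E J'), mul_comm, d1, d2, ← sub_nonneg]
  unfold I at key ⊢
  rw [← integral_sub (intOn_cube (by fun_prop)) (intOn_cube (by fun_prop))]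
  refine key.trans_eq (congrArg _ (funext fun ω => ?_))
  have e : ∀ a b : V, ω (Sum.inl a) - ω (Sum.inr a) - (ω (Sum.inl b) - ω (Sum.inr b)) =
      ω (Sum.inl a) - ω (Sum.inl b) - (ω (Sum.inr a) - ω (Sum.inr b)) ∧
      ω (Sum.inl a) + ω (Sum.inr a) - (ω (Sum.inl b) + ω (Sum.inr b)) =
      ω (Sum.inl a) - ω (Sum.inl b) + (ω (Sum.inr a) - ω (Sum.inr b)) :=
    fun a b => ⟨by ring, by ring⟩
  have w : exp ((∑ p ∈ E, ((fun ω : V ⊕ V → ℝ => (J p + J' p) *
      (cos (ω (Sum.inl p.1) - ω (Sum.inl p.2)) * cos (ω (Sum.inr p.1) - ω (Sum.inr p.2)))) +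
      fun ω : V ⊕ V → ℝ => (J' p - J p) *
      (sin (ω (Sum.inl p.1) - ω (Sum.inl p.2)) * sin (ω (Sum.inr p.1) - ω (Sum.inr p.2))))) ω) =
      W E J' (fun y => ω (Sum.inl y) - ω (Sum.inr y)) *
        W E J (fun y => ω (Sum.inl y) + ω (Sum.inr y)) := by
    rw [W, W, ← exp_add, ← Finset.sum_add_distrib, Finset.sum_apply]
    refine congrArg _ (Finset.sum_congr rfl fun p _ => ?_)
    rw [(e p.1 p.2).1, (e p.1 p.2).2, cos_add, cos_sub (ω (Sum.inl p.1) - ω (Sum.inl p.2)),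
      Pi.add_apply]
    ring
  beta_reduce
  rw [w, (e x y).1, (e x y).2, cos_add, cos_sub (ω (Sum.inl x) - ω (Sum.inl y))]
  ring

end Vale.Agent.P159
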