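import Vale.Agent.P159.Stm2
import Vale.Agent.P159.Shift

/-! Charge neutrality. -/

open MeasureTheory Real Filter Topology

namespace Vale.Agent.P159

namespace NeuA

variable {V : Type} [Fintype V] (E : Finset (V × V)) (J : V × V → ℝ)

theorem ex_add {F G : (V → ℝ) → ℝ} (hF : Continuous F) (hG : Continuous G) :
    ex E J (fun θ => F θ + G θ) = ex E J F + ex E J G := by
  unfold ex I
  simp only [add_mul]
  have hW := W_cont E J
  rw [← add_div, integral_add (intOn_cube (by fun_prop)) (intOn_cube (by fun_prop))]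

theorem ex_mul (c : ℝ) (F : (V → ℝ) → ℝ) : ex E J (fun θ => c * F θ) = c * ex E J F := by
  unfold ex I
  simp only [mul_assoc]
  rw [integral_const_mul, mul_div_assoc]

theorem ex_zero {F : (V → ℝ) → ℝ} (hF : Continuous F) (hP : Per F) (t : ℝ)
    (h : ∀ θ, F (fun y => θ y + t) = -F θ) : ex E J F = 0 := by
  have hW := W_cont E J
  have k := shift_pf V (fun θ => ((F θ * W E J θ : ℝ) : ℂ)) (by fun_prop)
    (fun θ n => by simp only [hP θ n, W_per E J θ n]) fun _ => t
  have e : ∀ θ : V → ℝ, F (θ + fun _ => t) * W E J (θ + fun _ => t) = -(F θ * W E J θ) :=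
    fun θ => by
      rw [← neg_mul, ← h θ]
      simp only [W, Pi.add_apply, add_sub_add_right_eq_sub]
      rfl
  simp only [e] at k
  rw [integral_complex_ofReal, integral_complex_ofReal, Complex.ofReal_inj, integral_neg] at k
  unfold ex I
  rw [show ∫ θ in cube V, F θ * W E J θ = 0 by linarith, zero_div]

omit [Fintype V] in
theorem per_sum (θ : V → ℝ) (k : V → ℤ) (x y : V) :
    cos (θ x + (k x : ℝ) * (2 * π) + (θ y + (k y : ℝ) * (2 * π))) = cos (θ x + θ y) := by
  rw [← cos_add_int_mul_two_pi (θ x + θ y) (k x + k y)]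
  congr 1
  push_cast
  ring

theorem half (x y : ℝ) : cos (x + π / 2 + (y + π / 2)) = -cos (x + y) := by
  rw [← cos_add_pi]
  congr 1
  ring

theorem z2 (a b : V) : ex E J (fun θ => cos (θ a + θ b)) = 0 :=
  ex_zero E J (by fun_prop) (fun θ k => per_sum θ k a b) (π / 2) fun _ => half _ _

theorem z3 (a b c d : V) : ex E J (fun θ => cos (θ a - θ b) * cos (θ c + θ d)) = 0 := by
  refine ex_zero E J (by fun_prop) (fun θ k => ?_) (π / 2) fun θ => ?_
  · simp only [per_diff, cos_add_int_mul_two_pi, per_sum]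
  · simp only [half, add_sub_add_right_eq_sub, mul_neg]

theorem z4 (a b c d : V) : ex E J (fun θ => cos (θ a + θ b + θ c + θ d)) = 0 := by
  refine ex_zero E J (by fun_prop) (fun θ k => ?_) (π / 4) fun θ => ?_
  · rw [← cos_add_int_mul_two_pi (θ a + θ b + θ c + θ d) (k a + k b + k c + k d)]
    congr 1
    push_cast
    ring
  · rw [← cos_add_pi]
    congr 1
    ring

end NeuA

open NeuA in
theorem neu_pf : NeuStmt := by
  intro V _ E J a b c d
  refine ⟨?_, ?_, ?_, ?_⟩
  · have e : (fun θ : V → ℝ => cos (θ a) * cos (θ b)) =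
        fun θ => 1 / 2 * cos (θ a - θ b) + 1 / 2 * cos (θ a + θ b) := by
      funext θ
      rw [cos_add, cos_sub]
      ring
    rw [e, ex_add E J (by fun_prop) (by fun_prop), ex_mul, ex_mul, z2, tp]
    ring
  · have e : (fun θ : V → ℝ => sin (θ a) * sin (θ b)) =
        fun θ => 1 / 2 * cos (θ a - θ b) + -1 / 2 * cos (θ a + θ b) := by
      funext θ
      rw [cos_add, cos_sub]
      ring
    rw [e, ex_add E J (by fun_prop) (by fun_prop), ex_mul, ex_mul, z2, tp]
    ring
  · have e : (fun θ : V → ℝ => cos (θ a) * cos (θ b) * (sin (θ c) * sin (θ d))) =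
        fun θ => 1 / 4 * (cos (θ a - θ b) * cos (θ c - θ d)) +
          (-1 / 4 * (cos (θ a - θ b) * cos (θ c + θ d)) +
          (1 / 4 * (cos (θ c - θ d) * cos (θ a + θ b)) +
          (-1 / 8 * cos (θ a + θ b + θ c + θ d) + -1 / 8 * cos (θ a + θ b - θ c - θ d)))) := by
      funext θ
      simp only [cos_add, cos_sub, sin_add, sin_sub]
      ring
    rw [e, ex_add E J (by fun_prop) (by fun_prop), ex_add E J (by fun_prop) (by fun_prop),
      ex_add E J (by fun_prop) (by fun_prop), ex_add E J (by fun_prop) (by fun_prop),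
      ex_mul, ex_mul, ex_mul, ex_mul, ex_mul, z3, z3, z4, ee, q4]
    ring
  · have e : (fun θ : V → ℝ => cos (θ a - θ b) * cos (θ c - θ d)) =
        fun θ => 1 / 2 * cos (θ a + θ c - θ b - θ d) + 1 / 2 * cos (θ a + θ d - θ b - θ c) := by
      funext θ
      simp only [cos_add, cos_sub, sin_add, sin_sub]
      ring
    rw [ee, e, ex_add E J (by fun_prop) (by fun_prop), ex_mul, ex_mul, q4, q4]
    ring

end Vale.Agent.P159
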