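import Vale.Agent.P159.Stm2
import Vale.Agent.P159.Shift

/-! Positivity of the nearest neighbour correlation. -/

open MeasureTheory Real Filter Topology

namespace Vale.Agent.P159

lemma pos_shift {V : Type} [Fintype V] [DecidableEq V] {x y : V} (hxy : x ≠ y) (f : ℝ → ℝ)
    (hf : Continuous f) (hp : ∀ (t : ℝ) (k : ℤ), f (t + k * (2 * π)) = f t) (s : ℝ) :
    I (fun θ : V → ℝ => f (θ x - θ y + s)) = I fun θ : V → ℝ => f (θ x - θ y) := by
  have h := shift_pf V (fun θ => ((f (θ x - θ y) : ℝ) : ℂ)) (by fun_prop)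
    (fun θ k => by simp only [per_diff, hp]) (Pi.single x s)
  simp only [integral_complex_ofReal, Complex.ofReal_inj] at h
  unfold I
  rw [← h]
  refine integral_congr_ae (Eventually.of_forall fun θ => ?_)
  simp only [Pi.add_apply, Pi.single_eq_same, Pi.single_eq_of_ne hxy.symm]
  congr 1
  ring

lemma pos_ineq (b t : ℝ) (hb : 0 ≤ b) : b * t ^ 2 ≤ t * exp (b * t) + -t * exp (b * -t) := by
  have h1 := add_one_le_exp (b * t)
  have h2 := add_one_le_exp (b * -t)
  rcases le_total 0 t with h | h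
  · have h3 : exp (b * -t) ≤ 1 := exp_le_one_iff.2 (by nlinarith)
    nlinarith
  · have h3 : exp (b * t) ≤ 1 := exp_le_one_iff.2 (by nlinarith)
    nlinarith

lemma pos_core {V : Type} [Fintype V] [DecidableEq V] {x y : V} (hxy : x ≠ y) (b : ℝ)
    (hb : 0 < b) : 0 < I fun θ : V → ℝ => cos (θ x - θ y) * exp (b * cos (θ x - θ y)) := by
  have h1 := pos_shift hxy (fun t => cos t * exp (b * cos t)) (by fun_prop)
    (fun t k => by simp only [cos_add_int_mul_two_pi]) π
  have h2 := pos_shift hxy (fun t => b * cos t ^ 2) (by fun_prop)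
    (fun t k => by simp only [cos_add_int_mul_two_pi]) (π / 2)
  simp only [cos_add_pi] at h1
  simp only [cos_add_pi_div_two, neg_sq] at h2
  have h3 : I (fun θ : V → ℝ => b * cos (θ x - θ y) ^ 2) ≤
      I (fun θ : V → ℝ => cos (θ x - θ y) * exp (b * cos (θ x - θ y))) +
      I fun θ : V → ℝ => -cos (θ x - θ y) * exp (b * -cos (θ x - θ y)) := by
    unfold I
    rw [← integral_add (intOn_cube (by fun_prop)) (intOn_cube (by fun_prop))]
    exact setIntegral_mono (intOn_cube (by fun_prop)) (intOn_cube (by fun_prop))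
      fun θ => pos_ineq b _ hb.le
  have h4 : I (fun θ : V → ℝ => b * sin (θ x - θ y) ^ 2) +
      I (fun θ : V → ℝ => b * cos (θ x - θ y) ^ 2) = b * I (W (∅ : Finset (V × V)) fun _ => 0) := by
    unfold I
    rw [← integral_add (intOn_cube (by fun_prop)) (intOn_cube (by fun_prop)), ← integral_const_mul]
    refine integral_congr_ae (Eventually.of_forall fun θ => ?_)
    simp only [W, Finset.sum_empty, exp_zero]
    rw [← mul_add, sin_sq_add_cos_sq]
  have h5 := mul_pos hb (I_W_pos (∅ : Finset (V × V)) fun _ => 0)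
  linarith

theorem pos_pf (h : MonoStmt) : PosStmt := by
  intro b hb
  classical
  have hx : ((0, 0) : ℤ × ℤ) ∈ box 1 := by decide
  have hy : ((((1 : ℕ) : ℤ), 0) : ℤ × ℤ) ∈ box 1 := by decide
  rw [corr_eq, T_eq b 1 hx hy]
  obtain ⟨x, ex⟩ : ∃ x : box 1, x = ⟨_, hx⟩ := ⟨_, rfl⟩
  obtain ⟨y, ey⟩ : ∃ y : box 1, y = ⟨_, hy⟩ := ⟨_, rfl⟩
  have hxy : x ≠ y := by
    rw [ex, ey]
    intro e
    simpa using congrArg Subtype.val e
  have he : (x, y) ∈ edges 1 := by
    rw [mem_edges, ex, ey]
    exact Or.inl (by simp)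
  rw [← ex, ← ey]
  refine lt_of_lt_of_le ?_ (h _ (edges 1) (fun p => if p = (x, y) then b else 0) (fun _ => b) x y
    fun p _ => by split_ifs <;> simp [hb.le])
  unfold tp P159.ex
  refine div_pos ?_ (I_W_pos _ _)
  have e : ∀ θ : box 1 → ℝ, W (edges 1) (fun p => if p = (x, y) then b else 0) θ =
      exp (b * cos (θ x - θ y)) := fun θ => by
    unfold W
    rw [Finset.sum_eq_single (x, y) (fun p _ hp => by simp only [if_neg hp, zero_mul])
      fun hn => absurd he hn]
    simp only [if_true]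
  simp only [e]
  exact pos_core hxy b hb

end Vale.Agent.P159
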