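import Vale.Agent.P159.Stm

/-! The dipole potential from the monopole potential. -/

open MeasureTheory Real

namespace Vale.Agent.P159

lemma pot_zero {ψ : ℤ × ℤ → ℝ} {n : ℕ}
    (h : ∀ y : ℤ × ℤ, (n : ℤ) ^ 2 ≤ y.1 ^ 2 + y.2 ^ 2 → ψ y = 0) (y : ℤ × ℤ)
    (hy : (n : ℤ) ≤ y.1 ∨ y.1 ≤ -(n : ℤ)) : ψ y = 0 := by
  refine h y ?_
  have hn : (0 : ℤ) ≤ n := Int.natCast_nonneg n
  rcases hy with hy | hy <;> nlinarith [sq_nonneg y.2]

lemma pot_shift {ψ : ℤ × ℤ → ℝ} {c : ℝ} (h : En ψ c) (v : ℤ × ℤ) : En (fun y => ψ (y - v)) c := by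
  classical
  intro A hA
  have hinj : Function.Injective fun p : (ℤ × ℤ) × (ℤ × ℤ) => (p.1 - v, p.2 - v) := by
    intro p q e
    simp only [Prod.mk.injEq, sub_left_inj] at e
    exact Prod.ext e.1 e.2
  have := h (A.image fun p => (p.1 - v, p.2 - v)) (by
    intro q hq
    obtain ⟨p, hp, rfl⟩ := Finset.mem_image.1 hq
    rcases hA p hp with e | e
    · left; show p.2 - v = p.1 - v + (1, 0); rw [e]; abel
    · right; show p.2 - v = p.1 - v + (0, 1); rw [e]; abel)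
  rwa [Finset.sum_image fun p _ q _ e => hinj e] at this

theorem pot_pf (h : Pot1Stmt) : PotStmt := by
  intro ε δ hε hδ
  obtain ⟨C, hC⟩ := h ε δ hε hδ
  have l3 : 0 ≤ log 3 := log_nonneg (by norm_num)
  have hCa := le_abs_self C
  have hC0 := abs_nonneg C
  refine ⟨2 * |C| + 2 * log 3, fun r hr => ?_⟩
  by_cases h1 : r = 1
  · subst h1
    refine ⟨fun _ => 0, ?_, fun p _ => by simpa using hδ.le, fun A _ => ?_⟩
    · simp only [Nat.cast_one, log_one]; linarith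
    · simp only [Nat.cast_one, log_one, sub_self, ne_eq, OfNat.ofNat_ne_zero, not_false_eq_true,
        zero_pow, Finset.sum_const_zero]
      linarith
  obtain ⟨ψ, p0, p1, p2, p3⟩ := hC (r / 2) (by omega)
  set n := r / 2 with hn
  have hn1 : (1 : ℝ) ≤ n := by exact_mod_cast (show 1 ≤ n by omega)
  have hnr : (n : ℝ) ≤ r := by exact_mod_cast (show n ≤ r by omega)
  have hr3 : (r : ℝ) ≤ 3 * n := by exact_mod_cast (show r ≤ 3 * n by omega)
  have hr0 : (0 : ℝ) < r := by linarith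
  have g1 : log n ≤ log r := log_le_log (by linarith) hnr
  have g2 : log r ≤ log 3 + log n := by
    rw [← log_mul (by norm_num) (by linarith)]
    exact log_le_log hr0 hr3
  have h2 : 2 * (n : ℤ) ≤ r := by exact_mod_cast (show 2 * n ≤ r by omega)
  have key : ∀ p, Nb p → ψ p.1 - ψ p.2 = 0 ∨
      ψ (p.1 - ((r : ℤ), 0)) - ψ (p.2 - ((r : ℤ), 0)) = 0 := by
    intro p hp
    have hp' : p.1.1 ≤ p.2.1 ∧ p.2.1 ≤ p.1.1 + 1 := by
      rcases hp with e | e <;> rw [e] <;> simp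
    by_cases hc : (n : ℤ) ≤ p.1.1
    · left
      rw [pot_zero p1 _ (Or.inl hc), pot_zero p1 _ (Or.inl (by omega)), sub_self]
    · right
      rw [pot_zero p1 _ (Or.inr (by simp only [Prod.fst_sub]; omega)),
        pot_zero p1 _ (Or.inr (by simp only [Prod.fst_sub]; omega)), sub_self]
  refine ⟨fun y => ψ y - ψ (y - ((r : ℤ), 0)), ?_, fun p hp => ?_, fun A hA => ?_⟩
  · have z1 : ψ ((0, 0) - ((r : ℤ), 0)) = 0 :=
      pot_zero p1 _ (Or.inr (by simp only [Prod.fst_sub]; omega))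
    have z2 : ψ ((r : ℤ), 0) = 0 := pot_zero p1 _ (Or.inl (by simp only; omega))
    have z3 : (((r : ℤ), (0 : ℤ)) : ℤ × ℤ) - ((r : ℤ), 0) = (0, 0) := sub_self _
    simp only [z1, z2, z3]
    linarith
  · have e : ψ p.1 - ψ (p.1 - ((r : ℤ), 0)) - (ψ p.2 - ψ (p.2 - ((r : ℤ), 0))) =
        (ψ p.1 - ψ p.2) - (ψ (p.1 - ((r : ℤ), 0)) - ψ (p.2 - ((r : ℤ), 0))) := by ring
    rw [e]
    rcases key p hp with z | z
    · rw [z, zero_sub, abs_neg]
      refine p2 (p.1 - ((r : ℤ), 0), p.2 - ((r : ℤ), 0)) ?_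
      rcases hp with e | e
      · left; show p.2 - _ = p.1 - _ + (1, 0); rw [e]; abel
      · right; show p.2 - _ = p.1 - _ + (0, 1); rw [e]; abel
    · rw [z, sub_zero]; exact p2 p hp
  · have e : ∀ p ∈ A, (ψ p.1 - ψ (p.1 - ((r : ℤ), 0)) - (ψ p.2 - ψ (p.2 - ((r : ℤ), 0)))) ^ 2 =
        (ψ p.1 - ψ p.2) ^ 2 + (ψ (p.1 - ((r : ℤ), 0)) - ψ (p.2 - ((r : ℤ), 0))) ^ 2 := by
      intro p hp
      rcases key p (hA p hp) with z | z
      · linear_combination (-2 * (ψ (p.1 - ((r : ℤ), 0)) - ψ (p.2 - ((r : ℤ), 0)))) * z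
      · linear_combination (-2 * (ψ p.1 - ψ p.2)) * z
    rw [Finset.sum_congr rfl e, Finset.sum_add_distrib]
    have a1 := p3 A hA
    have a2 := pot_shift p3 ((r : ℤ), 0) A hA
    have a3 : (1 + ε) * (2 * π) * log n ≤ (1 + ε) * (2 * π) * log r :=
      mul_le_mul_of_nonneg_left g1 (by positivity)
    linarith

end Vale.Agent.P159
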