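import Vale.Agent.P159.Stm

/-! The truncated logarithmic potential. -/

open MeasureTheory Real

namespace Vale.Agent.P159

lemma pot1_log {a b m : ℝ} (hm : 0 < m) (ha : m ≤ a) (hb : m ≤ b) :
    |log a - log b| ≤ |a - b| / m := by
  have key : ∀ {a b : ℝ}, m ≤ a → m ≤ b → log a - log b ≤ |a - b| / m := fun {a b} ha hb => by
    have ha' := hm.trans_le ha
    have hb' := hm.trans_le hb
    rw [← log_div ha'.ne' hb'.ne']
    refine (log_le_sub_one_of_pos (div_pos ha' hb')).trans ?_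
    rw [div_sub_one hb'.ne']
    exact (div_le_div_of_nonneg_right (le_abs_self _) hb'.le).trans
      (div_le_div_of_nonneg_left (abs_nonneg _) hm hb)
  refine abs_le.2 ⟨?_, key ha hb⟩
  have := key hb ha
  rw [abs_sub_comm] at this
  linarith

lemma pot1_edge {η K N s a : ℝ} (h0 : 0 < η) (h1 : η ≤ 1 / 8) (hK : 1 / η + 1 ≤ η * K / 2)
    (hs : a ^ 2 ≤ s) :
    log (min (max s (2 * K + 2)) N) - log (min (max (s + (2 * a + 1)) (2 * K + 2)) N) = 0 ∨
    (K ≤ s ∧ s ≤ 2 * N ∧ |2 * a + 1| ≤ 2 * η * s ∧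
      |log (min (max s (2 * K + 2)) N) - log (min (max (s + (2 * a + 1)) (2 * K + 2)) N)| ≤
        |2 * a + 1| / ((1 - 2 * η) * s)) := by
  by_cases e : min (max s (2 * K + 2)) N = min (max (s + (2 * a + 1)) (2 * K + 2)) N
  · exact Or.inl (by rw [e, sub_self])
  right
  have hη : 0 < 1 / η := by positivity
  have hK0 : 0 < K := by nlinarith
  have k1 : K ≤ s := by
    by_contra k
    apply e
    rw [max_eq_right (by linarith), max_eq_right (by nlinarith [sq_nonneg (a - 1)])]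
  have k2 : |2 * a + 1| ≤ 2 * η * s := by
    have e1 : η * (1 / η) = 1 := by field_simp
    have p1 := mul_le_mul_of_nonneg_left k1 h0.le
    have p2 := mul_le_mul_of_nonneg_left hs h0.le
    have p3 := mul_nonneg hη.le (sq_nonneg (η * a - 1))
    have p4 := mul_nonneg hη.le (sq_nonneg (η * a + 1))
    have q3 : 1 / η * (η * a - 1) ^ 2 = η * a ^ 2 - 2 * a + 1 / η := by field_simp; ring
    have q4 : 1 / η * (η * a + 1) ^ 2 = η * a ^ 2 + 2 * a + 1 / η := by field_simp; ring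
    rw [abs_le]
    constructor <;> nlinarith
  have k2' := abs_le.1 k2
  have hs0 : 0 < s := hK0.trans_le k1
  have k3 : (1 - 2 * η) * s ≤ N := by
    by_contra k
    apply e
    rw [min_eq_right (le_max_of_le_left (by nlinarith)),
      min_eq_right (le_max_of_le_left (by nlinarith))]
  refine ⟨k1, by nlinarith, k2, (pot1_log (m := (1 - 2 * η) * s) (by nlinarith)
    (le_min (le_max_of_le_left (by nlinarith)) k3)
    (le_min (le_max_of_le_left (by nlinarith)) k3)).trans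
    (div_le_div_of_nonneg_right ?_ (by nlinarith))⟩
  refine (abs_min_sub_min_le_max _ _ _ _).trans ?_
  rw [sub_self, abs_zero, max_eq_left (abs_nonneg _)]
  refine (abs_max_sub_max_le_abs _ _ _).trans ?_
  rw [sub_add_cancel_left, abs_neg]

lemma pot1_sum (G : (ℤ × ℤ) × (ℤ × ℤ) → ℝ) (hG : ∀ p, 0 ≤ G p) (A : Finset ((ℤ × ℤ) × (ℤ × ℤ)))
    (hA : ∀ p ∈ A, Nb p) :
    ∑ p ∈ A, G p ≤ ∑ y ∈ A.image Prod.fst, (G (y, y + (1, 0)) + G (y, y + (0, 1))) := by
  rw [Finset.sum_add_distrib,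
    ← Finset.sum_image (g := fun y : ℤ × ℤ => (y, y + (1, 0))) fun _ _ _ _ h => congrArg Prod.fst h,
    ← Finset.sum_image (g := fun y : ℤ × ℤ => (y, y + (0, 1))) fun _ _ _ _ h => congrArg Prod.fst h,
    ← Finset.sum_union_inter]
  refine le_add_of_le_of_nonneg (Finset.sum_le_sum_of_subset_of_nonneg (fun p hp => ?_)
    fun p _ _ => hG p) (Finset.sum_nonneg fun p _ => hG p)
  rw [Finset.mem_union, Finset.mem_image, Finset.mem_image]
  exact (hA p hp).imp (fun h => ⟨p.1, Finset.mem_image_of_mem _ hp, by rw [← h]⟩)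
    fun h => ⟨p.1, Finset.mem_image_of_mem _ hp, by rw [← h]⟩

theorem pot1_pf (h : GaussStmt) : Pot1Stmt := by
  classical
  obtain ⟨C, hC⟩ := h
  intro ε δ hε hδ
  obtain ⟨η, h0, h1, h2, h3⟩ : ∃ η : ℝ, 0 < η ∧ η ≤ 1 / 8 ∧ η ≤ δ / 2 ∧ η ≤ ε / 10 :=
    ⟨min (1 / 8) (min (δ / 2) (ε / 10)), by positivity, min_le_left _ _,
      (min_le_right _ _).trans (min_le_left _ _), (min_le_right _ _).trans (min_le_right _ _)⟩
  obtain ⟨K, hK⟩ : ∃ K : ℝ, 1 / η + 1 = η * K / 2 := ⟨2 * (1 / η + 1) / η, by field_simp⟩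
  have hη : 0 < 1 / η := by positivity
  have hK1 : 1 ≤ K := by nlinarith
  refine ⟨max (log (2 * K + 2) / 2) ((1 + ε) * (π * log 2 + C)), fun n hn => ?_⟩
  have hn' : (1 : ℝ) ≤ n := by exact_mod_cast hn
  let sq : ℤ × ℤ → ℝ := fun y => (y.1 : ℝ) ^ 2 + (y.2 : ℝ) ^ 2
  let ψ : ℤ × ℤ → ℝ := fun y => log n - log (min (max (sq y) (2 * K + 2)) ((n : ℝ) ^ 2)) / 2
  have hE : ∀ (y y' : ℤ × ℤ) (a : ℝ), a ^ 2 ≤ sq y → sq y' = sq y + (2 * a + 1) →
      ψ y - ψ y' = 0 ∨ (K ≤ sq y ∧ sq y ≤ 2 * (n : ℝ) ^ 2 ∧ |ψ y - ψ y'| ≤ δ ∧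
        (ψ y - ψ y') ^ 2 ≤ (2 * a + 1) ^ 2 / 4 / ((1 - 2 * η) * sq y) ^ 2) := by
    intro y y' a ha e
    have k := pot1_edge (N := (n : ℝ) ^ 2) h0 h1 hK.le ha
    rw [← e] at k
    refine k.imp (fun k => by simp only [ψ]; linarith) fun ⟨k1, k2, k3, k4⟩ => ?_
    have hp : 0 < (1 - 2 * η) * sq y := mul_pos (by linarith) (by linarith)
    have k5 : |ψ y - ψ y'| ≤ |2 * a + 1| / 2 / ((1 - 2 * η) * sq y) := by
      rw [abs_le] at k4 ⊢
      rw [div_right_comm]
      simp only [ψ]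
      constructor <;> linarith [k4.1, k4.2]
    refine ⟨k1, k2, k5.trans ?_, ?_⟩
    · rw [div_le_iff₀ hp]
      nlinarith [mul_nonneg (show 0 ≤ δ * (1 - 2 * η) - η by nlinarith)
        (show 0 ≤ sq y by linarith)]
    · have := pow_le_pow_left₀ (abs_nonneg _) k5 2
      rwa [sq_abs, div_pow, div_pow, sq_abs, show (2 : ℝ) ^ 2 = 4 by norm_num] at this
  have hE1 := fun y : ℤ × ℤ => hE y (y + (1, 0)) y.1 (le_add_of_nonneg_right (sq_nonneg _))
    (by simp only [sq, Prod.fst_add, Prod.snd_add]; push_cast; ring)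
  have hE2 := fun y : ℤ × ℤ => hE y (y + (0, 1)) y.2 (le_add_of_nonneg_left (sq_nonneg _))
    (by simp only [sq, Prod.fst_add, Prod.snd_add]; push_cast; ring)
  refine ⟨ψ, ?_, fun y hy => ?_, fun p hp => ?_, fun A hA => ?_⟩
  · have : log (min (max (sq (0, 0)) (2 * K + 2)) ((n : ℝ) ^ 2)) ≤ log (2 * K + 2) :=
      log_le_log (lt_min (lt_max_of_lt_right (by linarith)) (by positivity))
        ((min_le_left _ _).trans (max_le (by simp only [sq]; push_cast; linarith) le_rfl))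
    exact sub_le_sub_left ((div_le_div_of_nonneg_right this zero_le_two).trans (le_max_left _ _)) _
  · have : (n : ℝ) ^ 2 ≤ sq y := by simp only [sq]; exact_mod_cast hy
    simp only [ψ]
    rw [min_eq_right (le_max_of_le_left this), log_pow]
    push_cast
    ring
  · rcases hp with e | e <;> rw [e]
    · exact (hE1 p.1).elim (fun k => by rw [k, abs_zero]; exact hδ.le) fun k => k.2.2.1
    · exact (hE2 p.1).elim (fun k => by rw [k, abs_zero]; exact hδ.le) fun k => k.2.2.1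
  refine (pot1_sum (fun p => (ψ p.1 - ψ p.2) ^ 2) (fun _ => sq_nonneg _) A hA).trans ?_
  have k1 : ∀ y : ℤ × ℤ, (ψ y - ψ (y + (1, 0))) ^ 2 + (ψ y - ψ (y + (0, 1))) ^ 2 ≤
      if K ≤ sq y ∧ sq y ≤ 2 * (n : ℝ) ^ 2 then (1 + ε) * (1 / sq y) else 0 := fun y => by
    split_ifs with g
    · have hs : 0 < sq y := by linarith [g.1]
      have hp : 0 < (1 - 2 * η) * sq y := mul_pos (by linarith) hs
      have a1 : (ψ y - ψ (y + (1, 0))) ^ 2 ≤ (2 * y.1 + 1) ^ 2 / 4 / ((1 - 2 * η) * sq y) ^ 2 :=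
        (hE1 y).elim (fun k => by rw [k, zero_pow two_ne_zero]; positivity) fun k => k.2.2.2
      have a2 : (ψ y - ψ (y + (0, 1))) ^ 2 ≤ (2 * y.2 + 1) ^ 2 / 4 / ((1 - 2 * η) * sq y) ^ 2 :=
        (hE2 y).elim (fun k => by rw [k, zero_pow two_ne_zero]; positivity) fun k => k.2.2.2
      refine (add_le_add a1 a2).trans ?_
      rw [← add_div, div_le_iff₀ (by positivity),
        show (1 + ε) * (1 / sq y) * ((1 - 2 * η) * sq y) ^ 2 =
          (1 + ε) * (1 - 2 * η) ^ 2 * sq y by field_simp]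
      have b1 : 1 + η ≤ (1 + ε) * (1 - 2 * η) ^ 2 := by nlinarith [mul_pos hε (mul_pos h0 h0)]
      have q : ∀ a : ℝ, 2 * a ≤ η * a ^ 2 + 1 / η := fun a => by
        have p3 := mul_nonneg hη.le (sq_nonneg (η * a - 1))
        have q3 : 1 / η * (η * a - 1) ^ 2 = η * a ^ 2 - 2 * a + 1 / η := by field_simp; ring
        linarith
      have b2 := mul_le_mul_of_nonneg_right b1 hs.le
      have b3 := mul_le_mul_of_nonneg_left g.1 h0.le
      have q1 := q y.1
      have q2 := q y.2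
      simp only [sq] at b2 b3 ⊢
      nlinarith
    · rw [(hE1 y).resolve_right fun k => g ⟨k.1, k.2.1⟩,
        (hE2 y).resolve_right fun k => g ⟨k.1, k.2.1⟩]
      simp
  refine (Finset.sum_le_sum fun y _ => k1 y).trans ?_
  rw [← Finset.sum_filter, ← Finset.mul_sum]
  have k2 := hC (2 * n ^ 2) ((A.image Prod.fst).filter fun y => K ≤ sq y ∧ sq y ≤ 2 * (n : ℝ) ^ 2)
    (by nlinarith) fun y hy => by
      obtain ⟨-, g1, g2⟩ := Finset.mem_filter.1 hy
      have g3 := hK1.trans g1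
      simp only [sq] at g2 g3
      exact ⟨by exact_mod_cast g3, by exact_mod_cast g2⟩
  push_cast at k2
  rw [log_mul two_ne_zero (by positivity), log_pow] at k2
  have k3 := mul_le_mul_of_nonneg_left k2 (show 0 ≤ 1 + ε by linarith)
  push_cast at k3
  linarith [le_max_right (log (2 * K + 2) / 2) ((1 + ε) * (π * log 2 + C))]

end Vale.Agent.P159
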