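import Vale.Agent.P159.Stm2
import Vale.Agent.P159.Pot

/-! The dipole potential with general centres. -/

open MeasureTheory Real Filter Topology

namespace Vale.Agent.P159

lemma potG_ge {n : ℕ} {y : ℤ × ℤ} : n ≤ nrm y ↔
    ((n : ℤ) ≤ y.1 ∨ y.1 ≤ -(n : ℤ)) ∨ ((n : ℤ) ≤ y.2 ∨ y.2 ≤ -(n : ℤ)) := by
  unfold nrm
  omega

lemma potG_zero {ψ : ℤ × ℤ → ℝ} {n : ℕ}
    (h : ∀ y : ℤ × ℤ, (n : ℤ) ^ 2 ≤ y.1 ^ 2 + y.2 ^ 2 → ψ y = 0) (y : ℤ × ℤ)
    (hy : n ≤ nrm y) : ψ y = 0 := by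
  refine h y ?_
  have hn : (0 : ℤ) ≤ n := Int.natCast_nonneg n
  rcases potG_ge.1 hy with (hy | hy) | (hy | hy) <;> nlinarith [sq_nonneg y.1, sq_nonneg y.2]

lemma potG_nb {p : (ℤ × ℤ) × (ℤ × ℤ)} (hp : Nb p) (v : ℤ × ℤ) : Nb (p.1 - v, p.2 - v) := by
  rcases hp with e | e
  · left; show p.2 - v = p.1 - v + (1, 0); rw [e]; abel
  · right; show p.2 - v = p.1 - v + (0, 1); rw [e]; abel

lemma potG_far {p : (ℤ × ℤ) × (ℤ × ℤ)} (hp : Nb p) {x z : ℤ × ℤ} {n : ℕ}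
    (h : 2 * n ≤ nrm (z - x)) :
    (n ≤ nrm (p.1 - x) ∧ n ≤ nrm (p.2 - x)) ∨ (n ≤ nrm (p.1 - z) ∧ n ≤ nrm (p.2 - z)) := by
  have h1 : p.1.1 ≤ p.2.1 ∧ p.2.1 ≤ p.1.1 + 1 := by
    rcases hp with e | e <;> rw [e] <;> simp
  have h2 : p.1.2 ≤ p.2.2 ∧ p.2.2 ≤ p.1.2 + 1 := by
    rcases hp with e | e <;> rw [e] <;> simp
  simp only [potG_ge, Prod.fst_sub, Prod.snd_sub] at h ⊢
  push_cast at h
  rcases h with (h | h) | (h | h)
  · by_cases c : (n : ℤ) ≤ p.1.1 - x.1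
    · exact Or.inl ⟨Or.inl (Or.inl c), Or.inl (Or.inl (by omega))⟩
    · exact Or.inr ⟨Or.inl (Or.inr (by omega)), Or.inl (Or.inr (by omega))⟩
  · by_cases c : (n : ℤ) ≤ p.1.1 - z.1
    · exact Or.inr ⟨Or.inl (Or.inl c), Or.inl (Or.inl (by omega))⟩
    · exact Or.inl ⟨Or.inl (Or.inr (by omega)), Or.inl (Or.inr (by omega))⟩
  · by_cases c : (n : ℤ) ≤ p.1.2 - x.2
    · exact Or.inl ⟨Or.inr (Or.inl c), Or.inr (Or.inl (by omega))⟩
    · exact Or.inr ⟨Or.inr (Or.inr (by omega)), Or.inr (Or.inr (by omega))⟩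
  · by_cases c : (n : ℤ) ≤ p.1.2 - z.2
    · exact Or.inr ⟨Or.inr (Or.inl c), Or.inr (Or.inl (by omega))⟩
    · exact Or.inl ⟨Or.inr (Or.inr (by omega)), Or.inr (Or.inr (by omega))⟩

theorem potG_pf (h : Pot1Stmt) : PotGStmt := by
  intro ε δ hε hδ
  obtain ⟨C, hC⟩ := h ε δ hε hδ
  have l3 : 0 ≤ log 3 := log_nonneg (by norm_num)
  have hCa := le_abs_self C
  have hC0 := abs_nonneg C
  refine ⟨2 * |C| + 2 * log 3, fun x z hr => ?_⟩
  obtain ⟨r, er⟩ : ∃ r, nrm (z - x) = r := ⟨_, rfl⟩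
  rw [er] at hr ⊢
  by_cases h1 : r = 1
  · subst h1
    refine ⟨fun _ => 0, ?_, fun p _ => by simpa using hδ.le, fun A _ => ?_⟩
    · simp only [Nat.cast_one, log_one]; linarith
    · simp only [Nat.cast_one, log_one, sub_self, ne_eq, OfNat.ofNat_ne_zero, not_false_eq_true,
        zero_pow, Finset.sum_const_zero]
      linarith
  obtain ⟨ψ, p0, p1, p2, p3⟩ := hC (r / 2) (by omega)
  set n := r / 2 with hn
  have hn1 : (1 : ℝ) ≤ n := by exact_mod_cast (show 1 ≤ n by omega)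
  have hnr : (n : ℝ) ≤ r := by exact_mod_cast (show n ≤ r by omega)
  have hr3 : (r : ℝ) ≤ 3 * n := by exact_mod_cast (show r ≤ 3 * n by omega)
  have hr0 : (0 : ℝ) < r := by linarith
  have g1 : log n ≤ log r := log_le_log (by linarith) hnr
  have g2 : log r ≤ log 3 + log n := by
    rw [← log_mul (by norm_num) (by linarith)]
    exact log_le_log hr0 hr3
  have key : ∀ p, Nb p → ψ (p.1 - x) - ψ (p.2 - x) = 0 ∨ ψ (p.1 - z) - ψ (p.2 - z) = 0 := by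
    intro p hp
    rcases potG_far (n := n) (x := x) (z := z) hp (by omega) with a | a
    · left
      rw [potG_zero p1 _ a.1, potG_zero p1 _ a.2, sub_self]
    · right
      rw [potG_zero p1 _ a.1, potG_zero p1 _ a.2, sub_self]
  refine ⟨fun y => ψ (y - x) - ψ (y - z), ?_, fun p hp => ?_, fun A hA => ?_⟩
  · have z1 : ψ (x - z) = 0 := potG_zero p1 _ (by
      have : n ≤ nrm (z - x) := by omega
      simp only [potG_ge, Prod.fst_sub, Prod.snd_sub] at this ⊢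
      omega)
    have z2 : ψ (z - x) = 0 := potG_zero p1 _ (by omega)
    have z3 : ψ 0 = ψ (0, 0) := rfl
    simp only [z1, z2, sub_self, z3]
    linarith
  · have e : ψ (p.1 - x) - ψ (p.1 - z) - (ψ (p.2 - x) - ψ (p.2 - z)) =
        (ψ (p.1 - x) - ψ (p.2 - x)) - (ψ (p.1 - z) - ψ (p.2 - z)) := by ring
    rw [e]
    rcases key p hp with w | w
    · rw [w, zero_sub, abs_neg]
      exact p2 _ (potG_nb hp z)
    · rw [w, sub_zero]
      exact p2 _ (potG_nb hp x)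
  · have e : ∀ p ∈ A, (ψ (p.1 - x) - ψ (p.1 - z) - (ψ (p.2 - x) - ψ (p.2 - z))) ^ 2 =
        (ψ (p.1 - x) - ψ (p.2 - x)) ^ 2 + (ψ (p.1 - z) - ψ (p.2 - z)) ^ 2 := by
      intro p hp
      rcases key p (hA p hp) with w | w
      · linear_combination (-2 * (ψ (p.1 - z) - ψ (p.2 - z))) * w
      · linear_combination (-2 * (ψ (p.1 - x) - ψ (p.2 - x))) * w
    rw [Finset.sum_congr rfl e, Finset.sum_add_distrib]
    have a1 := pot_shift p3 x A hA
    have a2 := pot_shift p3 z A hA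
    have a3 : (1 + ε) * (2 * π) * log n ≤ (1 + ε) * (2 * π) * log r :=
      mul_le_mul_of_nonneg_left g1 (by positivity)
    linarith

end Vale.Agent.P159
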