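import Vale.Agent.P159.Stm2

/-! Product formula on a disjoint union and the cone of positive definite kernels. -/

open MeasureTheory Real Filter Topology

namespace Vale.Agent.P159

theorem prod_pf : ProdStmt := by
  intro V V' _ _ F G _ _
  have h := (volume_measurePreserving_sumPiEquivProdPi (fun _ : V ⊕ V' => ℝ)).setIntegral_preimage_emb
    (MeasurableEquiv.sumPiEquivProdPi fun _ : V ⊕ V' => ℝ).measurableEmbedding
    (fun p : (V → ℝ) × (V' → ℝ) => F p.1 * G p.2) (cube V ×ˢ cube V')
  have e : (MeasurableEquiv.sumPiEquivProdPi fun _ : V ⊕ V' => ℝ) ⁻¹' (cube V ×ˢ cube V') =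
      cube (V ⊕ V') := by
    ext ω
    simp only [cube, Set.mem_preimage, Set.mem_prod, Set.mem_pi, Set.mem_univ, true_imp_iff,
      Sum.forall]
    rfl
  rw [e] at h
  unfold I
  rw [← setIntegral_prod_mul F G (cube V) (cube V')]
  exact h

theorem pc_pf (h : ProdStmt) : PCStmt := by
  intro V _
  refine ⟨fun F hF => ?_, fun F hF G hG => ?_⟩
  · induction hF using AddSubmonoid.closure_induction with
    | mem F hF =>
      obtain ⟨φ, hφ, rfl⟩ := hF
      refine ⟨by fun_prop, ?_⟩
      rw [h V V φ φ hφ hφ]
      exact mul_self_nonneg _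
    | zero => exact ⟨continuous_zero, by simp [I]⟩
    | add F G _ _ a b =>
      refine ⟨a.1.add b.1, ?_⟩
      have : I (F + G) = I F + I G := integral_add (intOn_cube a.1) (intOn_cube b.1)
      rw [this]
      exact add_nonneg a.2 b.2
  · induction hF using AddSubmonoid.closure_induction with
    | mem F hF =>
      obtain ⟨φ, hφ, rfl⟩ := hF
      induction hG using AddSubmonoid.closure_induction with
      | mem G hG =>
        obtain ⟨ψ, hψ, rfl⟩ := hG
        refine AddSubmonoid.subset_closure ⟨φ * ψ, hφ.mul hψ, ?_⟩
        funext ω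
        simp only [Pi.mul_apply]
        ring
      | zero => rw [mul_zero]; exact zero_mem _
      | add G G' _ _ a b => rw [mul_add]; exact add_mem a b
    | zero => rw [zero_mul]; exact zero_mem _
    | add F F' _ _ a b => rw [add_mul]; exact add_mem a b

end Vale.Agent.P159
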