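import Vale.Agent.P159.Stm2

/-! Integration of a function of some of the angles. -/

open MeasureTheory Real Filter Topology

namespace Vale.Agent.P159

lemma pull_reindex {A B : Type} [Fintype A] [Fintype B] (e : A ≃ B) (G : (B → ℝ) → ℝ) :
    I (fun ω : A → ℝ => G fun b => ω (e.symm b)) = I G := by
  have hm := volume_measurePreserving_piCongrLeft (fun _ : B => ℝ) e
  have he : ∀ ω : A → ℝ, MeasurableEquiv.piCongrLeft (fun _ : B => ℝ) e ω =
      fun b => ω (e.symm b) := fun ω => by
    funext b
    obtain ⟨a, rfl⟩ := e.surjective b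
    rw [MeasurableEquiv.piCongrLeft_apply_apply, Equiv.symm_apply_apply]
  have hc : MeasurableEquiv.piCongrLeft (fun _ : B => ℝ) e ⁻¹' cube B = cube A := by
    ext ω
    simp only [Set.mem_preimage, he, cube, Set.mem_pi, Set.mem_univ, true_imp_iff]
    exact ⟨fun h a => by simpa using h (e a), fun h b => h _⟩
  have h1 := hm.setIntegral_preimage_emb (MeasurableEquiv.measurableEmbedding _) G (cube B)
  rw [hc] at h1
  simp only [he] at h1
  exact h1

theorem pull_pf (h : ProdStmt) : PullStmt := by
  classical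
  intro V V' _ _ ι hι
  let e : V ⊕ {y // y ∉ Set.range ι} ≃ V' :=
    (Equiv.sumCongr (Equiv.ofInjective ι hι) (Equiv.refl _)).trans
      (Equiv.sumCompl fun y => y ∈ Set.range ι)
  have he : ∀ y, e.symm (ι y) = Sum.inl y := fun y => e.symm_apply_eq.2 rfl
  have hW : W (∅ : Finset ({y // y ∉ Set.range ι} × {y // y ∉ Set.range ι})) (fun _ => 0) =
      fun _ => 1 := by
    funext θ
    simp [W]
  refine ⟨I (fun _ : {y // y ∉ Set.range ι} → ℝ => (1 : ℝ)), hW ▸ I_W_pos _ _, fun F hF => ?_⟩
  have h1 := h V {y // y ∉ Set.range ι} F (fun _ => 1) hF continuous_const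
  rw [← pull_reindex e, mul_comm, ← h1]
  simp only [he, mul_one]

end Vale.Agent.P159
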