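import Vale.Agent.P159.Stm2

/-! Comparison of the two point function with the one along the axis. -/

open MeasureTheory Real Filter Topology

namespace Vale.Agent.P159

namespace ReflAux

/-- lattice maps from a box to the box of double size -/
def Ok (R : ℕ) (φ : ℤ × ℤ → ℤ × ℤ) : Prop :=
  Function.Injective φ ∧ (∀ p, Nb p → Nb (φ p.1, φ p.2) ∨ Nb (φ p.2, φ p.1)) ∧
    ∀ u ∈ box R, φ u ∈ box (2 * R)

lemma mb {R : ℕ} {x : ℤ × ℤ} : x ∈ box R ↔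
    (-(R : ℤ) ≤ x.1 ∧ x.1 ≤ R) ∧ -(R : ℤ) ≤ x.2 ∧ x.2 ≤ R := by
  simp only [box, Finset.mem_product, Finset.mem_Icc]

lemma ok_of {R : ℕ} {x : ℤ × ℤ} (hx : x ∈ box R) (f g : ℤ × ℤ → ℤ)
    (h : (∀ u, f u = u.1 - x.1 ∧ g u = u.2 - x.2) ∨ (∀ u, f u = x.1 - u.1 ∧ g u = x.2 - u.2) ∨
      (∀ u, f u = u.2 - x.2 ∧ g u = u.1 - x.1) ∨ ∀ u, f u = x.2 - u.2 ∧ g u = x.1 - u.1) :
    Ok R fun u => (f u, g u) := by
  rw [mb] at hx
  refine ⟨fun u v huv => ?_, fun p hp => ?_, fun u hu => ?_⟩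
  · simp only [Prod.mk.injEq] at huv
    rcases h with h | h | h | h <;>
    · have h1 := h u
      have h2 := h v
      exact Prod.ext (by omega) (by omega)
  · simp only [Nb, Prod.ext_iff, Prod.fst_add, Prod.snd_add] at hp ⊢
    rcases h with h | h | h | h <;>
    · have h1 := h p.1
      have h2 := h p.2
      omega
  · rw [mb] at hu ⊢
    rcases h with h | h | h | h <;>
    · have h1 := h u
      push_cast
      omega

lemma ex_ok {R : ℕ} {x : ℤ × ℤ} (hx : x ∈ box R) (z : ℤ × ℤ) :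
    ∃ φ, Ok R φ ∧ φ x = (0, 0) ∧ (φ z).1 = (nrm (z - x) : ℤ) := by
  have hn : (nrm (z - x) : ℤ) = z.1 - x.1 ∨ (nrm (z - x) : ℤ) = x.1 - z.1 ∨
      (nrm (z - x) : ℤ) = z.2 - x.2 ∨ (nrm (z - x) : ℤ) = x.2 - z.2 := by
    simp only [nrm, Prod.fst_sub, Prod.snd_sub]
    omega
  rcases hn with h | h | h | h
  · exact ⟨_, ok_of hx _ _ (Or.inl fun _ => ⟨rfl, rfl⟩), by simp, h.symm⟩
  · exact ⟨_, ok_of hx _ _ (Or.inr (Or.inl fun _ => ⟨rfl, rfl⟩)), by simp, h.symm⟩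
  · exact ⟨_, ok_of hx _ _ (Or.inr (Or.inr (Or.inl fun _ => ⟨rfl, rfl⟩))), by simp, h.symm⟩
  · exact ⟨_, ok_of hx _ _ (Or.inr (Or.inr (Or.inr fun _ => ⟨rfl, rfl⟩))), by simp, h.symm⟩

end ReflAux

open ReflAux in
theorem refl_pf (h1 : LatStmt) (h2 : LebStmt) (h3 : GriStmt) (h4 : LimStmt) : ReflStmt := by
  intro b hb R x hx z hz
  obtain ⟨φ, ⟨f1, f2, f3⟩, fx, fz⟩ := ex_ok hx z
  set n := nrm (z - x) with hn
  have hn2 : (n : ℤ) ≤ 2 * R := by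
    have := (mb.1 (f3 z hz)).1.2
    rw [fz] at this
    exact_mod_cast this
  have b1 : ∀ u ∈ box R, φ u ∈ box (6 * R) := fun u hu => by
    have := mb.1 (f3 u hu)
    rw [mb]
    push_cast at this ⊢
    omega
  have b2 : ∀ u ∈ box R, ((2 * (n : ℤ) - (φ u).1, (φ u).2) : ℤ × ℤ) ∈ box (6 * R) :=
    fun u hu => by
      have := mb.1 (f3 u hu)
      rw [mb]
      push_cast at this ⊢
      omega
  have t1 := h1 b R (6 * R) φ hb.le f1 f2 b1 x hx z hz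
  have t2 := h1 b R (6 * R) (fun u => (2 * (n : ℤ) - (φ u).1, (φ u).2)) hb.le
    (fun u v huv => f1 (by
      simp only [Prod.mk.injEq] at huv
      exact Prod.ext (by omega) huv.2))
    (fun p hp => by
      have := f2 p hp
      simp only [Nb, Prod.ext_iff, Prod.fst_add, Prod.snd_add] at this ⊢
      omega) b2 z hz x hx
  have ez : ((2 * (n : ℤ) - (φ z).1, (φ z).2) : ℤ × ℤ) = φ z := Prod.ext (by simp only; omega) rfl
  have ex : ((2 * (n : ℤ) - (φ x).1, (φ x).2) : ℤ × ℤ) = (((2 * n : ℕ) : ℤ), 0) := by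
    rw [fx]; simp
  have m1 := b1 x hx
  have m2 := b1 z hz
  have m3 := b2 x hx
  rw [ex] at m3
  simp only [ez, ex] at t2
  rw [T_symm b R z x] at t2
  have t0 : 0 ≤ T b R x z := by
    rw [T_eq b R hx hz]
    exact (h3 _ (edges R) _ fun _ _ => hb.le).1 _ _
  have l := (h2 _ (edges (6 * R)) (fun _ => b) fun _ _ => hb.le).2 ⟨_, m1⟩ ⟨_, m2⟩ ⟨_, m3⟩
  rw [← T_eq, ← T_eq, ← T_eq, fx] at l
  rw [fx] at t1
  have c := (h4 b hb).2.1 (2 * n) (6 * R) (by omega)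
  rw [corr_eq] at c
  have := mul_le_mul t1 t2 t0 (t0.trans t1)
  nlinarith

end Vale.Agent.P159
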