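import Vale.Agent.P159.Stm

/-! Transport of the resistance bound to every edge. -/

open MeasureTheory Real

namespace Vale.Agent.P159

lemma res_en {g : ℤ × ℤ → ℝ} {c : ℝ} (hg : En g c) (φ : ℤ × ℤ → ℤ × ℤ)
    (hφ : Function.Injective φ) (hN : ∀ p, Nb p → Nb (φ p.1, φ p.2)) : En (fun y => g (φ y)) c := by
  intro A hA
  have hi : Function.Injective (Prod.map φ φ) := hφ.prodMap hφ
  have := hg (A.image (Prod.map φ φ)) fun p hp => by
    obtain ⟨q, hq, rfl⟩ := Finset.mem_image.1 hp
    exact hN q (hA q hq)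
  rwa [Finset.sum_image fun a _ b _ h => hi h] at this

lemma res_add {g : ℤ × ℤ → ℝ} {c : ℝ} (hg : En g c) (v : ℤ × ℤ) : En (fun y => g (y + v)) c :=
  res_en hg (fun y => y + v) (add_left_injective v) fun p hp => by
    rcases hp with h | h
    · exact Or.inl (by simp only [h]; abel)
    · exact Or.inr (by simp only [h]; abel)

lemma res_swap {g : ℤ × ℤ → ℝ} {c : ℝ} (hg : En g c) : En (fun y => g y.swap) c :=
  res_en hg Prod.swap Prod.swap_injective fun p hp => by
    rcases hp with h | h
    · exact Or.inr (by simp only [h]; rfl)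
    · exact Or.inl (by simp only [h]; rfl)

theorem res_pf (h : Res0Stmt) : ResStmt := by
  have key : ∀ c : ℝ, 2 < c → ∃ g : ℤ × ℤ → ℝ, (g (0, 0) - g (1, 0)) ^ 2 = 1 ∧ En g c := by
    intro c hc
    obtain ⟨⟨x, y⟩, he, g, h1, h2⟩ := h c hc
    rcases he with he | he
    · simp only at he h1
      refine ⟨fun z => g (z + x), ?_, res_add h2 x⟩
      rw [he, add_comm] at h1
      simpa [show ((0, 0) : ℤ × ℤ) = 0 from rfl] using h1
    · simp only at he h1
      refine ⟨fun z => g (z.swap + x), ?_, res_swap (res_add h2 x)⟩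
      rw [he, add_comm] at h1
      simpa [show ((0, 0) : ℤ × ℤ) = 0 from rfl] using h1
  intro c hc ⟨x, y⟩ he
  obtain ⟨g, h1, h2⟩ := key c hc
  rcases he with he | he
  · simp only at he
    refine ⟨fun z => g (z + -x), ?_, res_add h2 (-x)⟩
    subst he
    simpa [show ((0, 0) : ℤ × ℤ) = 0 from rfl, add_comm x, add_assoc] using h1
  · simp only at he
    refine ⟨fun z => g (z + -x).swap, ?_, res_add (res_swap h2) (-x)⟩
    subst he
    simpa [show ((0, 0) : ℤ × ℤ) = 0 from rfl, add_comm x, add_assoc] using h1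

end Vale.Agent.P159
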