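import Vale.Agent.P159.Stm

/-! The effective resistance of one edge of the square lattice, by counting dimensions. -/

open MeasureTheory Real

namespace Vale.Agent.P159

theorem res0_proj {E : Type} [Fintype E] (K : Submodule ℝ (EuclideanSpace ℝ E)) (c : ℝ)
    (h0 : 0 < c) (hc : (Fintype.card E : ℝ) < c * Module.finrank ℝ K) :
    ∃ e : E, ∃ w ∈ K, w e = 1 ∧ ∑ p, w p ^ 2 ≤ c := by
  set b := stdOrthonormalBasis ℝ K with hb
  set q : E → ℝ := fun e => ∑ k, (b k : EuclideanSpace ℝ E) e ^ 2 with hq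
  have h1 : ∑ e, q e = Module.finrank ℝ K := by
    simp only [hq]
    rw [Finset.sum_comm]
    have : ∀ k, ∑ e, (b k : EuclideanSpace ℝ E) e ^ 2 = 1 := fun k => by
      rw [← EuclideanSpace.real_norm_sq_eq, ← Submodule.coe_norm, b.orthonormal.1 k, one_pow]
    simp [this]
  obtain ⟨e, he⟩ : ∃ e, 1 < c * q e := by
    by_contra h
    push Not at h
    have := Finset.sum_le_sum fun e (_ : e ∈ Finset.univ) => h e
    rw [← Finset.mul_sum, h1] at this
    simp only [Finset.sum_const, Finset.card_univ, nsmul_eq_mul, mul_one] at this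
    linarith
  have q0 : 0 < q e := pos_of_mul_pos_left (b := c) (by rw [mul_comm]; linarith) h0.le
  set v : EuclideanSpace ℝ (Fin (Module.finrank ℝ K)) :=
    WithLp.toLp 2 fun k => (b k : EuclideanSpace ℝ E) e with hv
  have h2 : ((b.repr.symm v : K) : EuclideanSpace ℝ E) e = q e := by
    rw [← b.sum_repr_symm]
    simp [hv, hq, sq]
  have h3 : ∑ p, ((b.repr.symm v : K) : EuclideanSpace ℝ E) p ^ 2 = q e := by
    rw [← EuclideanSpace.real_norm_sq_eq, ← Submodule.coe_norm, LinearIsometryEquiv.norm_map,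
      EuclideanSpace.real_norm_sq_eq]
  refine ⟨e, (q e)⁻¹ • ((b.repr.symm v : K) : EuclideanSpace ℝ E),
    K.smul_mem _ (b.repr.symm v).2, ?_, ?_⟩
  · rw [PiLp.smul_apply, h2, smul_eq_mul, inv_mul_cancel₀ q0.ne']
  · simp only [PiLp.smul_apply, smul_eq_mul, mul_pow]
    rw [← Finset.mul_sum, h3, sq, mul_assoc, inv_mul_cancel₀ q0.ne', mul_one,
      inv_le_iff_one_le_mul₀ q0]
    exact he.le

/-- the square -/
noncomputable def resS (n : ℕ) : Finset (ℤ × ℤ) := Finset.Ico (0 : ℤ) n ×ˢ Finset.Ico (0 : ℤ) n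

/-- the edges that meet the square -/
noncomputable def resE (n : ℕ) : Finset ((ℤ × ℤ) × (ℤ × ℤ)) :=
  ((Finset.Ico (-1 : ℤ) n ×ˢ Finset.Ico (0 : ℤ) n).image fun y => (y, y + (1, 0))) ∪
    (Finset.Ico (0 : ℤ) n ×ˢ Finset.Ico (-1 : ℤ) n).image fun y => (y, y + (0, 1))

theorem resE_card (n : ℕ) : (resE n).card ≤ 2 * n * (n + 1) := by
  refine (Finset.card_union_le _ _).trans ((add_le_add Finset.card_image_le
    Finset.card_image_le).trans_eq ?_)
  have e : ((n : ℤ) - -1).toNat = n + 1 := by omega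
  simp only [Finset.card_product, Int.card_Ico, e, sub_zero, Int.toNat_natCast]
  ring

theorem resE_nb {n : ℕ} {p : (ℤ × ℤ) × (ℤ × ℤ)} (h : p ∈ resE n) : Nb p := by
  rcases Finset.mem_union.1 h with h | h <;> obtain ⟨y, -, rfl⟩ := Finset.mem_image.1 h
  exacts [Or.inl rfl, Or.inr rfl]

theorem resE_out {n : ℕ} {p : (ℤ × ℤ) × (ℤ × ℤ)} (h : Nb p) (h' : p ∉ resE n) :
    p.1 ∉ resS n ∧ p.2 ∉ resS n := by
  obtain ⟨⟨a, b⟩, z⟩ := p
  rcases h with h | h <;> simp only at h <;> subst h <;> constructor <;> intro hs <;> apply h' <;>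
    simp only [resS, Finset.mem_product, Finset.mem_Ico, Prod.fst_add, Prod.snd_add] at hs
  · exact Finset.mem_union_left _ (Finset.mem_image.2 ⟨(a, b), by
      simp only [Finset.mem_product, Finset.mem_Ico]; omega, rfl⟩)
  · exact Finset.mem_union_left _ (Finset.mem_image.2 ⟨(a, b), by
      simp only [Finset.mem_product, Finset.mem_Ico]; omega, rfl⟩)
  · exact Finset.mem_union_right _ (Finset.mem_image.2 ⟨(a, b), by
      simp only [Finset.mem_product, Finset.mem_Ico]; omega, rfl⟩)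
  · exact Finset.mem_union_right _ (Finset.mem_image.2 ⟨(a, b), by
      simp only [Finset.mem_product, Finset.mem_Ico]; omega, rfl⟩)

/-- extension by zero -/
noncomputable def resX {n : ℕ} (g : resS n → ℝ) (y : ℤ × ℤ) : ℝ :=
  if h : y ∈ resS n then g ⟨y, h⟩ else 0

theorem resX_out {n : ℕ} (g : resS n → ℝ) {p : (ℤ × ℤ) × (ℤ × ℤ)} (h : Nb p) (h' : p ∉ resE n) :
    resX g p.1 - resX g p.2 = 0 := by
  unfold resX
  rw [dif_neg (resE_out h h').1, dif_neg (resE_out h h').2, sub_self]

/-- the gradient -/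
noncomputable def resD (n : ℕ) : (resS n → ℝ) →ₗ[ℝ] EuclideanSpace ℝ (resE n) where
  toFun g := WithLp.toLp 2 fun e => resX g e.1.1 - resX g e.1.2
  map_add' g g' := by
    ext e
    simp only [resX, PiLp.add_apply]
    split_ifs <;> simp <;> ring
  map_smul' a g := by
    ext e
    simp only [resX, PiLp.smul_apply]
    split_ifs <;> simp <;> ring

theorem resD_inj (n : ℕ) : Function.Injective (resD n) := by
  rw [injective_iff_map_eq_zero]
  intro g hg
  have h1 : ∀ p, Nb p → resX g p.1 - resX g p.2 = 0 := fun p hp => by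
    by_cases h : p ∈ resE n
    · exact congrArg (fun w : EuclideanSpace ℝ (resE n) => w ⟨p, h⟩) hg
    · exact resX_out g hp h
  have h2 : ∀ (m : ℕ) (j : ℤ), resX g ((m : ℤ) - 1, j) = 0 := fun m j => by
    induction m with
    | zero => exact dif_neg (by simp [resS])
    | succ m ih =>
      have := h1 (((m : ℤ) - 1, j), (((m + 1 : ℕ) : ℤ) - 1, j)) (Or.inl (by simp))
      simp only at this
      linarith
  funext y
  obtain ⟨⟨a, b⟩, hy⟩ := y
  have h3 : 0 ≤ a := by
    simp only [resS, Finset.mem_product, Finset.mem_Ico] at hy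
    exact hy.1.1
  have h4 := h2 (a.toNat + 1) b
  have e : ((a.toNat + 1 : ℕ) : ℤ) - 1 = a := by omega
  rw [e] at h4
  unfold resX at h4
  rwa [dif_pos hy] at h4

theorem res0_pf : Res0Stmt := by
  intro c hc
  obtain ⟨n, hn⟩ := exists_nat_gt (2 / (c - 2))
  have c0 : 0 < c - 2 := by linarith
  have n0 : (0 : ℝ) < n := lt_trans (by positivity) hn
  rw [div_lt_iff₀ c0] at hn
  obtain ⟨e, w, ⟨g, rfl⟩, h1, h2⟩ := res0_proj (LinearMap.range (resD n)) c (by linarith) (by
    rw [LinearMap.finrank_range_of_inj (resD_inj n), Module.finrank_fintype_fun_eq_card,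
      Fintype.card_coe, Fintype.card_coe]
    have a : ((resE n).card : ℝ) ≤ 2 * n * (n + 1) := by exact_mod_cast resE_card n
    have b : ((resS n).card : ℝ) = n * n := by simp [resS]
    rw [b]
    nlinarith)
  refine ⟨e, resE_nb e.2, resX g, ?_, fun A hA => le_trans ?_ h2⟩
  · have : resX g e.1.1 - resX g e.1.2 = 1 := h1
    rw [this, one_pow]
  · classical
    change _ ≤ ∑ p : resE n, (resX g p.1.1 - resX g p.1.2) ^ 2
    rw [Finset.sum_coe_sort (resE n) fun p => (resX g p.1 - resX g p.2) ^ 2,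
      ← Finset.sum_filter_of_ne (p := fun p => p ∈ resE n) fun p hp h => by
        by_contra h'
        exact h (by rw [resX_out g (hA p hp) h']; simp)]
    exact Finset.sum_le_sum_of_subset_of_nonneg (fun p hp => (Finset.mem_filter.1 hp).2)
      fun _ _ _ => sq_nonneg _

end Vale.Agent.P159
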