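import Vale.Agent.P159.Stm2

/-! Exponential decay from a bounded susceptibility. -/

open MeasureTheory Real Filter Topology

namespace Vale.Agent.P159

lemma sim_tri (x w z : ℤ × ℤ) : nrm (z - x) ≤ nrm (z - w) + nrm (w - x) := by
  simp only [nrm, Prod.fst_sub, Prod.snd_sub]
  omega

theorem sim_pf (h1 : CutStmt) (h2 : GriStmt) : SimStmt := by
  intro b X hb
  obtain ⟨L0, hL0⟩ := exists_nat_ge (4 * b * X)
  obtain ⟨L, hL, hLX⟩ : ∃ L : ℕ, 1 ≤ L ∧ 4 * b * X ≤ L :=
    ⟨L0 + 1, by omega, by push_cast; linarith⟩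
  have L0' : (0:ℝ) < L := by exact_mod_cast hL
  refine ⟨2 * L, by omega, fun R hX => ?_⟩
  have t0 : ∀ x ∈ box R, ∀ z ∈ box R, 0 ≤ T b R x z := fun x hx z hz => by
    rw [T_eq b R hx hz]
    exact (h2 _ _ _ fun _ _ => hb).1 _ _
  have sh : ∀ x ∈ box R, ∃ j < L, ∑ w ∈ (box R).filter
      (fun w => 2 * j ≤ nrm (w - x) ∧ nrm (w - x) ≤ 2 * j + 1), T b R x w ≤ X / L := by
    intro x hx
    have e : ∑ j ∈ Finset.range L, ∑ w ∈ (box R).filter (fun w => nrm (w - x) / 2 = j), T b R x w
        ≤ ∑ _j ∈ Finset.range L, X / L := by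
      rw [Finset.sum_fiberwise_eq_sum_filter, Finset.sum_const, Finset.card_range, nsmul_eq_mul,
        mul_div_cancel₀ _ L0'.ne']
      exact (Finset.sum_le_sum_of_subset_of_nonneg (Finset.filter_subset _ _)
        fun w hw _ => t0 x hx w hw).trans (hX x hx)
    obtain ⟨j, hj, h⟩ := Finset.exists_le_of_sum_le (Finset.nonempty_range_iff.2 (by omega)) e
    refine ⟨j, Finset.mem_range.1 hj, le_of_eq_of_le ?_ h⟩
    exact Finset.sum_congr (Finset.filter_congr fun w _ => by omega) fun _ _ => rfl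
  intro k
  induction k with
  | zero =>
    intro x hx z hz _
    rw [T_eq b R hx hz, pow_zero]
    exact tp_le_one _ _ _ _
  | succ k ih =>
    intro x hx z hz hk
    obtain ⟨j, hj, h⟩ := sh x hx
    rw [add_mul, one_mul] at hk
    have M0 : (0:ℝ) ≤ (1 / 2) ^ k := by positivity
    have := h1 b R (2 * j) hb x hx z hz _ M0 (by omega) fun w hw hw' =>
      ih w hw z hz (by have := sim_tri x w z; omega)
    refine (this.trans (mul_le_mul_of_nonneg_left h (by positivity))).trans ?_
    have h4 : 2 * b * (X / L) ≤ 1 / 2 := by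
      rw [← mul_div_assoc, div_le_iff₀ L0']
      linarith
    rw [pow_succ, mul_right_comm, mul_comm]
    exact mul_le_mul_of_nonneg_left h4 M0

end Vale.Agent.P159
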