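import Vale.Agent.P159.Defs

/-! Statements of the steps. -/

open MeasureTheory Real

namespace Vale.Agent.P159

noncomputable section

/-- weight of a general finite model with edge set `E` and couplings `J` -/
def W {V : Type} (E : Finset (V × V)) (J : V × V → ℝ) (θ : V → ℝ) : ℝ :=
  exp (∑ p ∈ E, J p * cos (θ p.1 - θ p.2))

/-- integral over the cube -/
def I {V : Type} [Fintype V] (F : (V → ℝ) → ℝ) : ℝ := ∫ θ in cube V, F θ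

/-- periodic in every coordinate -/
def Per {V : Type} {A : Type} (F : (V → ℝ) → A) : Prop :=
  ∀ (θ : V → ℝ) (k : V → ℤ), F (fun y => θ y + (k y : ℝ) * (2 * π)) = F θ

/-- lattice edge -/
def Nb (p : (ℤ × ℤ) × (ℤ × ℤ)) : Prop := p.2 = p.1 + (1, 0) ∨ p.2 = p.1 + (0, 1)

/-- the Dirichlet energy of `g` on the square lattice is at most `c` -/
def En (g : ℤ × ℤ → ℝ) (c : ℝ) : Prop :=
  ∀ A : Finset ((ℤ × ℤ) × (ℤ × ℤ)), (∀ p ∈ A, Nb p) → ∑ p ∈ A, (g p.1 - g p.2) ^ 2 ≤ c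

def ShiftStmt : Prop := ∀ (V : Type) [Fintype V] (F : (V → ℝ) → ℂ), Continuous F → Per F →
  ∀ v : V → ℝ, ∫ θ in cube V, F (θ + v) = ∫ θ in cube V, F θ

def DerStmt : Prop := ∀ (V : Type) [Fintype V] (F F' : (V → ℝ) → ℝ) (g : V → ℝ),
  Continuous F → Continuous F' → Per F →
  (∀ θ, HasDerivAt (fun t : ℝ => F (θ + t • g)) (F' θ) 0) → I F' = 0

def WardStmt : Prop := ∀ (V : Type) [Fintype V] (E : Finset (V × V)) (J : V × V → ℝ) (g : V → ℝ),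
  (∀ e : V × V, (g e.1 - g e.2) * I (fun θ => cos (θ e.1 - θ e.2) * W E J θ) =
    I (fun θ => sin (θ e.1 - θ e.2) *
      (∑ p ∈ E, J p * (g p.1 - g p.2) * sin (θ p.1 - θ p.2)) * W E J θ)) ∧
  ∑ p ∈ E, J p * (g p.1 - g p.2) ^ 2 * I (fun θ => cos (θ p.1 - θ p.2) * W E J θ) =
    I (fun θ => (∑ p ∈ E, J p * (g p.1 - g p.2) * sin (θ p.1 - θ p.2)) ^ 2 * W E J θ)

def BogStmt : Prop := ∀ (V : Type) [Fintype V] (E : Finset (V × V)) (J : V × V → ℝ) (g : V → ℝ)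
  (B U c : ℝ) (e : V × V), (∀ p ∈ E, 0 ≤ J p ∧ J p ≤ B) → 0 ≤ B → 0 < U →
  (∀ p ∈ E, I (fun θ => cos (θ p.1 - θ p.2) * W E J θ) ≤ U * I (W E J)) →
  I (fun θ => cos (θ e.1 - θ e.2) * W E J θ) = U * I (W E J) →
  (g e.1 - g e.2) ^ 2 = 1 → ∑ p ∈ E, (g p.1 - g p.2) ^ 2 ≤ c → U ≤ (1 - U ^ 2) * B * c

def MSStmt : Prop := ∀ (V : Type) [Fintype V] (E : Finset (V × V)) (J : V × V → ℝ) (a : V → ℝ)
  (x y : V), I (fun θ => cos (θ x - θ y) * W E J θ) ≤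
    exp (-(a x - a y)) * I (W E fun p => J p * cosh (a p.1 - a p.2))

def JenStmt : Prop := ∀ (V : Type) [Fintype V] (E : Finset (V × V)) (J J' : V × V → ℝ) (U : ℝ),
  (∀ p ∈ E, J p ≤ J' p) →
  (∀ p ∈ E, I (fun θ => cos (θ p.1 - θ p.2) * W E J' θ) ≤ U * I (W E J')) →
  I (W E J') ≤ exp (U * ∑ p ∈ E, (J' p - J p)) * I (W E J)

def Res0Stmt : Prop := ∀ c : ℝ, 2 < c → ∃ e, Nb e ∧ ∃ g : ℤ × ℤ → ℝ, (g e.1 - g e.2) ^ 2 = 1 ∧ En g c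

def ResStmt : Prop := ∀ c : ℝ, 2 < c → ∀ e, Nb e → ∃ g : ℤ × ℤ → ℝ, (g e.1 - g e.2) ^ 2 = 1 ∧ En g c

def CircStmt : Prop := ∀ n : ℕ,
  (((Finset.Icc (-(n : ℤ)) n ×ˢ Finset.Icc (-(n : ℤ)) n).filter
    fun y : ℤ × ℤ => y.1 ^ 2 + y.2 ^ 2 ≤ (n : ℤ)).card : ℝ) ≤ π * (√(n : ℝ) + 1) ^ 2

def GaussStmt : Prop := ∃ C : ℝ, ∀ (M : ℕ) (A : Finset (ℤ × ℤ)), 1 ≤ M →
  (∀ y ∈ A, 1 ≤ y.1 ^ 2 + y.2 ^ 2 ∧ y.1 ^ 2 + y.2 ^ 2 ≤ (M : ℤ)) →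
  ∑ y ∈ A, 1 / ((y.1 : ℝ) ^ 2 + (y.2 : ℝ) ^ 2) ≤ π * log M + C

def Pot1Stmt : Prop := ∀ ε δ : ℝ, 0 < ε → 0 < δ → ∃ C : ℝ, ∀ n : ℕ, 1 ≤ n →
  ∃ ψ : ℤ × ℤ → ℝ, log n - C ≤ ψ (0, 0) ∧ (∀ y : ℤ × ℤ, (n : ℤ) ^ 2 ≤ y.1 ^ 2 + y.2 ^ 2 → ψ y = 0) ∧
    (∀ p, Nb p → |ψ p.1 - ψ p.2| ≤ δ) ∧ En ψ ((1 + ε) * (2 * π) * log n + C)

def PotStmt : Prop := ∀ ε δ : ℝ, 0 < ε → 0 < δ → ∃ C : ℝ, ∀ r : ℕ, 1 ≤ r →
  ∃ a : ℤ × ℤ → ℝ, 2 * log r - C ≤ a (0, 0) - a ((r : ℤ), 0) ∧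
    (∀ p, Nb p → |a p.1 - a p.2| ≤ δ) ∧ En a ((1 + ε) * (4 * π) * log r + C)

end

lemma cube_meas (V : Type) [Fintype V] : MeasurableSet (cube V) :=
  MeasurableSet.univ_pi fun _ => measurableSet_Ioc

lemma cube_sub (V : Type) : cube V ⊆ Set.univ.pi fun _ : V => Set.Icc 0 (2 * π) :=
  Set.pi_mono fun _ _ => Set.Ioc_subset_Icc_self

lemma intOn_cube {V : Type} [Fintype V] {A : Type} [NormedAddCommGroup A] {F : (V → ℝ) → A}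
    (hF : Continuous F) : IntegrableOn F (cube V) :=
  (hF.continuousOn.integrableOn_compact
    (isCompact_univ_pi fun _ => isCompact_Icc)).mono_set (cube_sub V)

lemma W_cont {V : Type} (E : Finset (V × V)) (J : V × V → ℝ) : Continuous (W E J) := by
  unfold W
  fun_prop

lemma W_pos {V : Type} (E : Finset (V × V)) (J : V × V → ℝ) (θ : V → ℝ) : 0 < W E J θ :=
  exp_pos _

lemma vol_cube_pos (V : Type) [Fintype V] : 0 < volume (cube V) := by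
  unfold cube
  rw [volume_pi_pi]
  refine pos_iff_ne_zero.2 (Finset.prod_ne_zero_iff.2 fun _ _ => ?_)
  simp [pi_pos]

lemma I_W_pos {V : Type} [Fintype V] (E : Finset (V × V)) (J : V × V → ℝ) : 0 < I (W E J) := by
  unfold I
  rw [setIntegral_pos_iff_support_of_nonneg_ae
    (Filter.Eventually.of_forall fun θ => (W_pos E J θ).le) (intOn_cube (W_cont E J))]
  have : Function.support (W E J) = Set.univ :=
    Set.eq_univ_of_forall fun θ => (W_pos E J θ).ne'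
  rw [this, Set.univ_inter]
  exact vol_cube_pos V

lemma per_diff {V : Type} (θ : V → ℝ) (k : V → ℤ) (x y : V) :
    (θ x + (k x : ℝ) * (2 * π)) - (θ y + (k y : ℝ) * (2 * π)) =
      (θ x - θ y) + ((k x - k y : ℤ) : ℝ) * (2 * π) := by
  push_cast
  ring

lemma W_per {V : Type} (E : Finset (V × V)) (J : V × V → ℝ) : Per (W E J) := by
  intro θ k
  unfold W
  congr 1
  refine Finset.sum_congr rfl fun p _ => ?_
  rw [per_diff, cos_add_int_mul_two_pi]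

end Vale.Agent.P159
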