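import Vale.Agent.P159.Stm2

/-! Summing an exponentially decaying two point bound over the lattice. -/

open MeasureTheory Real Filter Topology

namespace Vale.Agent.P159

namespace SumAux

lemma card_box (R : ℕ) : (box R).card = (2 * R + 1) ^ 2 := by
  have h : ((R : ℤ) + 1 - -(R : ℤ)).toNat = 2 * R + 1 := by omega
  simp only [box, Finset.card_product, Int.card_Icc, h]
  ring

lemma card_fib (x : ℤ × ℤ) (A : Finset (ℤ × ℤ)) (k : ℕ) :
    (A.filter fun z => nrm (z - x) = k + 1).card ≤ 8 * (k + 1) := by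
  have h1 : (A.filter fun z => nrm (z - x) = k + 1).card ≤ (box (k + 1) \ box k).card := by
    refine Finset.card_le_card_of_injOn (fun z => z - x) (fun z hz => ?_)
      (fun a _ b _ e => sub_left_injective e)
    have := (Finset.mem_filter.1 hz).2
    simp only [Finset.coe_sdiff, Set.mem_diff, Finset.mem_coe, mem_box]
    omega
  have h2 : box k ⊆ box (k + 1) := fun z hz => mem_box.2 ((mem_box.1 hz).trans (Nat.le_succ k))
  have h3 := Finset.card_sdiff_add_card_eq_card h2
  rw [card_box, card_box] at h3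
  nlinarith

lemma card_zero (x : ℤ × ℤ) (A : Finset (ℤ × ℤ)) :
    (A.filter fun z => nrm (z - x) = 0).card ≤ 1 := by
  refine (Finset.card_le_card (t := {x}) fun z hz => ?_).trans (by simp)
  have h := (Finset.mem_filter.1 hz).2
  simp only [nrm, Prod.fst_sub, Prod.snd_sub] at h
  rw [Finset.mem_singleton]
  refine Prod.ext ?_ ?_ <;> omega

lemma geo {m : ℝ} (hm : 0 < m) (N : ℕ) :
    m / 2 * ∑ k ∈ Finset.range N, exp (-(m * ((k + 1 : ℕ) : ℝ) / 2)) ≤ 1 - exp (-(m * N / 2)) := by
  induction N with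
  | zero => simp
  | succ N ih =>
    rw [Finset.sum_range_succ, mul_add]
    have e : exp (-(m * N / 2)) = exp (-(m * ((N + 1 : ℕ) : ℝ) / 2)) * exp (m / 2) := by
      rw [← exp_add]
      congr 1
      push_cast
      ring
    have h1 := add_one_le_exp (m / 2)
    have h2 := exp_pos (-(m * ((N + 1 : ℕ) : ℝ) / 2))
    nlinarith

lemma term {η m n : ℝ} (h0 : 0 ≤ η) (h1 : η ≤ 1) (hm : 0 < m) (hn : 0 < n) :
    n * (n ^ (-η) * exp (-(m * n))) ≤ 2 * m ^ (-(1 - η)) * exp (-(m * n / 2)) := by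
  have ht : 0 < m * n := mul_pos hm hn
  have a1 : (m * n) ^ (1 - η) ≤ 1 + m * n := by
    rcases le_total (m * n) 1 with h | h
    · have := rpow_le_one ht.le h (show 0 ≤ 1 - η by linarith)
      linarith
    · have := rpow_le_rpow_of_exponent_le h (show 1 - η ≤ 1 by linarith)
      rw [rpow_one] at this
      linarith
  have a2 : n * n ^ (-η) = m ^ (-(1 - η)) * (m * n) ^ (1 - η) := by
    rw [mul_rpow hm.le hn.le, ← mul_assoc, ← rpow_add hm, neg_add_cancel, rpow_zero, one_mul,
      sub_eq_add_neg, rpow_add hn, rpow_one]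
  have a3 : (1 + m * n) * exp (-(m * n)) ≤ 2 * exp (-(m * n / 2)) := by
    have e : exp (-(m * n / 2)) = exp (-(m * n)) * exp (m * n / 2) := by
      rw [← exp_add]
      congr 1
      ring
    have b1 := add_one_le_exp (m * n / 2)
    have b2 := exp_pos (-(m * n))
    rw [e]
    nlinarith
  have a4 : 0 < m ^ (-(1 - η)) := rpow_pos_of_pos hm _
  have a5 := exp_pos (-(m * n))
  calc n * (n ^ (-η) * exp (-(m * n)))
      = m ^ (-(1 - η)) * ((m * n) ^ (1 - η) * exp (-(m * n))) := by
        rw [← mul_assoc, a2, mul_assoc]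
    _ ≤ m ^ (-(1 - η)) * (2 * exp (-(m * n / 2))) :=
        mul_le_mul_of_nonneg_left ((mul_le_mul_of_nonneg_right a1 a5.le).trans a3) a4.le
    _ = _ := by ring

end SumAux

open SumAux in
theorem sum_pf : SumStmt := by
  intro η K m x A g h0 h1 hK hm hg1 hg
  set N := A.sup fun z => nrm (z - x) with hN
  have hmap : ∀ z ∈ A, nrm (z - x) ∈ Finset.range (N + 1) := fun z hz =>
    Finset.mem_range.2 (Nat.lt_succ_of_le (Finset.le_sup (f := fun z => nrm (z - x)) hz))
  rw [← Finset.sum_fiberwise_of_maps_to hmap, Finset.sum_range_succ', add_comm]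
  have hP : 0 < m ^ (-(1 - η)) := rpow_pos_of_pos hm _
  refine add_le_add ?_ ?_
  · refine (Finset.sum_le_card_nsmul _ _ 1 fun z hz => hg1 z (Finset.mem_filter.1 hz).1).trans ?_
    rw [nsmul_eq_mul, mul_one]
    exact_mod_cast card_zero x A
  · have hk : ∀ k ∈ Finset.range N, ∑ z ∈ A.filter (fun z => nrm (z - x) = k + 1), g z ≤
        16 * K * m ^ (-(1 - η)) * exp (-(m * ((k + 1 : ℕ) : ℝ) / 2)) := by
      intro k _
      have hn : (0 : ℝ) < ((k + 1 : ℕ) : ℝ) := by positivity
      have b0 : 0 ≤ K * ((k + 1 : ℕ) : ℝ) ^ (-η) * exp (-(m * ((k + 1 : ℕ) : ℝ))) := by positivity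
      refine (Finset.sum_le_card_nsmul _ _
        (K * ((k + 1 : ℕ) : ℝ) ^ (-η) * exp (-(m * ((k + 1 : ℕ) : ℝ)))) fun z hz => ?_).trans ?_
      · obtain ⟨z1, z2⟩ := Finset.mem_filter.1 hz
        have := hg z z1 (by omega)
        rwa [z2] at this
      · have c1 : ((A.filter fun z => nrm (z - x) = k + 1).card : ℝ) ≤ 8 * ((k + 1 : ℕ) : ℝ) := by
          exact_mod_cast card_fib x A k
        have c2 := mul_le_mul_of_nonneg_left (term h0 h1 hm hn) (show 0 ≤ 8 * K by positivity)
        rw [nsmul_eq_mul]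
        refine (mul_le_mul_of_nonneg_right c1 b0).trans ?_
        calc _ = 8 * K * (((k + 1 : ℕ) : ℝ) * (((k + 1 : ℕ) : ℝ) ^ (-η) *
              exp (-(m * ((k + 1 : ℕ) : ℝ))))) := by ring
          _ ≤ _ := c2
          _ = _ := by ring
    refine (Finset.sum_le_sum hk).trans ?_
    rw [← Finset.mul_sum]
    have g1 := geo hm N
    have g2 := exp_pos (-(m * N / 2))
    have g3 : ∑ k ∈ Finset.range N, exp (-(m * ((k + 1 : ℕ) : ℝ) / 2)) ≤ 2 * m⁻¹ := by
      rw [← div_eq_mul_inv, le_div_iff₀ hm]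
      linarith
    have e : m ^ (-(2 - η)) = m ^ (-(1 - η)) * m⁻¹ := by
      rw [← rpow_neg_one, ← rpow_add hm]
      congr 1
      ring
    rw [e]
    have g4 := mul_le_mul_of_nonneg_left g3 (show 0 ≤ 16 * K * m ^ (-(1 - η)) by positivity)
    have g5 : 0 ≤ K * (m ^ (-(1 - η)) * m⁻¹) := by positivity
    linarith

end Vale.Agent.P159
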