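import Vale.Agent.P159.Stm

/-! Ward identities. -/

open MeasureTheory Real

namespace Vale.Agent.P159

namespace WardAux

variable {V : Type}

theorem d_lin (θ g : V → ℝ) (x y : V) :
    HasDerivAt (fun t : ℝ => (θ + t • g) x - (θ + t • g) y) (g x - g y) 0 := by
  have h : ∀ z, HasDerivAt (fun t : ℝ => (θ + t • g) z) (g z) 0 := fun z => by
    have h1 := ((hasDerivAt_id (0 : ℝ)).mul_const (g z)).const_add (θ z)
    rw [one_mul] at h1
    exact h1
  exact (h x).sub (h y)

theorem at0 (θ g : V → ℝ) : θ + (0 : ℝ) • g = θ := by rw [zero_smul, add_zero]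

theorem d_sin (θ g : V → ℝ) (x y : V) :
    HasDerivAt (fun t : ℝ => sin ((θ + t • g) x - (θ + t • g) y))
      ((g x - g y) * cos (θ x - θ y)) 0 := by
  have h := (d_lin θ g x y).sin
  rwa [at0, mul_comm] at h

theorem d_cos (θ g : V → ℝ) (x y : V) :
    HasDerivAt (fun t : ℝ => cos ((θ + t • g) x - (θ + t • g) y))
      (-((g x - g y) * sin (θ x - θ y))) 0 := by
  have h := (d_lin θ g x y).cos
  rwa [at0, neg_mul, mul_comm] at h

/-- the current -/
noncomputable def S (E : Finset (V × V)) (J : V × V → ℝ) (g θ : V → ℝ) : ℝ :=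
  ∑ p ∈ E, J p * (g p.1 - g p.2) * sin (θ p.1 - θ p.2)

theorem S_cont (E : Finset (V × V)) (J : V × V → ℝ) (g : V → ℝ) : Continuous (S E J g) := by
  unfold S
  fun_prop

theorem S_per (E : Finset (V × V)) (J : V × V → ℝ) (g : V → ℝ) : Per (S E J g) := by
  intro θ k
  refine Finset.sum_congr rfl fun p _ => ?_
  rw [per_diff, sin_add_int_mul_two_pi]

theorem d_W (E : Finset (V × V)) (J : V × V → ℝ) (g θ : V → ℝ) :
    HasDerivAt (fun t : ℝ => W E J (θ + t • g)) (-(S E J g θ * W E J θ)) 0 := by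
  have h := (HasDerivAt.fun_sum (u := E) fun p _ => (d_cos θ g p.1 p.2).const_mul (J p)).exp
  rw [at0] at h
  refine HasDerivAt.congr_deriv h ?_
  rw [mul_comm, ← neg_mul, S, ← Finset.sum_neg_distrib]
  refine congrArg₂ (· * ·) (Finset.sum_congr rfl fun p _ => ?_) rfl
  ring

theorem d_S (E : Finset (V × V)) (J : V × V → ℝ) (g θ : V → ℝ) :
    HasDerivAt (fun t : ℝ => S E J g (θ + t • g))
      (∑ p ∈ E, J p * (g p.1 - g p.2) ^ 2 * cos (θ p.1 - θ p.2)) 0 := by
  refine (HasDerivAt.fun_sum (u := E) fun p _ =>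
    (d_sin θ g p.1 p.2).const_mul (J p * (g p.1 - g p.2))).congr_deriv ?_
  refine Finset.sum_congr rfl fun p _ => ?_
  ring

end WardAux

open WardAux in
theorem ward_pf (h : DerStmt) : WardStmt := by
  intro V _ E J g
  have hW := W_cont E J
  have hS := S_cont E J g
  have hc : ∀ e : V × V, Continuous fun θ : V → ℝ => cos (θ e.1 - θ e.2) * W E J θ := fun e => by
    fun_prop
  refine ⟨fun e => ?_, ?_⟩
  · have c1 : Continuous fun θ : V → ℝ => (g e.1 - g e.2) * (cos (θ e.1 - θ e.2) * W E J θ) :=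
      continuous_const.mul (hc e)
    have c2 : Continuous fun θ : V → ℝ => sin (θ e.1 - θ e.2) * S E J g θ * W E J θ := by fun_prop
    have k := h V (fun θ => sin (θ e.1 - θ e.2) * W E J θ)
      (fun θ => (g e.1 - g e.2) * (cos (θ e.1 - θ e.2) * W E J θ) -
        sin (θ e.1 - θ e.2) * S E J g θ * W E J θ) g (by fun_prop) (c1.sub c2)
      (fun θ k => by
        beta_reduce
        rw [per_diff, sin_add_int_mul_two_pi, W_per E J θ k])
      fun θ => ((d_sin θ g e.1 e.2).fun_mul (d_W E J g θ)).congr_deriv (by rw [at0]; ring)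
    rw [I, integral_sub (intOn_cube c1) (intOn_cube c2), integral_const_mul, sub_eq_zero] at k
    exact k
  · have c0 : ∀ p : V × V, Continuous fun θ : V → ℝ =>
        J p * (g p.1 - g p.2) ^ 2 * (cos (θ p.1 - θ p.2) * W E J θ) := fun p =>
      continuous_const.mul (hc p)
    have c1 : Continuous fun θ : V → ℝ =>
        ∑ p ∈ E, J p * (g p.1 - g p.2) ^ 2 * (cos (θ p.1 - θ p.2) * W E J θ) :=
      continuous_finsetSum _ fun p _ => c0 p
    have c2 : Continuous fun θ : V → ℝ => S E J g θ ^ 2 * W E J θ := by fun_prop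
    have k := h V (fun θ => S E J g θ * W E J θ)
      (fun θ => ∑ p ∈ E, J p * (g p.1 - g p.2) ^ 2 * (cos (θ p.1 - θ p.2) * W E J θ) -
        S E J g θ ^ 2 * W E J θ) g (hS.mul hW) (c1.sub c2)
      (fun θ k => by
        beta_reduce
        rw [S_per E J g θ k, W_per E J θ k])
      fun θ => ((d_S E J g θ).fun_mul (d_W E J g θ)).congr_deriv (by
        rw [at0, Finset.sum_mul, Finset.sum_congr rfl fun p _ => mul_assoc _ _ (W E J θ)]
        ring)
    rw [I, integral_sub (intOn_cube c1) (intOn_cube c2),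
      integral_finsetSum _ fun p _ => intOn_cube (c0 p), sub_eq_zero] at k
    refine Eq.trans (Finset.sum_congr rfl fun p _ => ?_) k
    exact (integral_const_mul _ _).symm

end Vale.Agent.P159
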